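import Vale.Agent.P192.Nil2
import Vale.Agent.P193.StFP

/-! A finitely presented infinite graded algebra whose augmentation ideal is strongly nil. -/

namespace Vale.Agent.P192

open Matrix Polynomial Vale.Agent.P193

section Inv

variable {I : Type} [Fintype I] (L : Lev I)

theorem inv_deg (d : ℕ) : ∀ (𝓡 : Type) [Ring 𝓡] (e : Ctl × I → 𝓡) (B : Subring 𝓡) (D : ℕ),
    L.Mod e → Cx e B D → ∀ (F : Type) [Fintype F] (c : F → 𝓡) (a : F → Ctl × I)
      (t : F → List (Ctl × I)), (∀ i, c i ∈ B) → (∀ i, (t i).length ≤ d) →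
      ∃ y, (1 - ∑ i, c i * (e (a i) * ev e (t i))) * y = 1 := by
  classical
  induction d with
  | zero =>
    intro 𝓡 _ e B D hm hx F _ c a t hc ht
    obtain ⟨n, hn⟩ := pure_all L D 𝓡 e B hm hx (fun b => ∑ i, if a i = b then c i else 0)
      fun b => B.sum_mem fun i _ => by
        split_ifs
        exacts [hc i, B.zero_mem]
    have : (∑ i, c i * (e (a i) * ev e (t i))) =
        lin e fun b => ∑ i, if a i = b then c i else 0 := by
      simp only [lin, Finset.sum_mul]
      rw [Finset.sum_comm]
      refine Finset.sum_congr rfl fun i _ => ?_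
      rw [List.length_eq_zero_iff.1 (Nat.le_zero.1 (ht i))]
      simp
    rw [this]
    exact ⟨_, by rw [mul_neg_geom_sum, hn, sub_zero]⟩
  | succ d ih =>
    intro 𝓡 _ e B D hm hx F _ c a t hc ht
    let c' : F ⊕ F → Matrix (Option F) (Option F) 𝓡 := Sum.elim
      (fun i => single none (if t i = [] then none else some i) (c i))
      fun i => if t i = [] then 0 else single (some i) none 1
    let a' : F ⊕ F → Ctl × I := Sum.elim a fun i => (t i).headD (a i)
    let t' : F ⊕ F → List (Ctl × I) := Sum.elim (fun _ => []) fun i => (t i).tail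
    obtain ⟨Y, hY⟩ := ih _ _ _ _ (hm.map (scalar (Option F))) (hx.matrix (Option F)) (F ⊕ F)
      c' a' t' (by
        rintro (i | i) k l
        · simp only [c', Sum.elim_inl, single_apply]
          split_ifs <;> first | exact hc i | exact B.zero_mem
        · simp only [c', Sum.elim_inr]
          split_ifs
          · exact B.zero_mem
          · simp only [single_apply]
            split_ifs
            exacts [B.one_mem, B.zero_mem]) (by
        rintro (i | i)
        · simp [t']
        · have := ht i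
          simp [t']; omega)
    set μ := ∑ i, c' i * (scalar (Option F) (e (a' i)) *
      ev (fun a => scalar (Option F) (e a)) (t' i)) with hμ
    have hμ' : ∀ k l, μ k l = ∑ i, c' i k l * (e (a' i) * ev e (t' i)) := by
      intro k l
      simp only [hμ, ev_map, ← map_mul]
      simp only [Matrix.sum_apply, scalar_apply, mul_diagonal]
    have h00 : μ none none = ∑ i, if t i = [] then c i * e (a i) else 0 := by
      rw [hμ', Fintype.sum_sum_type, Finset.sum_eq_zero (s := Finset.univ (α := F))
        (f := fun i => c' (.inr i) none none * _), add_zero]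
      · refine Finset.sum_congr rfl fun i _ => ?_
        by_cases h : t i = [] <;> simp [c', a', t', h]
      · intro i _
        by_cases h : t i = [] <;> simp [c', h]
    have h01 : ∀ j, μ none (some j) = if t j = [] then 0 else c j * e (a j) := by
      intro j
      rw [hμ', Fintype.sum_sum_type, Finset.sum_eq_zero (s := Finset.univ (α := F))
        (f := fun i => c' (.inr i) none (some j) * _), add_zero, Finset.sum_eq_single j]
      · by_cases h : t j = [] <;> simp [c', a', t', h]
      · intro i _ hi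
        by_cases h : t i = [] <;> simp [c', h, hi]
      · simp
      · intro i _
        by_cases h : t i = [] <;> simp [c', h]
    have h10 : ∀ j, μ (some j) none = if t j = [] then 0 else ev e (t j) := by
      intro j
      rw [hμ', Fintype.sum_sum_type, Finset.sum_eq_zero (s := Finset.univ (α := F))
        (f := fun i => c' (.inl i) (some j) none * _), zero_add, Finset.sum_eq_single j]
      · by_cases h : t j = []
        · simp [c', h]
        · obtain ⟨x, l, hl⟩ := List.exists_cons_of_ne_nil h
          simp [c', a', t', hl]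
      · intro i _ hi
        by_cases h : t i = [] <;> simp [c', h, hi]
      · simp
      · intro i _
        simp [c']
    have h11 : ∀ j k, μ (some j) (some k) = 0 := by
      intro j k
      rw [hμ']
      refine Finset.sum_eq_zero ?_
      rintro (i | i) _
      · simp [c']
      · by_cases h : t i = [] <;> simp [c', h]
    rw [sub_mul, one_mul, sub_eq_iff_eq_add] at hY
    have e1 : ∀ j, Y (some j) none = (if t j = [] then 0 else ev e (t j)) * Y none none := by
      intro j
      conv_lhs => rw [hY]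
      simp [Matrix.mul_apply, Fintype.sum_option, h10, h11]
    refine ⟨Y none none, ?_⟩
    rw [sub_mul, one_mul, sub_eq_iff_eq_add]
    conv_lhs => rw [hY]
    rw [Matrix.add_apply, one_apply_eq, Matrix.mul_apply, Fintype.sum_option, h00]
    simp only [h01, e1, Finset.sum_mul, ← Finset.sum_add_distrib]
    congr 1
    refine Finset.sum_congr rfl fun i _ => ?_
    by_cases h : t i = [] <;> simp [h, mul_assoc]

theorem inv_closure {𝓡 : Type} [Ring 𝓡] {e : Ctl × I → 𝓡} {B : Subring 𝓡} {D : ℕ}
    (hm : L.Mod e) (hx : Cx e B D) {μ : 𝓡}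
    (hμ : μ ∈ AddSubmonoid.closure {x | ∃ c ∈ B, ∃ a t, x = c * (e a * ev e t)}) :
    ∃ y, (1 - μ) * y = 1 := by
  obtain ⟨l, hl, rfl⟩ := AddSubmonoid.exists_list_of_mem_closure hμ
  choose c hc a t h using fun i : Fin l.length => hl _ (List.getElem_mem i.2)
  obtain ⟨d, hd⟩ := (Set.finite_range fun i => (t i).length).bddAbove
  have := inv_deg L d 𝓡 e B D hm hx _ c a t hc fun i => hd ⟨i, rfl⟩
  rwa [← Finset.sum_congr rfl fun i _ => h i, Fin.sum_univ_getElem] at this

theorem nil_matrix {R : Type} [Ring R] (h2 : ∀ r : R, r + r = 0) {e : Ctl × I → R} (hm : L.Mod e)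
    {n : Type} [Fintype n] [DecidableEq n] (ν : Matrix n n R)
    (hν : ∀ i j, ν i j ∈ AddSubmonoid.closure {x | ∃ a t, x = e a * ev e t}) :
    IsNilpotent ν := by
  have hx : Cx (fun a => C (e a)) (Subring.center R[X]) 1 :=
    ⟨fun x => by ext k; simp only [coeff_add, h2, coeff_zero],
      fun x hx a => (Subring.mem_center_iff.1 hx _).symm,
      Unit, inferInstance, by simp, fun _ => 1, fun _ => Subring.one_mem _,
      fun x hx => ⟨fun _ => x, fun _ => hx, by simp⟩⟩
  obtain ⟨y, hy⟩ := inv_closure L ((hm.map C).map (scalar n)) (hx.matrix n)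
    (μ := ν.map fun r => X * C r) (by
      rw [matrix_eq_sum_single (ν.map _)]
      refine AddSubmonoid.sum_mem _ fun i _ => AddSubmonoid.sum_mem _ fun j _ => ?_
      rw [map_apply]
      have hij := hν i j
      generalize ν i j = r at hij
      induction hij using AddSubmonoid.closure_induction with
      | mem x hx' =>
        obtain ⟨a, t, rfl⟩ := hx'
        refine AddSubmonoid.subset_closure ⟨single i j X, fun k l => ?_, a, t, ?_⟩
        · simp only [single_apply]
          split_ifs
          · exact Subring.mem_center_iff.2 fun g => X_mul.symm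
          · exact Subring.zero_mem _
        · rw [ev_map (scalar n) fun a => C (e a), ev_map C, ← map_mul, ← map_mul]
          ext1 k l
          simp only [scalar_apply, mul_diagonal, single_apply]
          split_ifs <;> simp
      | zero => simp
      | add x y _ _ h1 h3 => rw [map_add, mul_add, single_add]; exact AddSubmonoid.add_mem _ h1 h3)
  rw [sub_mul, one_mul, sub_eq_iff_eq_add] at hy
  have key : ∀ k, y.map (fun p => p.coeff k) = ν ^ k := by
    intro k
    induction k with
    | zero =>
      ext i j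
      rw [map_apply, hy]
      simp only [Matrix.add_apply, Matrix.mul_apply, map_apply, coeff_add, finset_sum_coeff,
        mul_assoc, coeff_X_mul_zero, Finset.sum_const_zero, add_zero, pow_zero, one_apply]
      split_ifs <;> simp
    | succ k ih =>
      ext i j
      rw [map_apply, hy, pow_succ', ← ih]
      simp only [Matrix.add_apply, Matrix.mul_apply, map_apply, coeff_add, finset_sum_coeff,
        mul_assoc, coeff_X_mul, coeff_C_mul, one_apply]
      split_ifs <;> simp [coeff_one]
  obtain ⟨d, hd⟩ := (Set.finite_range fun p : n × n => (y p.1 p.2).natDegree).bddAbove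
  refine ⟨d + 1, ?_⟩
  rw [← key]
  ext i j
  exact coeff_eq_zero_of_natDegree_lt (Nat.lt_succ_of_le (hd ⟨(i, j), rfl⟩))

end Inv

/-- the bottom level -/
def L0 : Lev (Ctl × Kind) where
  dec := Prod.fst
  lab := Prod.snd
  set x p := (p, x.2)
  dec_set _ _ := rfl
  set_dec _ := rfl
  set_set _ _ _ := rfl
  lab_set _ _ := rfl
  lab_surj κ := ⟨(.cell true none, κ), rfl⟩

abbrev Δ0 := Ctl × (Ctl × Kind)

def rels0 : Set (FA Δ0) := {s | ∃ κ a b a' b', L0.Rule κ a b a' b' ∧
  s = if isZ κ = true then mono [a, b] else mono [a, b] - mono [a', b']}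

theorem rels0_finite : rels0.Finite := by
  refine (Set.finite_range fun p : Kind × Δ0 × Δ0 × Δ0 × Δ0 =>
    if isZ p.1 = true then mono [p.2.1, p.2.2.1]
    else mono [p.2.1, p.2.2.1] - mono [p.2.2.2.1, p.2.2.2.2]).subset ?_
  rintro _ ⟨κ, a, b, a', b', -, rfl⟩
  exact ⟨(κ, a, b, a', b'), rfl⟩

noncomputable def con0 : RingCon (FA Δ0) := ringConGen fun x y => x ∈ rels0 ∧ y = 0

abbrev R0 : Type := con0.Quotient

noncomputable def e0 (a : Δ0) : R0 := con0.mk' (mono [a])

theorem hom_mono {α T : Type} [Ring T] (φ : FA α →+* T) (w : List α) :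
    φ (mono w) = ev (fun a => φ (mono [a])) w := by
  induction w with
  | nil => simp [mono_nil]
  | cons a w ih => rw [← List.singleton_append, mono_append, map_mul, ih]; simp

theorem rel_zero {s} (hs : s ∈ rels0) : con0.mk' s = 0 :=
  (con0.eq (a := s) (b := 0)).2 (RingCon.le_ringConGen _ _ ⟨hs, rfl⟩)

theorem mod_e0 : L0.Mod e0 := by
  intro κ a b a' b' hr
  have := rel_zero ⟨κ, a, b, a', b', hr, rfl⟩
  refine ⟨fun hz => ?_, fun hz => ?_⟩
  · rw [if_pos hz, hom_mono] at this
    simpa [e0] using this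
  · rw [if_neg (by simp [hz]), map_sub, hom_mono, hom_mono _ [a', b'], sub_eq_zero] at this
    simpa [e0] using this

theorem fp_R0 : RingFP R0 :=
  ⟨Δ0, inferInstance, con0.mk', rels0, rels0_finite, con0.mk'_surjective, fun _ => rel_zero,
    fun c hc a ha => (RingCon.ringConGen_le (c := c)).2 (by rintro x y ⟨hx, rfl⟩; exact hc x hx)
      ((con0.eq (a := a) (b := 0)).1 ha)⟩

theorem univ_R0 (T : Type) [Ring T] [Algebra (ZMod 2) T] (f : Δ0 → T) (hf : L0.Mod f) :
    ∃ φ : R0 →+* T, ∀ a, φ (e0 a) = f a := by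
  let ψ : FA Δ0 →+* T := (MonoidAlgebra.lift (ZMod 2) T _ (FreeMonoid.lift f)).toRingHom
  have hψ : ∀ a, ψ (mono [a]) = f a := fun a => by simp [ψ, mono]
  refine ⟨con0.lift ψ (RingCon.ringConGen_le.2 ?_), hψ⟩
  rintro x y ⟨⟨κ, a, b, a', b', hr, rfl⟩, rfl⟩
  show ψ _ = ψ 0
  obtain ⟨h1, h2⟩ := hf κ a b a' b' hr
  split_ifs with hz
  · rw [hom_mono]; simp [hψ, h1 hz]
  · rw [map_sub, hom_mono, hom_mono _ [a', b']]
    simp [hψ, h2 (by simpa using hz)]

theorem span_R0 (r : R0) : r ∈ AddSubmonoid.closure {x | ∃ w, x = ev e0 w} := by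
  obtain ⟨a, rfl⟩ := con0.mk'_surjective r
  refine FA.ind (p := fun a => con0.mk' a ∈ AddSubmonoid.closure {x | ∃ w, x = ev e0 w})
    (by simp) (fun w => AddSubmonoid.subset_closure ⟨w, hom_mono _ w⟩)
    (fun a b h1 h2 => by rw [map_add]; exact AddSubmonoid.add_mem _ h1 h2) a

theorem infinite_R0 : Infinite R0 := by
  classical
  let V : Submodule (ZMod 2) (List Δ0 → ZMod 2) :=
    { carrier := {Ψ | ∀ κ a b a' b' p s, L0.Rule κ a b a' b' →
        (isZ κ = true → Ψ (p ++ a :: b :: s) = 0) ∧
        (isZ κ = false → Ψ (p ++ a :: b :: s) = Ψ (p ++ a' :: b' :: s))}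
      add_mem' := fun {Ψ Φ} h1 h2 κ a b a' b' p s hr =>
        ⟨fun hz => by simp [(h1 κ a b a' b' p s hr).1 hz, (h2 κ a b a' b' p s hr).1 hz],
          fun hz => by simp [(h1 κ a b a' b' p s hr).2 hz, (h2 κ a b a' b' p s hr).2 hz]⟩
      zero_mem' := fun _ _ _ _ _ _ _ _ => ⟨fun _ => rfl, fun _ => rfl⟩
      smul_mem' := fun c Ψ h1 κ a b a' b' p s hr =>
        ⟨fun hz => by simp [(h1 κ a b a' b' p s hr).1 hz],
          fun hz => by simp [(h1 κ a b a' b' p s hr).2 hz]⟩ }
  let f : Δ0 → Module.End (ZMod 2) V := fun x =>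
    (LinearMap.funLeft (ZMod 2) (ZMod 2) fun w : List Δ0 => w ++ [x]).restrict
      fun Ψ h κ a b a' b' p s hr => by
        simpa [LinearMap.funLeft_apply] using h κ a b a' b' p (s ++ [x]) hr
  have hf : ∀ x (Ψ : V) w, (f x Ψ).1 w = Ψ.1 (w ++ [x]) := fun _ _ _ => rfl
  have hev : ∀ u (Ψ : V) w, (ev f u Ψ).1 w = Ψ.1 (w ++ u) := by
    intro u
    induction u with
    | nil => simp
    | cons x u ih => intro Ψ w; rw [ev_cons, Module.End.mul_apply, hf, ih]; simp
  obtain ⟨φ, hφ⟩ := univ_R0 _ f fun κ a b a' b' hr => by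
    refine ⟨fun hz => ?_, fun hz => ?_⟩
    · ext Ψ w
      simpa [hf] using (Ψ.2 κ a b a' b' w [] hr).1 hz
    · ext Ψ w
      simpa [hf] using (Ψ.2 κ a b a' b' w [] hr).2 hz
  have hφ' : ∀ w, φ (ev e0 w) = ev f w := fun w => by rw [← ev_map]; simp only [hφ]
  choose U hU w hw hl using fun n => long_words n _ L0
  by_contra hfin
  rw [not_infinite_iff_finite] at hfin
  obtain ⟨y, hy⟩ := Finite.exists_infinite_fiber fun n => ev e0 (w n)
  have key : ∀ n m, ev e0 (w n) = ev e0 (w m) → (w m).length = (w n).length := by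
    intro n m h
    let Ψ : V := ⟨fun u => if u ∈ U n ∧ u.length = (w n).length then 1 else 0,
      fun κ a b a' b' p s hr => by
        obtain ⟨h1, h2⟩ := hU n κ a b a' b' p s hr
        exact ⟨fun hz => by simp [h1 hz], fun hz => by simp [h2 hz]⟩⟩
    have := congrArg (fun r => (φ r Ψ).1 []) h
    simp only [hφ', hev, List.nil_append, Ψ, hw n, and_self, if_true] at this
    by_contra hne
    simp [hne] at this
  obtain ⟨⟨n, hn⟩⟩ := hy.nonempty
  refine (Set.infinite_coe_iff.1 hy) ((Set.finite_lt_nat (w n).length).subset fun m hm => ?_)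
  have := key n m (hn.trans hm.symm)
  have := hl m
  show m < _
  omega

/-- the properties of the algebra that are used for the group -/
structure Good (R : Type) [Ring R] [Algebra (ZMod 2) R] (ε : R →+* ZMod 2)
    (Hm : ℕ → R → Prop) : Prop where
  nil : ∀ (n : Type) [Fintype n] [DecidableEq n] (ν : Matrix n n R), (∀ i j, ε (ν i j) = 0) →
    IsNilpotent ν
  span : ∀ r, r ∈ AddSubmonoid.closure {x | ∃ d, Hm d x}
  deg0 : ∀ r, Hm 0 r → r = 1
  deg1 : ∀ d r, Hm (d + 1) r → ε r = 0
  grad : ∀ (m : Type) [Fintype m] [DecidableEq m] (M : Matrix m m (ZMod 2)),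
    ∃ θ : R →+* Matrix m m R, ∀ d r, Hm d r → ∀ k l, θ r k l = (M ^ d) k l • r

theorem two_of_algebra {R : Type} [Ring R] [Algebra (ZMod 2) R] (r : R) : r + r = 0 := by
  rw [← two_smul (ZMod 2), show (2 : ZMod 2) = 0 from rfl, zero_smul]

theorem good_R0 : ∃ ε Hm, Good R0 ε Hm := by
  obtain ⟨ε, hε⟩ := univ_R0 (ZMod 2) (fun _ => 0) fun _ _ _ _ _ _ => ⟨fun _ => rfl, fun _ => rfl⟩
  refine ⟨ε, fun d r => ∃ w : List Δ0, w.length = d ∧ r = ev e0 w, ?_, ?_, ?_, ?_, ?_⟩
  · intro n _ _ ν hν
    refine nil_matrix L0 two_of_algebra mod_e0 ν fun i j => ?_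
    have : ∀ r : R0, r - algebraMap _ _ (ε r) ∈
        AddSubmonoid.closure {x | ∃ a t, x = e0 a * ev e0 t} := by
      intro r
      induction span_R0 r using AddSubmonoid.closure_induction with
      | mem x hx =>
        obtain ⟨_ | ⟨a, t⟩, rfl⟩ := hx
        · simp
        · rw [ev_cons, map_mul, hε, zero_mul, map_zero, sub_zero]
          exact AddSubmonoid.subset_closure ⟨a, t, rfl⟩
      | zero => simp
      | add x y _ _ h1 h2 =>
        rw [map_add, map_add, add_sub_add_comm]; exact AddSubmonoid.add_mem _ h1 h2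
    simpa [hν i j] using this (ν i j)
  · intro r
    refine AddSubmonoid.closure_mono ?_ (span_R0 r)
    rintro _ ⟨w, rfl⟩
    exact ⟨_, w, rfl, rfl⟩
  · rintro _ ⟨w, hw, rfl⟩
    rw [List.length_eq_zero_iff.1 hw, ev_nil]
  · rintro d _ ⟨_ | ⟨a, t⟩, hw, rfl⟩
    · simp at hw
    · rw [ev_cons, map_mul, hε, zero_mul]
  · intro m _ _ M
    have hmul : ∀ (A B : Matrix m m (ZMod 2)) (r s : R0),
        (A.map (· • r)) * (B.map (· • s)) = (A * B).map (· • (r * s)) := by
      intro A B r s
      ext k l
      simp only [Matrix.mul_apply, map_apply, Finset.sum_smul, smul_mul_smul_comm]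
    obtain ⟨θ, hθ⟩ := univ_R0 (Matrix m m R0) (fun a => M.map (· • e0 a))
      fun κ a b a' b' hr => by
        obtain ⟨h1, h2⟩ := mod_e0 κ a b a' b' hr
        refine ⟨fun hz => ?_, fun hz => by rw [hmul, hmul, h2 hz]⟩
        rw [hmul, h1 hz]
        ext k l; simp
    refine ⟨θ, ?_⟩
    rintro _ _ ⟨w, rfl, rfl⟩
    have : θ (ev e0 w) = (M ^ w.length).map (· • ev e0 w) := by
      induction w with
      | nil =>
        ext k l
        simp only [ev_nil, map_one, List.length_nil, pow_zero, map_apply, one_apply]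
        split_ifs <;> simp
      | cons a w ih => rw [ev_cons, map_mul, hθ, ih, hmul, List.length_cons, pow_succ']
    intro k l
    rw [this, map_apply]

end Vale.Agent.P192
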