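import Vale.Agent.P192.Prog

/-! Blocks, and location of letters in a sequence of blocks. -/

namespace Vale.Agent.P192

open Function

variable {I : Type}

abbrev Cell (I : Type) := Option Col × I

def cl (ar : Bool) (c : Cell I) : Ctl × I := (.cell ar c.1, c.2)

def key : Cell I → I ⊕ Col
  | (none, x) => .inl x
  | (some γ, _) => .inr γ

theorem key_fst {c c' : Cell I} (h : key c = key c') : c.1 = c'.1 := by
  obtain ⟨_ | _, _⟩ := c <;> obtain ⟨_ | _, _⟩ := c' <;> simp_all [key]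

/-- the list holds every address once and every token once -/
def Full (f : Col → I) (l : List (Cell I)) : Prop :=
  l.Nodup ∧ ∀ c, c ∈ l ↔ ∀ γ, c.1 = some γ → c.2 = f γ

theorem Full.perm {f : Col → I} {l l'} (h : Full f l) (hp : l.Perm l') : Full f l' :=
  ⟨hp.nodup_iff.1 h.1, fun c => hp.mem_iff.symm.trans (h.2 c)⟩

theorem Full.tok {f : Col → I} {l γ a} (h : Full f l) (hm : (some γ, a) ∈ l) : f γ = a :=
  ((h.2 _).1 hm γ rfl).symm

theorem Full.inj {f : Col → I} {l} (h : Full f l) {c c'} (hc : c ∈ l) (hc' : c' ∈ l)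
    (e : key c = key c') : c = c' := by
  obtain ⟨_ | γ, x⟩ := c <;> obtain ⟨_ | γ', x'⟩ := c' <;> simp only [key, reduceCtorEq,
    Sum.inl.injEq, Sum.inr.injEq] at e
  · rw [e]
  · subst e; rw [← h.tok hc, ← h.tok hc']

theorem Full.has {f : Col → I} {l} (h : Full f l) (c : Cell I) : ∃ c' ∈ l, key c' = key c := by
  obtain ⟨_ | γ, x⟩ := c
  · exact ⟨_, (h.2 _).2 (by simp), rfl⟩
  · exact ⟨(some γ, f γ), (h.2 _).2 (by simp), rfl⟩

theorem Full.update {f : Col → I} {l γ a} (h : Full f ((some γ, a) :: l)) (a' : I) :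
    Full (update f γ a') ((some γ, a') :: l) := by
  have hn : ∀ x, (some γ, x) ∉ l := fun x hx => by
    have := h.inj (List.mem_cons_of_mem _ hx) List.mem_cons_self rfl
    exact (List.nodup_cons.1 h.1).1 (this ▸ hx)
  refine ⟨List.nodup_cons.2 ⟨hn _, (List.nodup_cons.1 h.1).2⟩, fun c => ?_⟩
  obtain ⟨k, x⟩ := c
  by_cases e : k = some γ
  · subst e; simp [hn]
  · have := h.2 (k, x)
    simp only [List.mem_cons, Prod.mk.injEq, e, false_and, false_or] at this ⊢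
    rw [this]
    refine forall_congr' fun δ => imp_congr_right fun hδ => ?_
    have : δ ≠ γ := fun e' => e (by rw [hδ, e'])
    simp [this]

structure Blk (I : Type) where
  A : List (Cell I)
  st : HS
  sr : Option (Option Col)
  h : I
  C : List (Cell I)
  f : Col → I

def Blk.flat (b : Blk I) : List (Ctl × I) :=
  b.A.map (cl true) ++ (.head b.st b.sr, b.h) :: b.C.map (cl false)

def fl (bs : List (Blk I)) : List (Ctl × I) := bs.flatMap Blk.flat

@[simp] theorem fl_nil : fl ([] : List (Blk I)) = [] := rfl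
@[simp] theorem fl_cons (b : Blk I) (bs) : fl (b :: bs) = b.flat ++ fl bs := by simp [fl]
@[simp] theorem fl_append (a b : List (Blk I)) : fl (a ++ b) = fl a ++ fl b := by simp [fl]

theorem loc_one {bs : List (Blk I)} {p a s} (h : fl bs = p ++ a :: s) :
    ∃ b1 B b2 p' s', bs = b1 ++ B :: b2 ∧ B.flat = p' ++ a :: s' ∧ p = fl b1 ++ p' ∧
      s = s' ++ fl b2 := by
  induction bs generalizing p with
  | nil => simp at h
  | cons B bs ih =>
    rw [fl_cons, List.append_eq_append_iff] at h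
    rcases h with ⟨q, rfl, h⟩ | ⟨q, h1, h2⟩
    · obtain ⟨b1, B', b2, p', s', rfl, h1, rfl, rfl⟩ := ih h
      exact ⟨B :: b1, B', b2, p', s', rfl, h1, by simp, rfl⟩
    · rcases q with _ | ⟨a', q⟩
      · obtain ⟨b1, B', b2, p', s', rfl, h3, h4, rfl⟩ := ih (p := []) h2.symm
        refine ⟨B :: b1, B', b2, p', s', rfl, h3, ?_, rfl⟩
        simp only [List.append_nil] at h1
        rw [fl_cons, List.append_assoc, ← h4, h1, List.append_nil]
      · simp only [List.cons_append, List.cons.injEq] at h2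
        obtain ⟨rfl, rfl⟩ := h2
        exact ⟨[], B, bs, p, q, rfl, h1, by simp, rfl⟩

theorem loc_in {B : Blk I} {p a s} (h : B.flat = p ++ a :: s) :
    (∃ A1 c A2, B.A = A1 ++ c :: A2 ∧ a = cl true c ∧ p = A1.map (cl true) ∧
      s = A2.map (cl true) ++ (.head B.st B.sr, B.h) :: B.C.map (cl false)) ∨
    (a = (.head B.st B.sr, B.h) ∧ p = B.A.map (cl true) ∧ s = B.C.map (cl false)) ∨
    (∃ C1 c C2, B.C = C1 ++ c :: C2 ∧ a = cl false c ∧
      p = B.A.map (cl true) ++ (.head B.st B.sr, B.h) :: C1.map (cl false) ∧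
      s = C2.map (cl false)) := by
  rw [Blk.flat, List.append_eq_append_iff] at h
  rcases h with ⟨q, rfl, h⟩ | ⟨q, h1, h2⟩
  · rcases q with _ | ⟨a', q⟩
    · simp only [List.nil_append, List.cons.injEq] at h
      exact Or.inr (Or.inl ⟨h.1.symm, by simp, h.2.symm⟩)
    · simp only [List.cons_append, List.cons.injEq] at h
      obtain ⟨rfl, h⟩ := h
      obtain ⟨C1, C2', e, rfl, h2⟩ := List.map_eq_append_iff.1 h
      obtain ⟨c, C2, rfl, rfl, rfl⟩ := List.map_eq_cons_iff.1 h2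
      exact Or.inr (Or.inr ⟨C1, c, C2, e, rfl, rfl, rfl⟩)
  · rcases q with _ | ⟨a', q⟩
    · simp only [List.nil_append, List.cons.injEq] at h2
      exact Or.inr (Or.inl ⟨h2.1, by simpa using h1.symm, h2.2⟩)
    · simp only [List.cons_append, List.cons.injEq] at h2
      obtain ⟨rfl, rfl⟩ := h2
      obtain ⟨A1, A2', e, rfl, h2⟩ := List.map_eq_append_iff.1 h1
      obtain ⟨c, A2, rfl, rfl, rfl⟩ := List.map_eq_cons_iff.1 h2
      exact Or.inl ⟨A1, c, A2, e, rfl, rfl, rfl⟩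

theorem loc_head {bs : List (Blk I)} {p st sr h s} (e : fl bs = p ++ (.head st sr, h) :: s) :
    ∃ b1 A C f b2, bs = b1 ++ ⟨A, st, sr, h, C, f⟩ :: b2 ∧ p = fl b1 ++ A.map (cl true) ∧
      s = C.map (cl false) ++ fl b2 := by
  obtain ⟨b1, B, b2, p', s', rfl, h1, rfl, rfl⟩ := loc_one e
  rcases loc_in h1 with ⟨_, _, _, -, h2, -⟩ | ⟨h2, rfl, rfl⟩ | ⟨_, _, _, -, h2, -⟩
  · simp [cl] at h2
  · obtain ⟨A, st', sr', h', C, f⟩ := B
    simp only [Prod.mk.injEq, Ctl.head.injEq] at h2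
    obtain ⟨⟨rfl, rfl⟩, rfl⟩ := h2
    exact ⟨b1, A, C, f, b2, rfl, rfl, rfl⟩
  · simp [cl] at h2

theorem fl_head {bs : List (Blk I)} {b s} (e : fl bs = b :: s) :
    ∃ A st sr h C f b2, bs = ⟨A, st, sr, h, C, f⟩ :: b2 ∧
      ((∃ c A', A = c :: A' ∧ b = cl true c ∧
        s = A'.map (cl true) ++ (.head st sr, h) :: C.map (cl false) ++ fl b2) ∨
      (A = [] ∧ b = (.head st sr, h) ∧ s = C.map (cl false) ++ fl b2)) := by
  rcases bs with _ | ⟨⟨A, st, sr, h, C, f⟩, b2⟩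
  · simp at e
  refine ⟨A, st, sr, h, C, f, b2, rfl, ?_⟩
  rcases A with _ | ⟨c, A'⟩
  · simp only [fl_cons, Blk.flat, List.map_nil, List.nil_append, List.cons_append,
      List.cons.injEq] at e
    exact Or.inr ⟨rfl, e.1.symm, e.2.symm⟩
  · simp only [fl_cons, Blk.flat, List.map_cons, List.cons_append, List.cons.injEq] at e
    exact Or.inl ⟨c, A', rfl, e.1.symm, e.2.symm⟩

theorem fl_last {bs : List (Blk I)} {p k x} (e : fl bs = p ++ [(.cell true k, x)]) : False := by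
  obtain ⟨b1, B, b2, p', s', rfl, h1, rfl, h3⟩ := loc_one e
  rcases loc_in h1 with ⟨_, _, _, -, -, -, rfl⟩ | ⟨h2, -⟩ | ⟨_, _, _, -, h2, -⟩
  · simp at h3
  · simp at h2
  · simp [cl] at h2

theorem loc_AH {bs : List (Blk I)} {p k x st sr h s}
    (e : fl bs = p ++ (.cell true k, x) :: (.head st sr, h) :: s) :
    ∃ b1 A C f b2, bs = b1 ++ ⟨A ++ [(k, x)], st, sr, h, C, f⟩ :: b2 ∧
      p = fl b1 ++ A.map (cl true) ∧ s = C.map (cl false) ++ fl b2 := by
  obtain ⟨b1, A, C, f, b2, rfl, h1, rfl⟩ :=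
    loc_head (p := p ++ [(.cell true k, x)]) (by simpa using e)
  rcases List.eq_nil_or_concat A with rfl | ⟨A', c, rfl⟩
  · exact (fl_last (by simpa using h1.symm)).elim
  · simp only [List.concat_eq_append, List.map_append, List.map_cons, List.map_nil,
      ← List.append_assoc] at h1
    obtain ⟨rfl, h2⟩ := List.append_inj' h1 rfl
    simp only [cl, List.cons.injEq, Prod.mk.injEq, Ctl.cell.injEq, true_and, and_true] at h2
    obtain ⟨rfl, rfl⟩ := h2
    exact ⟨b1, A', C, f, b2, by simp, rfl, rfl⟩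

theorem loc_yH {bs : List (Blk I)} {p y st sr h s} (hy : ∀ k, y.1 ≠ .cell true k)
    (e : fl bs = p ++ y :: (.head st sr, h) :: s) :
    ∃ b1 C f b2, bs = b1 ++ ⟨[], st, sr, h, C, f⟩ :: b2 ∧
      p ++ [y] = fl b1 ∧ s = C.map (cl false) ++ fl b2 := by
  obtain ⟨b1, A, C, f, b2, rfl, h1, rfl⟩ := loc_head (p := p ++ [y]) (by simpa using e)
  rcases List.eq_nil_or_concat A with rfl | ⟨A', c, rfl⟩
  · exact ⟨b1, C, f, b2, rfl, by simpa using h1, rfl⟩
  · simp only [List.concat_eq_append, List.map_append, List.map_cons, List.map_nil,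
      ← List.append_assoc] at h1
    obtain ⟨rfl, h2⟩ := List.append_inj' h1 rfl
    simp only [List.cons.injEq, and_true] at h2
    exact (hy c.1 (by rw [h2]; rfl)).elim

theorem loc_HC {bs : List (Blk I)} {p k x st sr h s}
    (e : fl bs = p ++ (.head st sr, h) :: (.cell false k, x) :: s) :
    ∃ b1 A C f b2, bs = b1 ++ ⟨A, st, sr, h, (k, x) :: C, f⟩ :: b2 ∧
      p = fl b1 ++ A.map (cl true) ∧ s = C.map (cl false) ++ fl b2 := by
  obtain ⟨b1, A, C, f, b2, rfl, rfl, h1⟩ := loc_head e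
  rcases C with _ | ⟨c, C⟩
  · obtain ⟨_, _, _, _, _, _, _, -, ⟨_, _, -, h2, -⟩ | ⟨-, h2, -⟩⟩ := fl_head h1.symm <;>
      simp [cl] at h2
  · simp only [List.map_cons, List.cons_append, cl, List.cons.injEq, Prod.mk.injEq,
      Ctl.cell.injEq, true_and] at h1
    obtain ⟨⟨rfl, rfl⟩, rfl⟩ := h1
    exact ⟨b1, A, C, f, b2, rfl, rfl, rfl⟩

theorem loc_Hy {bs : List (Blk I)} {p y st sr h s} (hy : ∀ k, y.1 ≠ .cell false k)
    (e : fl bs = p ++ (.head st sr, h) :: y :: s) :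
    ∃ b1 A f b2, bs = b1 ++ ⟨A, st, sr, h, [], f⟩ :: b2 ∧
      p = fl b1 ++ A.map (cl true) ∧ fl b2 = y :: s := by
  obtain ⟨b1, A, C, f, b2, rfl, rfl, h1⟩ := loc_head e
  rcases C with _ | ⟨c, C⟩
  · exact ⟨b1, A, f, b2, rfl, rfl, h1.symm⟩
  · simp only [List.map_cons, List.cons_append, List.cons.injEq] at h1
    exact (hy c.1 (by rw [h1.1]; rfl)).elim

theorem loc_HA {bs : List (Blk I)} {p k x st sr h s}
    (e : fl bs = p ++ (.head st sr, h) :: (.cell true k, x) :: s) :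
    ∃ b1 A f A2 st2 sr2 h2 C2 g b2,
      bs = b1 ++ ⟨A, st, sr, h, [], f⟩ :: ⟨(k, x) :: A2, st2, sr2, h2, C2, g⟩ :: b2 ∧
      p = fl b1 ++ A.map (cl true) ∧
      s = A2.map (cl true) ++ (.head st2 sr2, h2) :: C2.map (cl false) ++ fl b2 := by
  obtain ⟨b1, A, f, b2, rfl, rfl, h1⟩ := loc_Hy (by simp) e
  obtain ⟨A2, st2, sr2, h2, C2, g, b3, rfl, ⟨c, A', rfl, h3, rfl⟩ | ⟨-, h3, -⟩⟩ := fl_head h1
  · simp only [cl, Prod.mk.injEq, Ctl.cell.injEq, true_and] at h3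
    obtain ⟨rfl, rfl⟩ := h3
    exact ⟨b1, A, f, A', st2, sr2, h2, C2, g, b3, rfl, rfl, rfl⟩
  · simp at h3

theorem loc_HH {bs : List (Blk I)} {p st sr h st2 sr2 h2 s}
    (e : fl bs = p ++ (.head st sr, h) :: (.head st2 sr2, h2) :: s) :
    ∃ b1 A f C2 g b2,
      bs = b1 ++ ⟨A, st, sr, h, [], f⟩ :: ⟨[], st2, sr2, h2, C2, g⟩ :: b2 ∧
      p = fl b1 ++ A.map (cl true) ∧ s = C2.map (cl false) ++ fl b2 := by
  obtain ⟨b1, A, f, b2, rfl, rfl, h1⟩ := loc_Hy (by simp) e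
  obtain ⟨A2, st2', sr2', h2', C2, g, b3, rfl, ⟨c, A', -, h3, -⟩ | ⟨rfl, h3, rfl⟩⟩ := fl_head h1
  · simp [cl] at h3
  · simp only [Prod.mk.injEq, Ctl.head.injEq] at h3
    obtain ⟨⟨rfl, rfl⟩, rfl⟩ := h3
    exact ⟨b1, A, f, C2, g, b3, rfl, rfl, rfl⟩

theorem loc_cc {bs : List (Blk I)} {p ar ar' c c' s} (hh : ar' = false ∨ ar = ar')
    (e : fl bs = p ++ cl ar c :: cl ar' c' :: s) :
    ∃ b1 A st sr h C f b2 l1 l2, bs = b1 ++ ⟨A, st, sr, h, C, f⟩ :: b2 ∧ ar' = ar ∧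
      ((ar = true ∧ A = l1 ++ c :: c' :: l2 ∧ p = fl b1 ++ l1.map (cl true) ∧
        s = l2.map (cl true) ++ (.head st sr, h) :: C.map (cl false) ++ fl b2) ∨
       (ar = false ∧ C = l1 ++ c :: c' :: l2 ∧
        p = fl b1 ++ (A.map (cl true) ++ (.head st sr, h) :: l1.map (cl false)) ∧
        s = l2.map (cl false) ++ fl b2)) := by
  have hcl : ∀ {a a' : Bool} {d d' : Cell I}, cl a d = cl a' d' → a = a' ∧ d = d' := by
    intro a a' d d' h
    simp only [cl, Prod.mk.injEq, Ctl.cell.injEq] at h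
    exact ⟨h.1.1, Prod.ext h.1.2 h.2⟩
  obtain ⟨b1, ⟨A, st, sr, h, C, f⟩, b2, p', s', rfl, h1, rfl, h3⟩ := loc_one e
  rcases loc_in h1 with ⟨A1, d, A2, h4, h2, rfl, rfl⟩ | ⟨h2, -⟩ | ⟨C1, d, C2, h4, h2, rfl, rfl⟩
  · obtain ⟨rfl, rfl⟩ := hcl h2
    rcases A2 with _ | ⟨d', A2⟩
    · simp [cl] at h3
    · simp only [List.map_cons, List.cons_append, List.cons.injEq] at h3
      obtain ⟨rfl, rfl⟩ := hcl h3.1
      exact ⟨b1, A, st, sr, h, C, f, b2, A1, A2, rfl, rfl, Or.inl ⟨rfl, h4, rfl, h3.2⟩⟩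
  · simp [cl] at h2
  · obtain ⟨rfl, rfl⟩ := hcl h2
    have : ar' = false := by rcases hh with h | h; exacts [h, h.symm]
    subst this
    rcases C2 with _ | ⟨d', C2⟩
    · obtain ⟨_, _, _, _, _, _, _, -, ⟨_, _, -, h2, -⟩ | ⟨-, h2, -⟩⟩ := fl_head h3.symm <;>
        simp [cl] at h2
    · simp only [List.map_cons, List.cons_append, List.cons.injEq] at h3
      obtain ⟨-, rfl⟩ := hcl h3.1
      exact ⟨b1, A, st, sr, h, C, f, b2, C1, C2, rfl, rfl, Or.inr ⟨rfl, h4, rfl, h3.2⟩⟩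

end Vale.Agent.P192
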