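import Vale.Agent.P192.Inj

/-! Relabelling, stability and block maps of Steinberg groups. -/

namespace Vale.Agent.P192

open Matrix Vale.Agent.P193

attribute [local irreducible] St

variable {ι : Type} {R : Type} [Ring R]

def rel {ι' : Type} (f : ι → ι') (hf : Function.Injective f) : St ι R →* St ι' R :=
  IsSt.lift (x := fun i j => xs (f i) (f j))
    ⟨fun _ _ => isSt_xs.diag _ _, fun _ _ => isSt_xs.add _ _,
      fun _ _ _ _ r s h1 h2 => isSt_xs.comm _ _ _ _ r s (hf.ne h1) (hf.ne h2),
      fun _ _ _ r s h1 h2 h3 => isSt_xs.mul _ _ _ r s (hf.ne h1) (hf.ne h2) (hf.ne h3)⟩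

theorem rel_xs {ι' : Type} (f : ι → ι') (hf : Function.Injective f) (i j : ι) (r : R) :
    rel f hf (xs i j r) = xs (f i) (f j) r := IsSt.lift_xs _ _ _ _

theorem st_ind (h2 : ∀ r : R, r + r = 0) {P : St ι R → Prop} (h1 : P 1)
    (hm : ∀ i j r g, P g → P (xs i j r * g)) (g : St ι R) : P g :=
  (isSC_of_isSt isSt_xs).gen_ind h2 St.mem_of_gens h1 hm g

theorem five [Fintype ι] (h : 5 ≤ Fintype.card ι) (a b c d : ι) :
    ∃ e, e ≠ a ∧ e ≠ b ∧ e ≠ c ∧ e ≠ d := by
  classical
  obtain ⟨e, -, he⟩ := Finset.exists_mem_notMem_of_card_lt_card (s := {a, b, c, d})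
    (t := Finset.univ) (lt_of_le_of_lt Finset.card_le_four (by rw [Finset.card_univ]; omega))
  exact ⟨e, by simpa using he⟩

theorem rel_val_inj [Fintype ι] {ε : R →+* ZMod 2} (hL : Loc ε) (h5 : 5 ≤ Fintype.card ι)
    (a : ι) : Function.Injective (rel (R := R) (fun i : {i // i ≠ a} => i.1) Subtype.val_injective) := by
  classical
  obtain ⟨Ω, Φ, pt, hpt, hΦ⟩ := exists_action hL (five h5) a
  have hx := isSC_xc (R := R) {a} {a}
  let J : St {i // i ≠ a} R →* SC {a} {a} R := IsSt.lift (x := fun i j => xc i.1 j.1)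
    ⟨fun _ _ => hx.diag _ _, fun _ _ => hx.add _ _,
      fun _ _ _ _ r s h1 h2 => hx.comm _ _ _ _ r s (Subtype.coe_ne_coe.2 h1)
        (Subtype.coe_ne_coe.2 h2),
      fun _ j _ r s h1 h2 h3 => hx.mul _ _ _ r s (Subtype.coe_ne_coe.2 h1)
        (Subtype.coe_ne_coe.2 h2) (Subtype.coe_ne_coe.2 h3) j.2⟩
  have hK : IsSC {a} {a} fun i j r => if h : i ≠ a ∧ j ≠ a then
      (xs ⟨i, h.1⟩ ⟨j, h.2⟩ r : St {i // i ≠ a} R) else 1 := by
    constructor
    · intro i r; split_ifs; exacts [isSt_xs.diag _ _, rfl]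
    · intro i j r h; exact dif_neg fun h' => h'.1 h
    · intro i j r h; exact dif_neg fun h' => h'.2 h
    · intro i j r s; split_ifs; exacts [isSt_xs.add _ _ _ _, by simp]
    · intro i j k l r s h1 h2
      split_ifs
      exacts [isSt_xs.comm _ _ _ _ _ _ (by simpa using h1) (by simpa using h2), by simp, by simp,
        rfl]
    · intro i j k r s h1 h2 h3 h4
      have h4 : j ≠ a := h4
      by_cases hi : i = a
      · simp [hi]
      by_cases hk : k = a
      · simp [hk]
      rw [dif_pos ⟨hi, h4⟩, dif_pos ⟨h4, hk⟩, dif_pos ⟨hi, hk⟩]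
      exact isSt_xs.mul _ _ _ _ _ (by simpa using h1) (by simpa using h2) (by simpa using h3)
  have e1 : hK.lift.comp J = MonoidHom.id _ := St.hom_ext fun i j r => by
    simp only [MonoidHom.comp_apply, J, IsSt.lift_xs, IsSC.lift_xc, MonoidHom.id_apply]
    rw [dif_pos ⟨i.2, j.2⟩]
  have e2 : ∀ g h, Φ (rel (fun i : {i // i ≠ a} => i.1) Subtype.val_injective g) (pt h) =
      pt (J g * h) := by
    intro g
    induction g using st_ind hL.two with
    | h1 => simp
    | hm i j r g ih =>
      intro h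
      rw [map_mul, map_mul, Equiv.Perm.mul_apply, ih, rel_xs, hΦ _ _ _ _ j.2, map_mul, mul_assoc]
      simp only [J, IsSt.lift_xs]
  rw [injective_iff_map_eq_one]
  intro g hg
  have := e2 g 1
  rw [hg, map_one, mul_one] at this
  have h3 : J g = 1 := (hpt this).symm
  have := DFunLike.congr_fun e1 g
  rwa [MonoidHom.comp_apply, h3, map_one, eq_comm] at this

theorem rel_inj [Fintype ι] {ε : R →+* ZMod 2} (hL : Loc ε) (h5 : 5 ≤ Fintype.card ι) (n : ℕ) :
    ∀ (ι' : Type) [Fintype ι'], Fintype.card ι' = n → ∀ (f : ι → ι') hf,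
      Function.Injective (rel (R := R) f hf) := by
  classical
  induction n using Nat.strong_induction_on with
  | _ n ih =>
    intro ι' _ hn f hf
    by_cases hs : Function.Surjective f
    · let e := Equiv.ofBijective f ⟨hf, hs⟩
      have : (rel (R := R) e.symm e.symm.injective).comp (rel f hf) = MonoidHom.id _ :=
        St.hom_ext fun i j r => by
          simp only [MonoidHom.comp_apply, rel_xs, MonoidHom.id_apply]
          rw [show f i = e i from rfl, show f j = e j from rfl, e.symm_apply_apply,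
            e.symm_apply_apply]
      exact Function.LeftInverse.injective (g := rel e.symm e.symm.injective)
        fun g => DFunLike.congr_fun this g
    · obtain ⟨a, ha⟩ : ∃ a, ∀ i, f i ≠ a := by simpa [Function.Surjective] using hs
      let f' : ι → {i // i ≠ a} := fun i => ⟨f i, ha i⟩
      have hf' : Function.Injective f' := fun i j h => hf (congrArg Subtype.val h)
      have : rel (R := R) f hf = (rel (fun i : {i // i ≠ a} => i.1) Subtype.val_injective).comp
          (rel f' hf') := St.hom_ext fun i j r => by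
        simp only [MonoidHom.comp_apply, rel_xs, f']
      rw [this, MonoidHom.coe_comp]
      exact (rel_val_inj hL (h5.trans (Fintype.card_le_of_injective f hf)) a).comp
        (ih _ (hn ▸ Fintype.card_subtype_lt (x := a) (by simp)) _ rfl f' hf')

variable [Fintype ι] [DecidableEq ι] {m : Type} [Fintype m] [DecidableEq m]

noncomputable def blk (i j : ι) (A : Matrix m m R) : St (ι × m) R :=
  if i = j then 1 else
    (Finset.univ.toList.map fun p : m × m => xs (i, p.1) (j, p.2) (A p.1 p.2)).prod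

def cmpR : Matrix ι ι (Matrix m m R) →+* Matrix (ι × m) (ι × m) R where
  toFun := comp ι ι m m R
  map_one' := comp_one
  map_mul' := (compRingEquiv ι m R).map_mul
  map_zero' := rfl
  map_add' _ _ := rfl

theorem cmpR_single (i j : ι) (k l : m) (r : R) :
    cmpR (single i j (single k l r)) = single (i, k) (j, l) r := comp_single_single i j k l r

def cmpU : (Matrix ι ι (Matrix m m R))ˣ →* (Matrix (ι × m) (ι × m) R)ˣ :=
  Units.map cmpR.toMonoidHom

theorem cmpU_val (u : (Matrix ι ι (Matrix m m R))ˣ) :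
    (cmpU u : Matrix (ι × m) (ι × m) R) = cmpR (u : Matrix ι ι (Matrix m m R)) := rfl

theorem cmpU_single {i j : ι} (h : i ≠ j) (k l : m) (r : R) :
    cmpU (R := R) (m := m) (el i j (single k l r)) = el (i, k) (j, l) r := by
  ext1
  rw [cmpU_val, el_val h, el_val (fun e => h (congrArg Prod.fst e)), cmpR.map_add, cmpR.map_one,
    cmpR_single]

theorem π_blk (i j : ι) (A : Matrix m m R) : 
    stπ (blk i j A) = cmpU (R := R) (m := m) (el i j A) := by
  unfold blk
  split_ifs with h
  · subst h; simp [el_self]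
  have : ∀ L : List (m × m), stπ (L.map fun p => xs (i, p.1) (j, p.2) (A p.1 p.2)).prod =
      cmpU (R := R) (m := m) (el i j (L.map fun p => single p.1 p.2 (A p.1 p.2)).sum) := by
    intro L
    induction L with
    | nil => simp [isSt_el.zero]
    | cons p L ih =>
      rw [List.map_cons, List.prod_cons, map_mul, ih, List.map_cons, List.sum_cons, isSt_el.add,
        map_mul, cmpU_single h, stπ_xs]
  rw [this, Finset.sum_map_toList, Fintype.sum_prod_type]
  exact congrArg (fun B => cmpU (R := R) (m := m) (el i j B)) (matrix_eq_sum_single A).symm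

omit [Fintype ι] [DecidableEq m] in
theorem blk_mem {i j : ι} {A : Matrix m m R} (K : Subgroup (St (ι × m) R))
    (h : i ≠ j → ∀ k l, A k l ≠ 0 → xs (i, k) (j, l) (A k l) ∈ K) : blk i j A ∈ K := by
  unfold blk
  split_ifs with hij
  · exact K.one_mem
  refine K.list_prod_mem fun g hg => ?_
  obtain ⟨p, -, rfl⟩ := List.mem_map.1 hg
  by_cases h0 : A p.1 p.2 = 0
  · rw [h0, isSt_xs.zero]; exact K.one_mem
  · exact h hij _ _ h0

theorem st_tri (h2 : ∀ r : R, r + r = 0) (rk : ι → ℕ) {g g' : St ι R} (hg : g ∈ UU xs rk)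
    (hg' : g' ∈ UU xs rk) (h1 : stπ g = stπ g') : g = g' :=
  (isSC_of_isSt isSt_xs).tri_eq h2 stπ (fun i j r _ => stπ_xs i j r) rk hg hg' h1

omit [Fintype ι] [DecidableEq m] in
theorem blk_UU (rk : ι → ℕ) {i j : ι} (h : i ≠ j → rk i < rk j) (A : Matrix m m R) :
    blk i j A ∈ UU xs fun p : ι × m => rk p.1 :=
  blk_mem _ fun hij k l _ =>
    mem_UU (rk := fun p : ι × m => rk p.1) (p := (i, k)) (q := (j, l)) xs (h hij) _

theorem isSt_blk (h2 : ∀ r : R, r + r = 0) :
    IsSt (blk : ι → ι → Matrix m m R → St (ι × m) R) where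
  diag i r := if_pos rfl
  add i j A B := by
    have : ∀ C : Matrix m m R, blk i j C ∈ UU xs fun p : ι × m => if p.1 = i then 0 else 1 :=
      blk_UU (fun k => if k = i then 0 else 1) fun h => by simp [h.symm]
    exact st_tri h2 _ (this _) (Subgroup.mul_mem _ (this _) (this _)) (by
      simp only [map_mul, π_blk, isSt_el.add])
  comm i j k l A B h1 h3 := by
    by_cases e1 : i = j
    · simp [blk, e1]
    by_cases e2 : k = l
    · simp [blk, e2]
    have a1 := blk_UU (fun t => if t = i ∨ t = k then 0 else 1) (i := i) (j := j)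
      (fun h => by simp [h.symm, h1]) A
    have a2 := blk_UU (fun t => if t = i ∨ t = k then 0 else 1) (i := k) (j := l)
      (fun h => by simp [h.symm, h3.symm]) B
    exact st_tri h2 _ (Subgroup.mul_mem _ a1 a2) (Subgroup.mul_mem _ a2 a1) (by
      simp only [map_mul, π_blk]
      rw [← map_mul, isSt_el.comm i j k l A B h1 h3, map_mul])
  mul i j k A B h1 h3 h4 := by
    let rk : ι → ℕ := fun t => if t = i then 0 else if t = j then 1 else 2
    have a1 := blk_UU rk (i := i) (j := j) (fun _ => by simp [rk, h1.symm]) A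
    have a2 := blk_UU rk (i := j) (j := k) (fun _ => by simp [rk, h1.symm, h3.symm, h4.symm]) B
    have a3 := blk_UU rk (i := i) (j := k) (fun _ => by simp [rk, h3.symm, h4.symm]) (A * B)
    exact st_tri h2 _ (Subgroup.mul_mem _ a1 a2)
      (Subgroup.mul_mem _ (Subgroup.mul_mem _ a3 a2) a1) (by
      simp only [map_mul, π_blk]
      rw [← map_mul, isSt_el.mul i j k A B h1 h3 h4, map_mul, map_mul])

variable {S : Type} [Ring S]

noncomputable def Θ (h2 : ∀ r : R, r + r = 0) (θ : S →ₙ+* Matrix m m R) :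
    St ι S →* St (ι × m) R := ((isSt_blk h2).comp θ).lift

theorem Θ_xs (h2 : ∀ r : R, r + r = 0) (θ : S →ₙ+* Matrix m m R) (i j : ι) (r : S) :
    Θ h2 θ (xs i j r) = blk i j (θ r) := IsSt.lift_xs _ _ _ _

def nuHom {A A' : Type} [Ring A] [Ring A'] (φ : A →ₙ+* A') : A →* A' where
  toFun x := φ x + (1 - φ 1)
  map_one' := by simp
  map_mul' x y := by
    simp only [add_mul, mul_add, mul_sub, sub_mul, ← map_mul, mul_one, one_mul]
    abel

def nuMat {A A' : Type} [Ring A] [Ring A'] (φ : A →ₙ+* A') : Matrix ι ι A →ₙ+* Matrix ι ι A' where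
  toFun M := M.map φ
  map_mul' _ _ := Matrix.map_mul
  map_zero' := by ext; simp
  map_add' _ _ := by ext; simp

theorem nu_el {A A' : Type} [Ring A] [Ring A'] (φ : A →ₙ+* A') (i j : ι) (r : A) :
    Units.map (nuHom (nuMat φ)) (el i j r) = el i j (φ r) := by
  by_cases h : i = j
  · subst h; simp [el_self]
  ext1
  have : nuMat φ (single i j r) = single i j (φ r) := by
    ext k l
    show φ (single i j r k l) = _
    simp only [single_apply]
    split_ifs <;> simp
  rw [Units.coe_map, el_val h, el_val h]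
  simp only [nuHom, MonoidHom.coe_mk, OneHom.coe_mk, map_add, this]
  abel

theorem π_Θ (h2 : ∀ r : R, r + r = 0) (θ : S →ₙ+* Matrix m m R) {z : St ι S} (hz : stπ z = 1) :
    stπ (Θ h2 θ z) = 1 := by
  have : stπ.comp (Θ (ι := ι) h2 θ) = (cmpU.comp (Units.map (nuHom (nuMat θ)))).comp stπ :=
    St.hom_ext fun i j r => by simp only [MonoidHom.comp_apply, Θ_xs, π_blk, stπ_xs, nu_el]
  have := DFunLike.congr_fun this z
  simpa [hz] using this

variable (ι) in
def Levi (P : Matrix m m R) : Prop :=
  ∃ p ∈ Subgroup.closure {g : St (ι × m) R | ∃ i k l r, g = xs (i, k) (i, l) r},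
    (stπ p : Matrix (ι × m) (ι × m) R) = cmpR (scalar ι P)

theorem levi_of_det [Algebra (ZMod 2) R] (P : Matrix m m (ZMod 2)) (hP : P.det ≠ 0) :
    Levi ι (P.map (algebraMap (ZMod 2) R)) := by
  haveI : Fact (Nat.Prime 2) := Nat.fact_prime_two
  refine diagonal_transvection_induction_of_det_ne_zero
    (fun P => Levi ι (P.map (algebraMap (ZMod 2) R))) P hP ?_ ?_ ?_
  · intro D hD
    have : D = fun _ => 1 := by
      funext k
      rw [det_diagonal, Finset.prod_ne_zero_iff] at hD
      exact (z2_cases _).resolve_left (hD k (Finset.mem_univ _))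
    subst this
    exact ⟨1, Subgroup.one_mem _, by simp⟩
  · rintro ⟨k, l, hkl, c⟩
    have : ∀ F : Finset ι, ∃ p ∈ Subgroup.closure
        {g : St (ι × m) R | ∃ i k l r, g = xs (i, k) (i, l) r},
        (stπ p : Matrix (ι × m) (ι × m) R) = cmpR
          (diagonal fun i => if i ∈ F then 1 + single k l (algebraMap _ R c) else 1) := by
      intro F
      induction F using Finset.induction_on with
      | empty => exact ⟨1, Subgroup.one_mem _, by simp⟩
      | insert i F hi ih =>
        obtain ⟨p, hp, e⟩ := ih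
        refine ⟨xs (i, k) (i, l) (algebraMap _ R c) * p,
          Subgroup.mul_mem _ (Subgroup.subset_closure ⟨i, k, l, _, rfl⟩) hp, ?_⟩
        rw [map_mul, Units.val_mul, e, stπ_xs, el_val (by simp [hkl]), ← cmpR_single,
          ← cmpR.map_one, ← cmpR.map_add, ← cmpR.map_mul]
        congr 1
        ext1 a b
        rw [mul_diagonal]
        by_cases hab : a = b
        · subst hab
          by_cases ha : a = i
          · subst ha; simp [hi]
          · simp [ha, Ne.symm ha]
        · have : ¬ (i = a ∧ i = b) := fun h => hab (h.1.symm.trans h.2)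
          simp [hab, single_apply, this]
    obtain ⟨p, hp, e⟩ := this Finset.univ
    refine ⟨p, hp, ?_⟩
    rw [e, scalar_apply]
    congr 2
    ext i a b
    simp only [Finset.mem_univ, if_true, TransvectionStruct.toMatrix_mk, transvection, map_apply,
      Matrix.add_apply, one_apply, single_apply, map_add]
    split_ifs <;> simp
  · rintro A B - - ⟨p, hp, e⟩ ⟨q, hq, e'⟩
    exact ⟨p * q, Subgroup.mul_mem _ hp hq, by
      rw [map_mul, Units.val_mul, e, e', ← map_mul, ← map_mul, Matrix.map_mul]⟩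

theorem Θ_conj {ε : R →+* ZMod 2} (hL : Loc ε) (h3 : ∀ i j : ι × m, ∃ k, k ≠ i ∧ k ≠ j)
    {P : Matrix m m R} (hP : Levi ι P) {θ θ' : S →ₙ+* Matrix m m R}
    (h : ∀ r, P * θ r = θ' r * P) {z : St ι S} (hz : stπ z = 1) :
    Θ hL.two θ' z = Θ hL.two θ z := by
  obtain ⟨p, hp, e⟩ := hP
  have key : ∀ i j r, p * blk i j (θ r) * p⁻¹ = blk i j (θ' r) := by
    intro i j r
    by_cases hij : i = j
    · simp [blk, hij]
    have hU : ∀ C : Matrix m m R, blk i j C ∈ UU xs fun p : ι × m => if p.1 = i then 0 else 1 :=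
      blk_UU (fun k => if k = i then 0 else 1) fun h => by simp [h.symm]
    refine st_tri hL.two _ ((isSC_of_isSt isSt_xs).norm_UU' hL.two _
      (Subgroup.closure_mono ?_ hp) _ (hU _)) (hU _) ?_
    · rintro _ ⟨i, k, l, r, rfl⟩
      exact ⟨(i, k), (i, l), r, le_rfl, rfl⟩
    · rw [map_mul, map_mul, map_inv, mul_inv_eq_iff_eq_mul, π_blk, π_blk]
      ext1
      rw [Units.val_mul, Units.val_mul, e, cmpU_val, cmpU_val, ← map_mul, ← map_mul, el_val hij,
        el_val hij, mul_add, add_mul, mul_one, one_mul]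
      congr 2
      ext1 a b
      simp only [scalar_apply, mul_diagonal, diagonal_mul, single_apply]
      split_ifs <;> simp [h]
  have : Θ (ι := ι) hL.two θ' = (MulAut.conj p).toMonoidHom.comp (Θ hL.two θ) :=
    St.hom_ext fun i j r => by simp [Θ_xs, key]
  rw [this]
  simp only [MonoidHom.comp_apply, MulEquiv.coe_toMonoidHom, MulAut.conj_apply]
  rw [← central_of_ker hL h3 (π_Θ hL.two θ hz), mul_inv_cancel_right]

theorem Θ_tri (h2 : ∀ r : R, r + r = 0) (h2' : ∀ r : S, r + r = 0) (rk : m → ℕ)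
    {θ θ0 : S →ₙ+* Matrix m m R} (h : ∀ r k l, (θ r - θ0 r) k l ≠ 0 → rk k < rk l)
    (h0 : ∀ r k l, θ0 r k l ≠ 0 → rk k ≤ rk l) {z : St ι S} (hz : stπ z = 1) :
    Θ h2 θ z = Θ h2 θ0 z := by
  have : ∀ g : St ι S, Θ h2 θ g * (Θ h2 θ0 g)⁻¹ ∈ UU xs fun p : ι × m => rk p.2 := by
    intro g
    induction g using st_ind h2' with
    | h1 => simp
    | hm i j r g ih =>
      have a1 : blk i j (θ r - θ0 r) ∈ UU xs fun p : ι × m => rk p.2 :=
        blk_mem _ fun _ k l hkl => mem_UU (rk := fun p : ι × m => rk p.2) (p := (i, k))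
          (q := (j, l)) xs (h r k l hkl) _
      have a2 := (isSC_of_isSt isSt_xs).norm_UU' h2 (fun p : ι × m => rk p.2)
        (p := blk i j (θ0 r)) (blk_mem _ fun _ k l hkl =>
          Subgroup.subset_closure ⟨(i, k), (j, l), _, h0 r k l hkl, rfl⟩) _ ih
      have := Subgroup.mul_mem _ a1 a2
      convert this using 1
      rw [map_mul, map_mul, Θ_xs, Θ_xs]
      conv_lhs => rw [← sub_add_cancel (θ r) (θ0 r), (isSt_blk h2).add]
      group
  rw [← mul_inv_eq_one]
  exact st_tri h2 _ (this z) (Subgroup.one_mem _) (by simp [π_Θ h2 _ hz])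

def ΓΓ (N : Set m) : Subgroup (St (ι × m) R) :=
  Subgroup.closure {g | ∃ p q r, p.2 ∈ N ∧ q.2 ∈ N ∧ g = xs p q r}

omit [Fintype ι] [DecidableEq ι] [Fintype m] [DecidableEq m] in
theorem Γ_comm {N N' : Set m} (h : Disjoint N N') {g g' : St (ι × m) R} (hg : g ∈ ΓΓ N)
    (hg' : g' ∈ ΓΓ N') : Commute g g' := by
  induction hg using Subgroup.closure_induction with
  | one => simp
  | mul _ _ _ _ h1 h2 => exact h1.mul_left h2
  | inv _ _ h => exact h.inv_left
  | mem x hx =>
    induction hg' using Subgroup.closure_induction with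
    | one => simp
    | mul _ _ _ _ h1 h2 => exact h1.mul_right h2
    | inv _ _ h => exact h.inv_right
    | mem y hy =>
      obtain ⟨p, q, r, h1, h2, rfl⟩ := hx
      obtain ⟨p', q', r', h3, h4, rfl⟩ := hy
      exact isSt_xs.comm _ _ _ _ _ _ (fun e => Set.disjoint_left.1 h h2 (e ▸ h3))
        (fun e => Set.disjoint_left.1 h h1 (e ▸ h4))

omit [Fintype ι] [DecidableEq ι] [Fintype m] [DecidableEq m] in
theorem Γ_mono {N N' : Set m} (h : N ⊆ N') : (ΓΓ N : Subgroup (St (ι × m) R)) ≤ ΓΓ N' :=
  Subgroup.closure_mono fun _ ⟨p, q, r, h1, h2, e⟩ => ⟨p, q, r, h h1, h h2, e⟩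

omit [Fintype ι] [DecidableEq m] in
theorem blk_Γ {N : Set m} (i j : ι) {A : Matrix m m R} (h : ∀ k l, A k l ≠ 0 → k ∈ N ∧ l ∈ N) :
    blk i j A ∈ ΓΓ N :=
  blk_mem _ fun _ k l hkl => Subgroup.subset_closure ⟨_, _, _, (h k l hkl).1, (h k l hkl).2, rfl⟩

def dg (F : Finset m) : R →ₙ+* Matrix m m R where
  toFun r := diagonal fun k => if k ∈ F then r else 0
  map_mul' r s := by
    rw [diagonal_mul_diagonal]; congr 1; funext k; split_ifs <;> simp
  map_zero' := by simp
  map_add' r s := by
    rw [diagonal_add]; congr 1; funext k; split_ifs <;> simp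

theorem dg_apply (F : Finset m) (r : R) (k l : m) :
    dg F r k l = if k = l ∧ k ∈ F then r else 0 := by
  show diagonal _ k l = _
  rw [diagonal_apply]
  by_cases h1 : k = l <;> by_cases h2 : k ∈ F <;> simp [h1, h2]
  all_goals simp_all

theorem Θ_dg_mem (h2 : ∀ r : R, r + r = 0) (F : Finset m) (g : St ι R) :
    Θ h2 (dg F) g ∈ ΓΓ (F : Set m) := by
  refine St.mem_of_gens ((ΓΓ (F : Set m)).comap (Θ h2 (dg F))) (fun i j r => ?_) g
  rw [Subgroup.mem_comap, Θ_xs]
  refine blk_Γ _ _ fun k l h => ?_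
  rw [dg_apply] at h
  split_ifs at h with h'
  · exact ⟨h'.2, h'.1 ▸ h'.2⟩
  · exact (h rfl).elim

theorem Θ_dg_pow [Algebra (ZMod 2) R] {ε : R →+* ZMod 2} (hL : Loc ε)
    (h3 : ∀ i j : ι × m, ∃ k, k ≠ i ∧ k ≠ j) (k0 : m) {z : St ι R} (hz : stπ z = 1)
    (F : Finset m) : Θ hL.two (dg F) z = rel (fun i => (i, k0)) (Prod.mk_left_injective k0) z ^
      F.card := by
  have e0 : Θ (ι := ι) hL.two (dg {k0}) = rel (fun i => (i, k0)) (Prod.mk_left_injective k0) :=
    St.hom_ext fun i j r => by
      rw [Θ_xs, rel_xs]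
      by_cases h : i = j
      · subst h; rw [(isSt_blk hL.two).diag, isSt_xs.diag]
      have : dg {k0} r = single k0 k0 r := by
        ext k l; rw [dg_apply, single_apply]; congr 1; simp only [Finset.mem_singleton]
        apply propext; constructor <;> rintro ⟨rfl, rfl⟩ <;> exact ⟨rfl, rfl⟩
      exact st_tri hL.two (fun p : ι × m => if p.1 = i then 0 else 1)
        (blk_UU (fun k => if k = i then 0 else 1) (fun h => by simp [h.symm]) _)
        (mem_UU _ (by simp [Ne.symm h]) _) (by rw [π_blk, this, cmpU_single h, stπ_xs])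
  have e1 : ∀ k, Θ hL.two (dg {k}) z = Θ hL.two (dg {k0}) z := by
    intro k
    refine Θ_conj hL h3 (levi_of_det (Matrix.swap (ZMod 2) k0 k) ?_) (fun r => ?_) hz
    · intro h
      have := congrArg det (swap_mul_self (R := ZMod 2) k0 k)
      rw [det_mul, h] at this
      simp at this
    · rw [Matrix.map_swap]
      ext a b
      simp only [Matrix.swap, PEquiv.toMatrix_toPEquiv_mul, PEquiv.mul_toMatrix_toPEquiv,
        submatrix_apply, id, dg_apply, Finset.mem_singleton, Equiv.symm_swap,
        Equiv.swap_apply_eq_iff, Equiv.swap_apply_left]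
  induction F using Finset.induction_on with
  | empty =>
    have := Θ_dg_mem hL.two (∅ : Finset m) z
    simpa [ΓΓ] using this
  | insert k F hk ih =>
    have : ∀ g : St ι R, Θ hL.two (dg (insert k F)) g =
        Θ hL.two (dg F) g * Θ hL.two (dg {k}) g := by
      intro g
      induction g using st_ind hL.two with
      | h1 => simp
      | hm i j r g ih =>
        have c := Γ_comm (N := (({k} : Finset m) : Set m)) (N' := (F : Set m)) (by simpa using hk)
          (Θ_dg_mem hL.two {k} (xs i j r)) (Θ_dg_mem hL.two F g)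
        have e : dg (insert k F) r = dg F r + dg {k} r := by
          ext a b
          simp only [Matrix.add_apply, dg_apply, Finset.mem_insert, Finset.mem_singleton]
          by_cases h1 : a = b <;> by_cases h4 : a = k <;> simp_all
        rw [map_mul, map_mul, map_mul, ih, Θ_xs, e, (isSt_blk hL.two).add, ← Θ_xs hL.two,
          ← Θ_xs hL.two,
          mul_assoc, ← mul_assoc (Θ _ (dg {k}) _), c.eq]
        simp only [mul_assoc]
    rw [this, ih, e1, e0, Finset.card_insert_of_notMem hk, pow_succ]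

end Vale.Agent.P192
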