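import Vale.Agent.P192.Sound

/-! Completeness of the simulation: normal forms of blocks in a model of the rules. -/

namespace Vale.Agent.P192

open Function

variable {I : Type} {M : Type} [MonoidWithZero M]

def ev {α : Type} (e : α → M) (w : List α) : M := (w.map e).prod

@[simp] theorem ev_nil {α : Type} (e : α → M) : ev e [] = 1 := rfl
@[simp] theorem ev_cons {α : Type} (e : α → M) (a w) : ev e (a :: w) = e a * ev e w := by
  simp [ev]
@[simp] theorem ev_append {α : Type} (e : α → M) (u w) : ev e (u ++ w) = ev e u * ev e w := by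
  simp [ev]

namespace Lev

variable (L : Lev I)

/-- the elements `e a` satisfy the rules -/
def Mod (e : Ctl × I → M) : Prop :=
  ∀ κ a b a' b', L.Rule κ a b a' b' →
    (isZ κ = true → e a * e b = 0) ∧ (isZ κ = false → e a * e b = e a' * e b')

end Lev

def cs (e : Ctl × I → M) (ar : Bool) (l : List (Cell I)) : M := ev e (l.map (cl ar))

@[simp] theorem cs_nil (e : Ctl × I → M) (ar) : cs e ar [] = 1 := rfl
theorem cs_cons (e : Ctl × I → M) (ar c l) : cs e ar (c :: l) = e (cl ar c) * cs e ar l := by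
  simp [cs]
theorem cs_append (e : Ctl × I → M) (ar l l') : cs e ar (l ++ l') = cs e ar l * cs e ar l' := by
  simp [cs]

def VV (e : Ctl × I → M) (st : HS) (h : I) (C : List (Cell I)) : M :=
  e (.head st none, h) * cs e false C

def LC (e : Ctl × I → M) (γ : M) : Prop := ∃ γ' z, (∀ k, z.1 ≠ .cell true k) ∧ γ = γ' * e z
def RC (e : Ctl × I → M) (δ : M) : Prop := ∃ z δ', (∀ k, z.1 ≠ .cell false k) ∧ δ = e z * δ'

theorem LC.mul {e : Ctl × I → M} {γ} (h : LC e γ) (x : M) : LC e (x * γ) := by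
  obtain ⟨γ', z, hz, rfl⟩ := h
  exact ⟨x * γ', z, hz, by rw [mul_assoc]⟩

theorem RC.mul {e : Ctl × I → M} {δ} (h : RC e δ) (x : M) : RC e (δ * x) := by
  obtain ⟨z, δ', hz, rfl⟩ := h
  exact ⟨z, δ' * x, hz, by rw [mul_assoc]⟩

theorem lc_hc (e : Ctl × I → M) (st sr h C) : LC e (e (.head st sr, h) * cs e false C) := by
  rcases List.eq_nil_or_concat C with rfl | ⟨C', c, rfl⟩
  · exact ⟨1, (.head st sr, h), by simp, by simp⟩
  · exact ⟨e (.head st sr, h) * cs e false C', cl false c, by simp [cl], by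
      simp [cs_append, cs_cons, mul_assoc]⟩

theorem lc_VV (e : Ctl × I → M) (st h C) : LC e (VV e st h C) := lc_hc e st none h C

theorem rc_VV (e : Ctl × I → M) (st h C) : RC e (VV e st h C) := ⟨_, _, by simp, rfl⟩

theorem full_of {C : List (Cell I)} (h1 : (C.map key).Nodup)
    (h2 : ∀ c, ∃ c' ∈ C, key c' = key c) (x0 : I) : ∃ f, Full f C := by
  have : ∀ γ : Col, ∃ a, (some γ, a) ∈ C := fun γ => by
    obtain ⟨⟨k, a⟩, hc, e⟩ := h2 (some γ, x0)
    obtain rfl : k = some γ := key_fst e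
    exact ⟨a, hc⟩
  choose f hf using this
  refine ⟨f, h1.of_map _, ?_⟩
  rintro ⟨_ | γ, x⟩
  · obtain ⟨⟨k, a⟩, hc, e⟩ := h2 (none, x)
    obtain rfl : k = none := key_fst e
    obtain rfl : a = x := Sum.inl.inj e
    simpa using hc
  · constructor
    · intro hc δ hδ
      obtain rfl := Option.some.inj hδ
      exact congrArg Prod.snd (List.inj_on_of_nodup_map h1 hc (hf γ) rfl)
    · intro h
      have : x = f γ := h γ rfl
      rw [this]; exact hf γ

theorem Full.perm_canon [Fintype I] {f : Col → I} {C} (h : Full f C) : C.Perm (canon f) :=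
  (List.perm_ext_iff_of_nodup h.1 (full_canon f).1).2 fun c =>
    (h.2 c).trans ((full_canon f).2 c).symm

theorem canon_tok [Fintype I] (f : Col → I) (γ : Col) :
    ∃ l, ∀ a, (canon (update f γ a)).Perm ((some γ, a) :: l) := by
  classical
  have hm : (some γ, f γ) ∈ canon f := ((full_canon f).2 _).2 (by simp)
  refine ⟨(canon f).erase (some γ, f γ), fun a => ?_⟩
  exact (((full_canon f).perm (List.perm_cons_erase hm)).update a).perm_canon.symm

namespace Lev.Mod

variable {L : Lev I} {e : Ctl × I → M} (hm : L.Mod e)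
include hm

theorem nz {κ a b a' b'} (hz : isZ κ = false) (hκ : κ ≠ .ref) (hb : Back κ a'.1 b'.1 a.1 b.1)
    (hr : L.Rel (opOf κ) (modeK b'.1) a.2 b.2 a'.2 b'.2) : e a * e b = e a' * e b' :=
  (hm κ a b a' b' ⟨hb, by rw [if_neg hκ]; exact hr⟩).2 hz

theorem z0 {a b : Ctl × I} (h : Bad0 a.1 b.1) : e a * e b = 0 :=
  (hm .z0 a b a b ⟨.z0 _ _ h, by simp [opOf, Rel]⟩).1 rfl

theorem zt {o} {a b : Ctl × I} (h : BadT o a.1 b.1) (hr : L.Rel o (modeK b.1) a.2 b.2 a.2 b.2) :
    e a * e b = 0 :=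
  (hm (.zt o) a b a b ⟨.zt _ _ _ h, by simpa [opOf] using hr⟩).1 rfl

theorem com (ar c c') : e (cl ar c) * e (cl ar c') = e (cl ar c') * e (cl ar c) :=
  hm.nz (κ := .com) rfl (by simp) (.com _ _ _) ⟨rfl, rfl⟩

theorem dup (ar) {c c' : Cell I} (h : key c = key c') : e (cl ar c) * e (cl ar c') = 0 := by
  obtain ⟨k, x⟩ := c
  obtain ⟨k', x'⟩ := c'
  obtain rfl : k = k' := key_fst h
  rcases k with _ | γ
  · exact hm.zt (.dup ar) ⟨rfl, rfl, Sum.inl.inj h⟩
  · exact hm.z0 (.dup ar γ)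

theorem pass {st sr h} {c : Cell I} (hk : ∀ σ, sr = some σ → key c ≠ key (σ, h)) :
    e (cl true c) * e (.head st sr, h) = e (.head st sr, h) * e (cl false c) := by
  obtain ⟨k, x⟩ := c
  by_cases hs : sr = some k
  · subst hs
    rcases k with _ | γ
    · exact hm.nz (κ := .pne) rfl (by simp) (.pne _)
        ⟨rfl, rfl, fun e => hk _ rfl (congrArg Sum.inl e)⟩
    · exact (hk _ rfl rfl).elim
  · exact hm.nz (κ := .pass) rfl (by simp) (.pass _ _ _ hs) ⟨rfl, rfl⟩

theorem hit {st σ h} {c : Cell I} (hk : key c = key (σ, h)) :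
    e (cl true c) * e (.head st (some σ), h) = 0 := by
  obtain ⟨k, x⟩ := c
  obtain rfl : k = σ := key_fst hk
  rcases k with _ | γ
  · exact hm.zt (.hit st) ⟨rfl, rfl, Sum.inl.inj hk⟩
  · exact hm.z0 (.hit st γ)

theorem cs_perm (ar) {l l' : List (Cell I)} (h : l.Perm l') : cs e ar l = cs e ar l' := by
  induction h with
  | nil => rfl
  | cons c _ ih => rw [cs_cons, cs_cons, ih]
  | swap c c' l => rw [cs_cons, cs_cons, cs_cons, cs_cons, ← mul_assoc, hm.com, mul_assoc]
  | trans _ _ h1 h2 => rw [h1, h2]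

theorem cs_dup (ar) {l : List (Cell I)} (h : ¬ (l.map key).Nodup) : cs e ar l = 0 := by
  classical
  induction l with
  | nil => simp at h
  | cons c l ih =>
    by_cases h1 : (l.map key).Nodup
    · have : key c ∈ l.map key := by
        by_contra h2
        exact h (List.nodup_cons.2 ⟨h2, h1⟩)
      obtain ⟨c', hc', ek⟩ := List.mem_map.1 this
      rw [cs_cons, hm.cs_perm ar (List.perm_cons_erase hc'), cs_cons, ← mul_assoc,
        hm.dup ar ek.symm, zero_mul]
    · rw [cs_cons, ih h1, mul_zero]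

theorem cs_long [Fintype I] (ar) {l : List (Cell I)} (h : Fintype.card I + 9 < l.length) :
    cs e ar l = 0 := by
  refine hm.cs_dup ar fun hn => ?_
  have := hn.length_le_card
  simp at this
  omega

theorem pass_all {st sr h} {l : List (Cell I)}
    (hk : ∀ c ∈ l, ∀ σ, sr = some σ → key c ≠ key (σ, h)) :
    cs e true l * e (.head st sr, h) = e (.head st sr, h) * cs e false l := by
  induction l with
  | nil => simp
  | cons c l ih =>
    rw [cs_cons, cs_cons, mul_assoc, ih fun c hc => hk c (List.mem_cons_of_mem _ hc),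
      ← mul_assoc, hm.pass (hk c List.mem_cons_self), mul_assoc]

theorem VV_left (st h C) : VV e st h C = cs e true C * e (.head st none, h) :=
  (hm.pass_all (by simp)).symm

theorem VV_cons (st h c C) :
    VV e st h (c :: C) = e (cl true c) * e (.head st none, h) * cs e false C := by
  rw [hm.pass (by simp), VV, cs_cons, mul_assoc]

theorem VV_perm (st h) {C C' : List (Cell I)} (hp : C.Perm C') : VV e st h C = VV e st h C' := by
  rw [VV, VV, hm.cs_perm false hp]

theorem srch {γ} (hγ : LC e γ) (st sr h) :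
    γ * e (.head st sr, h) = γ * e (.head st none, h) := by
  rcases sr with _ | σ
  · rfl
  obtain ⟨γ', z, hz, rfl⟩ := hγ
  rw [mul_assoc, mul_assoc]
  congr 1
  exact (hm.nz (κ := .srch) (a := z) (a' := z) (b := (.head st none, h))
    (b' := (.head st (some σ), h)) rfl (by simp) (.srch _ st σ hz) ⟨rfl, rfl⟩).symm

theorem norm (B : Blk I) : (∀ γ, γ * ev e B.flat = 0) ∨
    ∀ γ, LC e γ → γ * ev e B.flat = γ * VV e B.st B.h (B.A ++ B.C) := by
  classical
  have e1 : ev e B.flat = cs e true B.A * e (.head B.st B.sr, B.h) * cs e false B.C := by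
    simp [Blk.flat, cs, mul_assoc]
  by_cases hk : ∀ c ∈ B.A, ∀ σ, B.sr = some σ → key c ≠ key (σ, B.h)
  · refine Or.inr fun γ hγ => ?_
    rw [e1, hm.pass_all hk, ← mul_assoc, ← mul_assoc, hm.srch hγ, VV, cs_append]
    simp only [mul_assoc]
  · push Not at hk
    obtain ⟨c, hc, σ, hσ, hk⟩ := hk
    refine Or.inl fun γ => ?_
    rw [e1, hm.cs_perm true ((List.perm_cons_erase hc).trans (List.perm_append_singleton _ _).symm),
      cs_append, cs_cons, cs_nil, mul_one, mul_assoc (cs e true _), hσ, hm.hit hk]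
    simp

theorem miss {γ δ} (hγ : LC e γ) (hδ : RC e δ) {st h C} (σ : Option Col)
    (hk : ∀ c ∈ C, key c ≠ key (σ, h)) : γ * VV e st h C * δ = 0 := by
  obtain ⟨z, δ', hz, rfl⟩ := hδ
  rw [VV, ← mul_assoc γ, ← hm.srch hγ st (some σ), mul_assoc γ,
    ← hm.pass_all (fun c hc σ' h' => by rw [← Option.some.inj h']; exact hk c hc),
    mul_assoc, mul_assoc, ← mul_assoc (e _),
    hm.z0 (a := (.head st (some σ), h)) (.miss st σ _ hz)]
  simp

theorem ref (y h h') : e y * e (.head .rdy none, h) = e y * e (.head .rdy none, h') :=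
  (hm .ref y _ y _ ⟨.ref _, by simp⟩).2 rfl

theorem VV_ref (h h') {C : List (Cell I)} (hC : C ≠ []) : VV e .rdy h C = VV e .rdy h' C := by
  obtain ⟨c, C, rfl⟩ := List.exists_cons_of_ne_nil hC
  rw [hm.VV_cons, hm.VV_cons, hm.ref]

theorem lc_ref {γ} (hγ : LC e γ) (h h' C) : γ * VV e .rdy h C = γ * VV e .rdy h' C := by
  obtain ⟨γ', z, -, rfl⟩ := hγ
  rw [VV, VV, mul_assoc, mul_assoc, ← mul_assoc (e z), hm.ref z h h', mul_assoc]

theorem inc {st st'} (hs : st.isEng ≠ st'.isLock) (h C h' C') :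
    VV e st h C * VV e st' h' C' = 0 := by
  rw [hm.VV_left, VV, mul_assoc, ← mul_assoc (e _),
    hm.z0 (a := (.head st none, h)) (b := (.head st' none, h')) (.inc _ _ _ _ hs)]
  simp

theorem hh {st st2 st' st2' h h2}
    (he : e (.head st none, h) * e (.head st2 none, h2) =
      e (.head st' none, h) * e (.head st2' none, h2)) (C C2) :
    VV e st h C * VV e st2 h2 C2 = VV e st' h C * VV e st2' h2 C2 := by
  rw [hm.VV_left, hm.VV_left st', VV, VV, mul_assoc, ← mul_assoc (e _), he]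
  simp only [mul_assoc]

theorem eng (μ) {n : Fin 64} (hn : n.val = 0) (h C h2 C2) :
    VV e .rdy h C * VV e .rdy h2 C2 = VV e (.eng μ n) h C * VV e .lock h2 C2 :=
  hm.hh (hm.nz (κ := .eng) rfl (by simp) (.eng μ n hn) ⟨rfl, rfl⟩) C C2

theorem own {μ γ o} {n n' : Fin 64} (hn : n'.val = n.val + 1)
    (hi : (prog μ)[n.val]? = some (true, γ, o)) {a h a' h'} (hr : L.Rel o μ.k a h a' h') (C) :
    VV e (.eng μ n) h ((some γ, a) :: C) = VV e (.eng μ n') h' ((some γ, a') :: C) := by
  rw [hm.VV_cons, hm.VV_cons]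
  congr 1
  exact hm.nz (κ := .own o) rfl (by simp) (.own μ n n' γ o hn hi) hr

theorem frn {μ γ o} {n n' : Fin 64} (hn : n'.val = n.val + 1)
    (hi : (prog μ)[n.val]? = some (false, γ, o)) {h b h' b'} (hr : L.Rel o .com h b h' b')
    (C h2 C2) : VV e (.eng μ n) h C * VV e .lock h2 ((some γ, b) :: C2) =
      VV e (.eng μ n') h' C * VV e .lock h2 ((some γ, b') :: C2) := by
  rw [hm.VV_cons, hm.VV_cons, hm.VV_left, hm.VV_left]
  have := hm.nz (κ := .frn o) (a := (.head (.eng μ n) none, h)) (b := cl true (some γ, b))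
    (a' := (.head (.eng μ n') none, h')) (b' := cl true (some γ, b')) rfl (by simp)
    (.frn μ n n' γ o hn hi) hr
  simp only [mul_assoc]
  rw [← mul_assoc (e _), this, mul_assoc]

theorem rewind {γ δ} (hγ : LC e γ) (hδ : RC e δ) (μ h2) (m : ℕ) : ∀ (n : Fin 64) h C1 C2,
    n.val = m → γ * (VV e (.eng μ n) h C1 * VV e .lock h2 C2) * δ = 0 ∨
      ∃ h' C1' C2', C1'.length = C1.length ∧ C2'.length = C2.length ∧
        VV e (.eng μ n) h C1 * VV e .lock h2 C2 = VV e .rdy h' C1' * VV e .rdy h2 C2' := by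
  classical
  induction m with
  | zero => intro n h C1 C2 hn; exact Or.inr ⟨h, C1, C2, rfl, rfl, (hm.eng μ hn _ _ _ _).symm⟩
  | succ m ih =>
    intro n h C1 C2 hn
    by_cases hlt : (prog μ).length < n.val
    · left
      rw [hm.VV_left, VV, mul_assoc (cs _ _ _), ← mul_assoc (e _),
        hm.z0 (a := (.head (.eng μ n) none, h)) (.ovf μ n _ hlt)]
      simp
    obtain ⟨⟨s, g, o⟩, hi⟩ : ∃ i, (prog μ)[m]? = some i :=
      ⟨_, List.getElem?_eq_getElem (by omega)⟩
    let n0 : Fin 64 := ⟨m, by omega⟩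
    have tok : ∀ C : List (Cell I), (∀ c ∈ C, key c ≠ .inr g) ∨
        ∃ a C', C.Perm ((some g, a) :: C') := by
      intro C
      by_cases hc : ∀ c ∈ C, key c ≠ .inr g
      · exact Or.inl hc
      · push Not at hc
        obtain ⟨⟨k, a⟩, hc, hk⟩ := hc
        obtain rfl : k = some g := key_fst (c' := (some g, a)) hk
        exact Or.inr ⟨a, _, List.perm_cons_erase hc⟩
    cases s
    · rcases tok C2 with hc | ⟨b, C', hp⟩
      · left
        rw [← mul_assoc]
        exact hm.miss ((lc_VV e _ _ _).mul γ) hδ (some g) hc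
      rw [hm.VV_perm _ _ hp]
      rcases Rel.total (L := L) o .com h b with ⟨h0, b0, hr⟩ | ⟨o', ho, hr⟩
      · rw [← hm.frn (n := n0) hn hi hr]
        refine (ih n0 h0 C1 _ rfl).imp id ?_
        rintro ⟨h', C1', C2', e1, e2, e3⟩
        exact ⟨h', C1', C2', e1, by rw [e2, hp.length_eq]; rfl, e3⟩
      · left
        rw [hm.VV_left, hm.VV_cons, mul_assoc (cs _ _ _), mul_assoc (e _), ← mul_assoc (e _),
          hm.zt (a := (.head (.eng μ n) none, h)) (b := cl true (some g, b))
            (.frn μ m n g o o' hn hi ho) hr]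
        simp
    · rcases tok C1 with hc | ⟨a, C', hp⟩
      · left
        rw [← mul_assoc, mul_assoc _ _ δ]
        exact hm.miss hγ ((rc_VV e _ _ _).mul δ) (some g) hc
      rw [hm.VV_perm _ _ hp]
      rcases Rel.total (L := L) o μ.k a h with ⟨a0, h0, hr⟩ | ⟨o', ho, hr⟩
      · rw [← hm.own (n := n0) hn hi hr]
        refine (ih n0 h0 _ C2 rfl).imp id ?_
        rintro ⟨h', C1', C2', e1, e2, e3⟩
        exact ⟨h', C1', C2', by rw [e1, hp.length_eq]; rfl, e2, e3⟩
      · left
        rw [hm.VV_cons, hm.zt (a := cl true (some g, a)) (b := (.head (.eng μ n) none, h))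
            (.own μ m n g o o' hn hi ho) hr]
        simp

end Lev.Mod

namespace Lev

variable (L : Lev I)

noncomputable def x0 : I := (L.lab_surj .com).choose

/-- the standard block of a letter of the next level -/
noncomputable def EE [Fintype I] (e : Ctl × I → M) (a : Ctl × (Fin 8 → I)) : M :=
  VV e .rdy L.x0 (canon (mkf (L.set L.x0 a.1) a.2))

end Lev

namespace Lev.Mod

variable {L : Lev I} {e : Ctl × I → M} (hm : L.Mod e) [Fintype I]
include hm

omit hm in
theorem canon_ne (f : Col → I) : canon f ≠ [] := fun h => by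
  have := canon_length f
  rw [h] at this
  simp at this

theorem VV_view (h f) : VV e .rdy h (canon f) = L.EE e (L.view f) := by
  obtain ⟨l, hl⟩ := canon_tok f none
  have h1 := hl (f none)
  rw [update_eq_self] at h1
  have h2 : mkf (L.set L.x0 (L.dec (f none))) (cmp f) =
      update f none (L.set L.x0 (L.dec (f none))) := by
    funext γ; rcases γ with _ | j <;> simp
  rw [EE, view, h2, hm.VV_perm _ _ (hl _), hm.VV_ref h L.x0 (canon_ne f), hm.VV_perm _ _ h1,
    hm.VV_ref _ (L.set (f none) (L.dec L.x0)) (C := (some none, L.set _ _) :: l) (by simp),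
    hm.VV_cons, hm.VV_cons]
  congr 1
  exact hm.nz (κ := .lj) rfl (by simp) .lj ⟨rfl, rfl⟩

theorem rdy_case {γ δ} (hγ : LC e γ) (hδ : RC e δ) (h C) : γ * VV e .rdy h C * δ = 0 ∨
    (C.length = Fintype.card I + 9 ∧ ∃ a, VV e .rdy h C = L.EE e a) := by
  by_cases h1 : (C.map key).Nodup
  swap
  · left; rw [VV, hm.cs_dup false h1]; simp
  by_cases h2 : ∀ c, ∃ c' ∈ C, key c' = key c
  swap
  · left
    push Not at h2
    obtain ⟨⟨σ, x⟩, hc⟩ := h2
    rw [hm.lc_ref hγ h x]
    exact hm.miss hγ hδ σ hc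
  obtain ⟨f, hf⟩ := full_of h1 h2 h
  exact Or.inr ⟨by rw [hf.perm_canon.length_eq, canon_length], _, by
    rw [hm.VV_perm _ _ hf.perm_canon, hm.VV_view]⟩

theorem run (μ h2) (m : ℕ) : ∀ (n : Fin 64) (σ0 σ : S3 I), n.val = m → m ≤ (prog μ).length →
    L.Run μ.k ((prog μ).take m) σ0 σ →
    L.EE e (L.view σ0.1) * L.EE e (L.view σ0.2.2) =
      VV e (.eng μ n) σ.2.1 (canon σ.1) * VV e .lock h2 (canon σ.2.2) := by
  induction m with
  | zero =>
    rintro n σ0 σ hn - hr
    obtain rfl : σ = σ0 := hr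
    rw [← hm.eng μ hn, hm.VV_view, hm.VV_view]
  | succ m ih =>
    intro n σ0 σ hn hle hr
    obtain ⟨⟨s, g, o⟩, hi⟩ : ∃ i, (prog μ)[m]? = some i :=
      ⟨_, List.getElem?_eq_getElem (by omega)⟩
    obtain ⟨⟨f1, h1, g1⟩, hr1, hs⟩ := (run_take_succ hi).1 hr
    rw [ih ⟨m, by omega⟩ σ0 _ rfl (by omega) hr1]
    cases s
    · obtain ⟨h', b, hq, rfl⟩ := hs
      obtain ⟨l, hl⟩ := canon_tok g1 g
      have h1 := hl (g1 g)
      rw [update_eq_self] at h1
      rw [hm.VV_perm _ _ h1, hm.VV_perm _ _ (hl b)]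
      exact hm.frn (n := ⟨m, by omega⟩) hn hi hq _ _ _
    · obtain ⟨a, h', hq, rfl⟩ := hs
      obtain ⟨l, hl⟩ := canon_tok f1 g
      have h1 := hl (f1 g)
      rw [update_eq_self] at h1
      rw [hm.VV_perm _ _ h1, hm.VV_perm _ _ (hl a),
        hm.own (n := ⟨m, by omega⟩) hn hi hq]

theorem sim_run {κ j} {σ σ' : S3 I} (hr : L.Run κ (prog ⟨κ, j, false⟩) σ σ') :
    (isZ κ = true → L.EE e (L.view σ.1) * L.EE e (L.view σ.2.2) = 0) ∧
    (isZ κ = false → L.EE e (L.view σ.1) * L.EE e (L.view σ.2.2) =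
      L.EE e (L.view σ'.1) * L.EE e (L.view σ'.2.2)) := by
  have l1 := prog_length ⟨κ, j, false⟩
  have l2 := prog_length ⟨κ, j, true⟩
  have e1 := hm.run ⟨κ, j, false⟩ L.x0 _ ⟨(prog ⟨κ, j, false⟩).length, by omega⟩ σ σ' rfl le_rfl
    (by rw [List.take_length]; exact hr)
  have e2 := hm.run ⟨κ, j, true⟩ L.x0 _ ⟨(prog ⟨κ, j, true⟩).length, by omega⟩ σ' σ' rfl le_rfl
    (by rw [List.take_length]; exact cross_fw hr)
  refine ⟨fun hz => ?_, fun hz => ?_⟩
  · rw [e1, hm.VV_left, VV, mul_assoc (cs _ _ _), ← mul_assoc (e _),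
      hm.z0 (a := (.head (.eng _ _) none, _)) (.fin _ _ _ rfl hz rfl)]
    simp
  · rw [e1, e2]
    exact hm.hh (hm.nz (κ := .mid) rfl (by simp) (.mid κ j _ _ hz rfl rfl) ⟨rfl, rfl⟩) _ _

theorem sim : L.up.Mod (L.EE e) := by
  intro κ a b a' b' hr
  have hv : ∀ (c : I) (a : Ctl × (Fin 8 → I)), L.view (mkf (L.set c a.1) a.2) = a := by
    intro c a; simp [view]
  obtain ⟨c, hc⟩ := L.lab_surj κ
  by_cases hκ : κ = .ref
  · subst hκ
    refine ⟨by simp [isZ], fun _ => ?_⟩
    obtain ⟨p, x⟩ := a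
    obtain ⟨q, y⟩ := b
    obtain ⟨p', x'⟩ := a'
    obtain ⟨q', y'⟩ := b'
    obtain ⟨hb, hx⟩ := hr
    obtain rfl : x' = x := by simpa using hx
    cases hb
    have step : ∀ (y : Fin 8 → I) j v, L.EE e (p, x') * L.EE e (.head .rdy none, y) =
        L.EE e (p, x') * L.EE e (.head .rdy none, update y j v) := by
      intro y j v
      have := (hm.sim_run (exp_ref p x' y c c v hc j)).2 rfl
      simpa [view] using this
    have : ∀ s : Finset (Fin 8), L.EE e (p, x') * L.EE e (.head .rdy none, y) =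
        L.EE e (p, x') * L.EE e (.head .rdy none, s.piecewise y' y) := by
      intro s
      induction s using Finset.induction_on with
      | empty => simp
      | insert j s _ ih => rw [Finset.piecewise_insert, ← step, ih]
    simpa using this Finset.univ
  · obtain ⟨j, hj⟩ := exp_complete hκ hr c c c hc
    simpa only [hv] using hm.sim_run hj

end Lev.Mod

end Vale.Agent.P192
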