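import Vale.Agent.P192.Stab

/-! Injective stability for Steinberg groups over local rings with residue field of order two. -/

namespace Vale.Agent.P192

open Matrix Vale.Agent.P193

variable {ι : Type} {R : Type} [Ring R] {H : Type} [Group H]

def scRels (T S : Set ι) (R : Type) [Ring R] : Set (FreeGroup (ι × ι × R)) :=
  {w | (∃ i r, w = .of (i, i, r)) ∨ (∃ i j r, i ∈ T ∧ w = .of (i, j, r)) ∨
    (∃ i j r, j ∈ S ∧ w = .of (i, j, r)) ∨
    (∃ i j r s, w = (FreeGroup.of (i, j, r + s))⁻¹ * (.of (i, j, r) * .of (i, j, s))) ∨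
    (∃ i j k l r s, j ≠ k ∧ i ≠ l ∧
      w = (FreeGroup.of (i, j, r) * .of (k, l, s))⁻¹ * (.of (k, l, s) * .of (i, j, r))) ∨
    (∃ i j k r s, i ≠ j ∧ j ≠ k ∧ i ≠ k ∧ j ∉ S ∧
      w = (FreeGroup.of (i, j, r) * .of (j, k, s))⁻¹ *
        (.of (i, k, r * s) * .of (j, k, s) * .of (i, j, r)))}

def SC (T S : Set ι) (R : Type) [Ring R] : Type := PresentedGroup (scRels T S R)

instance {T S : Set ι} : Group (SC T S R) := inferInstanceAs (Group (PresentedGroup _))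

def xc {T S : Set ι} (i j : ι) (r : R) : SC T S R :=
  PresentedGroup.of (rels := scRels T S R) (i, j, r)

theorem isSC_xc (T S : Set ι) : IsSC T S (xc : ι → ι → R → SC T S R) where
  diag i r := PresentedGroup.one_of_mem (rels := scRels T S R) (Or.inl ⟨i, r, rfl⟩)
  row i j r h := PresentedGroup.one_of_mem (rels := scRels T S R)
    (Or.inr (Or.inl ⟨i, j, r, h, rfl⟩))
  col0 i j r h := PresentedGroup.one_of_mem (rels := scRels T S R)
    (Or.inr (Or.inr (Or.inl ⟨i, j, r, h, rfl⟩)))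
  add i j r s := PresentedGroup.mk_eq_mk_of_inv_mul_mem (rels := scRels T S R)
    (Or.inr (Or.inr (Or.inr (Or.inl ⟨i, j, r, s, rfl⟩))))
  comm i j k l r s h1 h2 := PresentedGroup.mk_eq_mk_of_inv_mul_mem (rels := scRels T S R)
    (Or.inr (Or.inr (Or.inr (Or.inr (Or.inl ⟨i, j, k, l, r, s, h1, h2, rfl⟩)))))
  mul i j k r s h1 h2 h3 h4 := PresentedGroup.mk_eq_mk_of_inv_mul_mem (rels := scRels T S R)
    (Or.inr (Or.inr (Or.inr (Or.inr (Or.inr ⟨i, j, k, r, s, h1, h2, h3, h4, rfl⟩)))))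

def IsSC.lift {T S : Set ι} {x : ι → ι → R → H} (hx : IsSC T S x) : SC T S R →* H :=
  PresentedGroup.toGroup (rels := scRels T S R) (f := fun p => x p.1 p.2.1 p.2.2) (by
    rintro w (⟨i, r, rfl⟩ | ⟨i, j, r, h, rfl⟩ | ⟨i, j, r, h, rfl⟩ | ⟨i, j, r, s, rfl⟩ |
      ⟨i, j, k, l, r, s, h1, h2, rfl⟩ | ⟨i, j, k, r, s, h1, h2, h3, h4, rfl⟩)
    · simp [hx.diag]
    · simp [hx.row _ _ _ h]
    · simp [hx.col0 _ _ _ h]
    · simp [hx.add]
    · simp only [map_mul, map_inv, FreeGroup.lift_apply_of]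
      rw [hx.comm i j k l r s h1 h2, inv_mul_cancel]
    · simp only [map_mul, map_inv, FreeGroup.lift_apply_of]
      rw [hx.mul i j k r s h1 h2 h3 h4, inv_mul_cancel])

@[simp] theorem IsSC.lift_xc {T S : Set ι} {x : ι → ι → R → H} (hx : IsSC T S x) (i j : ι)
    (r : R) : hx.lift (xc i j r) = x i j r :=
  PresentedGroup.toGroup.of _

theorem SC.mem_of_gens {T S : Set ι} (K : Subgroup (SC T S R)) (h : ∀ i j r, xc i j r ∈ K)
    (g : SC T S R) : g ∈ K :=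
  PresentedGroup.generated_by (scRels T S R) K (fun p => h p.1 p.2.1 p.2.2) g

theorem SC.hom_ext {T S : Set ι} {f g : SC T S R →* H}
    (h : ∀ i j r, j ∉ S → f (xc i j r) = g (xc i j r)) (b : SC T S R) : f b = g b := by
  refine DFunLike.congr_fun (PresentedGroup.ext (rels := scRels T S R) fun p => ?_) b
  by_cases hj : p.2.1 ∈ S
  · have : (xc p.1 p.2.1 p.2.2 : SC T S R) = 1 := (isSC_xc T S).col0 _ _ _ hj
    show f (xc p.1 p.2.1 p.2.2) = g (xc p.1 p.2.1 p.2.2)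
    rw [this, map_one, map_one]
  · exact h p.1 p.2.1 p.2.2 hj

attribute [irreducible] SC

theorem IsSC.relabel {ι' : Type} {T S : Set ι} {T' S' : Set ι'} {x : ι' → ι' → R → H}
    (hx : IsSC T' S' x) (f : ι → ι') (hf : Function.Injective f) (hT : ∀ i ∈ T, f i ∈ T')
    (hS : ∀ j, j ∈ S ↔ f j ∈ S') : IsSC T S fun i j => x (f i) (f j) where
  diag _ _ := hx.diag _ _
  row i _ _ h := hx.row _ _ _ (hT i h)
  col0 _ j _ h := hx.col0 _ _ _ ((hS j).1 h)
  add _ _ := hx.add _ _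
  comm _ _ _ _ r s h1 h2 := hx.comm _ _ _ _ r s (hf.ne h1) (hf.ne h2)
  mul _ j _ r s h1 h2 h3 h4 := hx.mul _ _ _ r s (hf.ne h1) (hf.ne h2) (hf.ne h3)
    fun h => h4 ((hS j).2 h)

noncomputable def incl {S S' : Set ι} (h : S' ⊆ S) : SC ∅ S R →* SC ∅ S' R :=
  ((isSC_xc ∅ S').cut subset_rfl h).lift

theorem incl_xc {S S' : Set ι} (h : S' ⊆ S) {i j} (r : R) (hj : j ∉ S) :
    incl h (xc i j r) = xc i j r := by rw [incl, IsSC.lift_xc, cut_of_not hj]

theorem incl_incl {S S' S'' : Set ι} (h : S' ⊆ S) (h' : S'' ⊆ S') (b : SC ∅ S R) :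
    incl h' (incl h b) = incl (h'.trans h) b :=
  SC.hom_ext (f := (incl h').comp (incl h)) (fun i j r hj => by
    rw [MonoidHom.comp_apply, incl_xc _ _ hj, incl_xc _ _ hj, incl_xc _ _ fun h2 => hj (h h2)]) b

noncomputable def pr {S : Set ι} {a : ι} (h : a ∈ S) : SC ∅ S R →* SC {a} {a} R :=
  ((isSC_xc {a} {a}).cut (Set.empty_subset _) (Set.singleton_subset_iff.2 h)).lift

theorem pr_xc {S : Set ι} {a : ι} (h : a ∈ S) {i j} (r : R) (hj : j ∉ S) :
    pr h (xc i j r) = xc i j r := by rw [pr, IsSC.lift_xc, cut_of_not hj]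

theorem pr_incl {S S' : Set ι} {a : ι} (h : S' ⊆ S) (ha : a ∈ S') (b : SC ∅ S R) :
    pr ha (incl h b) = pr (h ha) b :=
  SC.hom_ext (f := (pr ha).comp (incl h)) (fun i j r hj => by
    rw [MonoidHom.comp_apply, incl_xc _ _ hj, pr_xc _ _ hj, pr_xc _ _ fun h2 => hj (h h2)]) b

theorem exists_lam {B P G : Type} [Group B] [Group P] [Group G] (inc : B →* P) (pr : B →* G)
    (h : ∀ b, inc b = 1 → pr b = 1) : ∃ Λ : P → G, ∀ p b, Λ (p * inc b) = Λ p * pr b := by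
  have : ∀ p : P, ∃ b, inc b = ((p : P ⧸ inc.range).out)⁻¹ * p := fun p =>
    MonoidHom.mem_range.1 (QuotientGroup.eq.1 (QuotientGroup.out_eq' (p : P ⧸ inc.range)))
  choose β hβ using this
  refine ⟨fun p => pr (β p), fun p b => ?_⟩
  have e : ((p * inc b : P) : P ⧸ inc.range) = p := QuotientGroup.mk_mul_of_mem p ⟨b, rfl⟩
  have := h ((β p * b)⁻¹ * β (p * inc b)) (by
    rw [map_mul, map_inv, map_mul, hβ, hβ, e]; group)
  rw [map_mul, map_inv, inv_mul_eq_one, map_mul] at this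
  exact this.symm

variable [Fintype ι] [DecidableEq ι]

noncomputable def πc {S : Set ι} : SC ∅ S R →* (Matrix ι ι R)ˣ :=
  ((isSC_of_isSt isSt_el).cut subset_rfl (Set.empty_subset S)).lift

theorem πc_xc {S : Set ι} (i j : ι) (r : R) (hj : j ∉ S) :
    πc (xc i j r : SC ∅ S R) = el i j r := by rw [πc, IsSC.lift_xc, cut_of_not hj]

theorem πc_incl {S S' : Set ι} (h : S' ⊆ S) (b : SC ∅ S R) : πc (incl h b) = πc b :=
  SC.hom_ext (f := πc.comp (incl h)) (fun i j r hj => by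
    rw [MonoidHom.comp_apply, incl_xc _ _ hj, πc_xc _ _ _ hj, πc_xc _ _ _ fun h2 => hj (h h2)]) b

noncomputable def vec (a : ι) {S : Set ι} (p : SC ∅ S R) : ι → R := act πc p (Pi.single a 1)

theorem vec_incl (a : ι) {S S' : Set ι} (h : S' ⊆ S) (b : SC ∅ S R) :
    vec a (incl h b) = vec a b := by
  rw [vec, vec, act, act, πc_incl]

theorem vec_fix (h2 : ∀ r : R, r + r = 0) {a : ι} {S : Set ι} (ha : a ∈ S) (b : SC ∅ S R) :
    vec a b = Pi.single a 1 := by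
  refine (isSC_xc ∅ S).gen_ind h2 SC.mem_of_gens (P := fun b => vec a b = Pi.single a 1)
    (act_one _ _) (fun i j r g hg => ?_) b
  by_cases e : i = j
  · subst e; rw [(isSC_xc ∅ S).diag, one_mul]; exact hg
  by_cases hj : j ∈ S
  · rw [(isSC_xc ∅ S).col0 _ _ _ hj, one_mul]; exact hg
  have : j ≠ a := fun h => hj (h ▸ ha)
  rw [vec, act_mul, ← vec, hg, act_el (πc_xc _ _ _ hj) e]
  simp [ea, this]

theorem vec_eq {ε : R →+* ZMod 2} (hL : Loc ε) {S : Set ι}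
    (h3 : ∀ i j, ∃ m, m ∉ S ∧ m ≠ i ∧ m ≠ j) {a : ι} (ha : a ∉ S) {p q : SC ∅ S R}
    (h : vec a p = vec a q) : ∃ b, p = q * incl (Set.subset_insert a S) b := by
  have := (isSC_xc ∅ S).stab_mem hL h3 SC.mem_of_gens πc πc_xc ha (g := q⁻¹ * p) (by
    rw [act_mul, ← vec, h, vec, ← act_mul, inv_mul_cancel, act_one])
  obtain ⟨b, hb⟩ : q⁻¹ * p ∈ (incl (Set.subset_insert a S)).range := by
    refine (Subgroup.closure_le _).2 ?_ this
    rintro _ ⟨k, l, r, hl, rfl⟩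
    by_cases h : l ∈ S
    · rw [(isSC_xc ∅ S).col0 _ _ _ h]; exact Subgroup.one_mem _
    · exact ⟨xc k l r, incl_xc _ _ (by simp [hl, h])⟩
  exact ⟨b, by rw [hb, mul_inv_cancel_left]⟩

theorem functional (h2 : ∀ r : R, r + r = 0) {a c : ι} (hc : c ≠ a) (b : SC ∅ (insert a {c}) R)
    (hb : incl (Set.subset_insert a {c}) b = 1) : pr (Set.mem_insert a {c}) b = 1 := by
  let σ := Equiv.swap a c
  have hσ : ∀ j, j ∈ (insert a {c} : Set ι) ↔ σ j ∈ (insert a {c} : Set ι) := by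
    intro j
    simp only [σ, Set.mem_insert_iff, Set.mem_singleton_iff, Equiv.swap_apply_eq_iff,
      Equiv.swap_apply_left, Equiv.swap_apply_right, or_comm]
  have hx := isSC_xc (R := R) (∅ : Set ι) (insert a {c})
  let σB : SC ∅ (insert a {c}) R →* SC ∅ (insert a {c}) R :=
    (hx.relabel (T := ∅) σ σ.injective (by simp) hσ).lift
  let ω : SC ∅ {c} R →* SC {a} {a} R :=
    ((isSC_xc {a} {a}).relabel (T := ∅) σ σ.injective (by simp) (by
      intro j; simp [σ, Equiv.swap_apply_eq_iff])).lift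
  have e1 : pr (Set.mem_insert a {c}) (σB b) = ω (incl (Set.subset_insert a {c}) b) :=
    SC.hom_ext (f := (pr (Set.mem_insert a {c})).comp σB)
      (g := ω.comp (incl (Set.subset_insert a {c}))) (fun i j r hj => by
      simp only [MonoidHom.comp_apply, incl_xc _ _ hj, σB, ω, IsSC.lift_xc]
      exact pr_xc _ _ fun h => hj ((hσ j).2 h)) b
  let ρ : Matrix ι ι R →* Matrix ι ι R :=
    { toFun := fun M => M.submatrix σ σ
      map_one' := submatrix_one_equiv σ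
      map_mul' := fun M N => (submatrix_mul_equiv M N _ σ _).symm }
  have e2 : πc (σB b) = Units.map ρ (πc b) :=
    SC.hom_ext (f := πc.comp σB) (g := (Units.map ρ).comp πc) (fun i j r hj => by
      simp only [MonoidHom.comp_apply, σB, IsSC.lift_xc, πc_xc _ _ _ hj,
        πc_xc _ _ _ fun h => hj ((hσ j).2 h)]
      by_cases e : i = j
      · subst e; simp [el_self]
      ext k l
      simp only [Units.coe_map, el_val e, el_val (σ.injective.ne e), ρ, MonoidHom.coe_mk,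
        OneHom.coe_mk, submatrix_apply, Matrix.add_apply, one_apply, single_apply,
        σ.injective.eq_iff]
      congr 2
      simp only [σ, Equiv.swap_apply_eq_iff]) b
  have e3 : πc b = 1 := by rw [← πc_incl (Set.subset_insert a {c}), hb, map_one]
  let rk : ι → ℕ := fun i => if i ∈ (insert a {c} : Set ι) then 0 else 1
  have e4 : b * (σB b)⁻¹ ∈ UU xc rk := by
    refine hx.gen_ind h2 SC.mem_of_gens (P := fun b => b * (σB b)⁻¹ ∈ UU xc rk) (by simp)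
      (fun i j r g hg => ?_) b
    by_cases hj : j ∈ (insert a {c} : Set ι)
    · rw [hx.col0 _ _ _ hj, one_mul]; exact hg
    have h1 := hx.norm_UU h2 rk (i := i) (j := j) (by
      simp only [rk, if_neg hj]; split_ifs <;> simp) r hg
    have h3 : xc i j r * (σB (xc i j r))⁻¹ ∈ UU xc rk := by
      simp only [σB, IsSC.lift_xc]
      by_cases hi : i ∈ (insert a {c} : Set ι)
      · refine Subgroup.mul_mem _ (mem_UU _ ?_ _) (Subgroup.inv_mem _ (mem_UU _ ?_ _))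
        · simp only [rk, if_pos hi, if_neg hj]; simp
        · simp only [rk, if_pos ((hσ i).1 hi), if_neg fun h => hj ((hσ j).2 h)]; simp
      · simp only [Set.mem_insert_iff, Set.mem_singleton_iff, not_or] at hi hj
        simp [σ, Equiv.swap_apply_of_ne_of_ne hi.1 hi.2, Equiv.swap_apply_of_ne_of_ne hj.1 hj.2]
    have := Subgroup.mul_mem _ h1 h3
    convert this using 1
    rw [map_mul]; group
  have e5 := hx.tri_inj h2 πc πc_xc rk e4 (by simp [e2, e3])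
  rw [mul_inv_eq_one] at e5
  rw [e5, e1, hb, map_one]

omit [Fintype ι] [DecidableEq ι] in
theorem sb1 (c d : ι) : ({c} : Set ι) ⊆ {c, d} := by simp

omit [Fintype ι] [DecidableEq ι] in
theorem sb2 (c d : ι) : ({d} : Set ι) ⊆ {c, d} := by simp

omit [Fintype ι] [DecidableEq ι] in
theorem lam_gen {a c : ι} {Λ : SC ∅ {c} R → SC {a} {a} R} (h : ∀ p b,
      Λ (p * incl (Set.subset_insert a {c}) b) = Λ p * pr (Set.mem_insert a {c}) b)
    {S : Set ι} (hc : ({c} : Set ι) ⊆ S) (t : SC ∅ S R) (b : SC ∅ (insert a S) R) :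
    Λ (incl (R := R) hc (t * incl (R := R) (Set.subset_insert a S) b)) =
      Λ (incl hc t) * pr (Set.mem_insert a S) b := by
  have e1 : incl (Set.subset_insert a {c}) (incl (Set.insert_subset_insert hc) b) =
      incl hc (incl (Set.subset_insert a S) b) := (incl_incl _ _ b).trans (incl_incl _ _ b).symm
  rw [map_mul, ← e1, h, pr_incl]

omit [Fintype ι] [DecidableEq ι] in
theorem exists_cone (ε : R →+* ZMod 2)
    (h5 : ∀ a b c d : ι, ∃ e, e ≠ a ∧ e ≠ b ∧ e ≠ c ∧ e ≠ d) (a : ι) (v : ι → R) :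
    ∃ e, e ≠ a ∧ ∀ c d, WW ε {c, d} v → WW ε {c, d, e} v := by
  by_cases h : ∃ e, e ≠ a ∧ ε (v e) = 0
  · obtain ⟨e, he, h0⟩ := h
    refine ⟨e, he, ?_⟩
    rintro c d ⟨i, hi, h1⟩
    refine ⟨i, ?_, h1⟩
    have : i ≠ e := fun h => by rw [h, h0] at h1; simp at h1
    simpa [this] using hi
  · push Not at h
    obtain ⟨e, he, -⟩ := h5 a a a a
    refine ⟨e, he, fun c d _ => ?_⟩
    obtain ⟨m, h1, h2, h3, h4⟩ := h5 a c d e
    exact ⟨m, by simp [h2, h3, h4], (z2_cases _).resolve_left (h m h1)⟩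

theorem exists_global {ε : R →+* ZMod 2} (hL : Loc ε)
    (h5 : ∀ a b c d : ι, ∃ e, e ≠ a ∧ e ≠ b ∧ e ≠ c ∧ e ≠ d) (a : ι) :
    ∃ Λ : ∀ c : ι, SC ∅ {c} R → SC {a} {a} R,
      (∀ c, c ≠ a → ∀ p b, Λ c (p * incl (Set.subset_insert a {c}) b) =
        Λ c p * pr (Set.mem_insert a {c}) b) ∧
      ∀ c d, c ≠ a → d ≠ a → ∀ t : SC ∅ {c, d} R,
        Λ c (incl (sb1 c d) t) = Λ d (incl (sb2 c d) t) := by
  classical
  have : ∀ c : ι, ∃ Λ : SC ∅ {c} R → SC {a} {a} R, c ≠ a → ∀ p b,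
      Λ (p * incl (Set.subset_insert a {c}) b) = Λ p * pr (Set.mem_insert a {c}) b := by
    intro c
    by_cases hc : c = a
    · exact ⟨fun _ => 1, fun h => (h hc).elim⟩
    · obtain ⟨Λ, h⟩ := exists_lam _ _ (functional hL.two hc)
      exact ⟨Λ, fun _ => h⟩
  choose L0 hL0 using this
  choose e he hW using exists_cone ε h5 a
  have h3 : ∀ c d i j : ι, ∃ m, m ∉ ({c, d} : Set ι) ∧ m ≠ i ∧ m ≠ j := fun c d i j => by
    obtain ⟨m, h1, h2, h3, h4⟩ := h5 c d i j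
    exact ⟨m, by simp [h1, h2], h3, h4⟩
  have : ∀ c v, ∃ γ : SC {a} {a} R, c ≠ a → ∀ t : SC ∅ {c, e v} R, vec a t = v →
      γ * L0 c (incl (sb1 _ _) t) = L0 (e v) (incl (sb2 _ _) t) := by
    intro c v
    by_cases h : ∃ t : SC ∅ {c, e v} R, vec a t = v
    swap
    · exact ⟨1, fun _ t ht => (h ⟨t, ht⟩).elim⟩
    obtain ⟨t0, ht0⟩ := h
    refine ⟨L0 (e v) (incl (sb2 _ _) t0) * (L0 c (incl (sb1 _ _) t0))⁻¹, fun hc t ht => ?_⟩
    obtain ⟨b, rfl⟩ := vec_eq hL (h3 c (e v)) (by simp [hc.symm, (he v).symm])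
      (ht.trans ht0.symm)
    rw [lam_gen (hL0 c hc), lam_gen (hL0 _ (he v))]
    group
  choose γ hγ using this
  have E1 : ∀ c, c ≠ a → ∀ (p : SC ∅ {c} R) b,
      γ c (vec a (p * incl (Set.subset_insert a {c}) b)) *
        L0 c (p * incl (Set.subset_insert a {c}) b) =
      γ c (vec a p) * L0 c p * pr (Set.mem_insert a {c}) b := by
    intro c hc p b
    have : vec a (p * incl (Set.subset_insert a {c}) b) = vec a p := by
      rw [vec, act_mul, ← vec, vec_incl, vec_fix hL.two (Set.mem_insert a {c}), vec]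
    rw [this, hL0 c hc, mul_assoc]
  refine ⟨fun c p => γ c (vec a p) * L0 c p, E1, fun c d hc hd t => ?_⟩
  have ha : a ∉ ({c, d} : Set ι) := by simp [hc.symm, hd.symm]
  have hv : WW ε {c, d} (vec a t) :=
    (isSC_xc ∅ _).act_WW hL SC.mem_of_gens πc πc_xc t _ ⟨a, ha, by simp⟩
  generalize hvt : vec a t = v at hv
  obtain ⟨j0, h1, h2, h4, h6⟩ := h5 a c d (e v)
  obtain ⟨s, hs⟩ := IsSC.trans_WW (x := (xc : ι → ι → R → SC ∅ {c, d, e v} R)) hL (a := a)
    (by simp [hc.symm, hd.symm, (he v).symm]) (j0 := j0) (by simp [h2, h4, h6]) h1 πc πc_xc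
    (hW v c d hv)
  have s1 : ({c, d} : Set ι) ⊆ {c, d, e v} := by
    intro x; simp only [Set.mem_insert_iff, Set.mem_singleton_iff]; tauto
  have s2 : ({c, e v} : Set ι) ⊆ {c, d, e v} := by
    intro x; simp only [Set.mem_insert_iff, Set.mem_singleton_iff]; tauto
  have s3 : ({d, e v} : Set ι) ⊆ {c, d, e v} := Set.subset_insert _ _
  have hs' : vec a s = v := hs
  obtain ⟨b, rfl⟩ := vec_eq hL (h3 c d) ha (p := t) (q := incl s1 s)
    (by rw [hvt, vec_incl, hs'])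
  have g1 := lam_gen (Λ := fun p => γ c (vec a p) * L0 c p) (E1 c hc) (sb1 c d) (incl s1 s) b
  have g2 := lam_gen (Λ := fun p => γ d (vec a p) * L0 d p) (E1 d hd) (sb2 c d) (incl s1 s) b
  have k1 := hγ c v hc (incl s2 s) (by rw [vec_incl, hs'])
  have k2 := hγ d v hd (incl s3 s) (by rw [vec_incl, hs'])
  rw [incl_incl, incl_incl] at k1 k2
  refine g1.trans (Eq.trans ?_ g2.symm)
  rw [incl_incl, incl_incl, vec_incl, vec_incl, hs', k1, k2]

theorem exists_action {ε : R →+* ZMod 2} (hL : Loc ε)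
    (h5 : ∀ a b c d : ι, ∃ e, e ≠ a ∧ e ≠ b ∧ e ≠ c ∧ e ≠ d) (a : ι) :
    ∃ (Ω : Type) (Φ : St ι R →* Equiv.Perm Ω) (pt : SC {a} {a} R → Ω), Function.Injective pt ∧
      ∀ i j r g, j ≠ a → Φ (xs i j r) (pt g) = pt (xc i j r * g) := by
  classical
  obtain ⟨Λ, E1, E2⟩ := exists_global hL h5 a
  have h2 := hL.two
  have h3 : ∀ c i j : ι, ∃ m, m ∉ ({c} : Set ι) ∧ m ≠ i ∧ m ≠ j := fun c i j => by
    obtain ⟨m, h1, h2, h3, -⟩ := h5 c i j j
    exact ⟨m, h1, h2, h3⟩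
  have ind1 : ∀ i j r c d, c ≠ a → d ≠ a → c ≠ j → d ≠ j → ∀ (p : SC ∅ {c} R) (q : SC ∅ {d} R),
      vec a p = vec a q → WW ε {c, d} (vec a p) →
      Λ c (xc i j r * p) * (Λ c p)⁻¹ = Λ d (xc i j r * q) * (Λ d q)⁻¹ := by
    intro i j r c d hc hd hcj hdj p q hpq hv
    obtain ⟨j0, h1, h4, h6, -⟩ := h5 a c d d
    obtain ⟨t, ht⟩ := IsSC.trans_WW (x := (xc : ι → ι → R → SC ∅ {c, d} R)) hL (a := a)
      (by simp [hc.symm, hd.symm]) (j0 := j0) (by simp [h4, h6]) h1 πc πc_xc hv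
    have hj : j ∉ ({c, d} : Set ι) := by simp [hcj.symm, hdj.symm]
    obtain ⟨b, rfl⟩ := vec_eq hL (h3 c) (a := a) (by simp [hc.symm]) (p := p)
      (q := incl (sb1 c d) t) (by rw [vec_incl]; exact ht.symm)
    obtain ⟨b', rfl⟩ := vec_eq hL (h3 d) (a := a) (by simp [hd.symm]) (p := q)
      (q := incl (sb2 c d) t) (by rw [vec_incl, ← hpq]; exact ht.symm)
    have k := E2 c d hc hd (xc i j r * t)
    rw [map_mul, map_mul, incl_xc _ _ hj, incl_xc _ _ hj] at k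
    rw [← mul_assoc, ← mul_assoc, E1 c hc, E1 c hc, E1 d hd, E1 d hd, k, E2 c d hc hd t]
    group
  have hWp : ∀ c, c ≠ a → ∀ p : SC ∅ {c} R, WW ε {c} (vec a p) := fun c hc p =>
    (isSC_xc ∅ _).act_WW hL SC.mem_of_gens πc πc_xc p _ ⟨a, by simp [hc.symm], by simp⟩
  have tr : ∀ c, c ≠ a → ∀ v, WW ε {c} v → ∃ p : SC ∅ {c} R, vec a p = v := by
    intro c hc v hv
    obtain ⟨j0, h1, h4, -⟩ := h5 a c c c
    exact IsSC.trans_WW (x := (xc : ι → ι → R → SC ∅ {c} R)) hL (a := a)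
      (by simp [hc.symm]) (j0 := j0) (by simp [h4]) h1 πc πc_xc hv
  have ind2 : ∀ i j r c d, c ≠ a → d ≠ a → c ≠ j → d ≠ j → ∀ (p : SC ∅ {c} R) (q : SC ∅ {d} R),
      vec a p = vec a q →
      Λ c (xc i j r * p) * (Λ c p)⁻¹ = Λ d (xc i j r * q) * (Λ d q)⁻¹ := by
    intro i j r c d hc hd hcj hdj p q hpq
    by_cases hv : WW ε {c, d} (vec a p)
    · exact ind1 i j r c d hc hd hcj hdj p q hpq hv
    obtain ⟨e, e1, e2, e3, e4⟩ := h5 a j c d
    have w1 : WW ε {c, e} (vec a p) := by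
      obtain ⟨k, hk, h⟩ := hWp c hc p
      refine ⟨k, ?_, h⟩
      have : k ≠ e := fun h' => hv ⟨k, by simp [h', e3, e4], h⟩
      simpa [this] using hk
    have w2 : WW ε {d, e} (vec a q) := by
      obtain ⟨k, hk, h⟩ := hWp d hd q
      refine ⟨k, ?_, h⟩
      have : k ≠ e := fun h' => hv ⟨k, by simp [h', e3, e4], hpq ▸ h⟩
      simpa [this] using hk
    obtain ⟨s, hs⟩ := tr e e1 _ (w1.mono (by simp))
    rw [ind1 i j r c e hc e1 hcj e2 p s hs.symm w1,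
      ind1 i j r d e hd e1 hdj e2 q s (hpq.symm.trans hs.symm) w2]
  have ch : ∀ (v : {v : ι → R // WW ε ∅ v}) (j k : ι), ∃ c, c ≠ a ∧ c ≠ j ∧ c ≠ k ∧
      ∃ p : SC ∅ {c} R, vec a p = v.1 := by
    rintro ⟨v, i, -, hv⟩ j k
    obtain ⟨c, h1, h4, h6, h7⟩ := h5 a j k i
    exact ⟨c, h1, h4, h6, tr c h1 v ⟨i, by simp [h7.symm], hv⟩⟩
  choose c0 hc1 hc2 hc3 p0 hp0 using ch
  have hx : IsSC ∅ ∅ (xs : ι → ι → R → St ι R) := isSC_of_isSt isSt_xs
  let Ω := {v : ι → R // WW ε ∅ v} × SC {a} {a} R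
  let F : ι → ι → R → Ω → Ω := fun i j r ω =>
    (⟨act stπ (xs i j r) ω.1.1,
      hx.act_WW hL St.mem_of_gens stπ (fun i j r _ => stπ_xs i j r) _ _ ω.1.2⟩,
      Λ (c0 ω.1 j j) (xc i j r * p0 ω.1 j j) * (Λ (c0 ω.1 j j) (p0 ω.1 j j))⁻¹ * ω.2)
  let pt : ∀ c, c ≠ a → SC ∅ {c} R → SC {a} {a} R → Ω := fun c hc p g =>
    (⟨vec a p, (hWp c hc p).mono (Set.empty_subset _)⟩, Λ c p * g)
  have hF : ∀ c hc i j r, c ≠ j → ∀ p g, F i j r (pt c hc p g) = pt c hc (xc i j r * p) g := by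
    intro c hc i j r hcj p g
    refine Prod.ext (Subtype.ext ?_) ?_
    · simp only [F, pt, vec, act_mul]
      simp only [act, stπ_xs, πc_xc i j r (S := {c}) (by simp [hcj.symm])]
    · simp only [F]
      rw [ind2 i j r _ c (hc1 _ _ _) hc (hc2 _ _ _) hcj _ p (hp0 _ _ _)]
      simp only [pt]; group
  have hs : ∀ (ω : Ω) j k, ∃ c hc, c ≠ j ∧ c ≠ k ∧ ∃ p g, ω = pt c hc p g := by
    rintro ⟨v, g⟩ j k
    exact ⟨_, hc1 v j k, hc2 v j k, hc3 v j k, p0 v j k, (Λ _ (p0 v j k))⁻¹ * g,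
      Prod.ext (Subtype.ext (hp0 v j k).symm) (by simp [pt])⟩
  have hinv : ∀ i j r, Function.Involutive (F i j r) := by
    intro i j r ω
    obtain ⟨c, hc, h1, -, p, g, rfl⟩ := hs ω j j
    rw [hF _ hc _ _ _ h1, hF _ hc _ _ _ h1, ← mul_assoc, (isSC_xc ∅ _).sq h2, one_mul]
  have hSt : IsSt fun i j r => (hinv i j r).toPerm := by
    constructor
    · intro i r
      ext1 ω
      obtain ⟨c, hc, h1, -, p, g, rfl⟩ := hs ω i i
      simp [hF _ hc _ _ _ h1, (isSC_xc ∅ _).diag]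
    · intro i j r s
      ext1 ω
      obtain ⟨c, hc, h1, -, p, g, rfl⟩ := hs ω j j
      simp [hF _ hc _ _ _ h1, (isSC_xc ∅ _).add, mul_assoc]
    · intro i j k l r s e1 e2
      ext1 ω
      obtain ⟨c, hc, h1, h4, p, g, rfl⟩ := hs ω j l
      simp [hF _ hc _ _ _ h1, hF _ hc _ _ _ h4, ← mul_assoc, (isSC_xc ∅ _).comm i j k l r s e1 e2]
    · intro i j k r s e1 e2 e3
      ext1 ω
      obtain ⟨c, hc, h1, h4, p, g, rfl⟩ := hs ω j k
      simp [hF _ hc _ _ _ h1, hF _ hc _ _ _ h4, ← mul_assoc,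
        (isSC_xc ∅ {c}).mul i j k r s e1 e2 e3 (by simp [h1.symm])]
  obtain ⟨c, hc, -⟩ := h5 a a a a
  have ept : ∀ d hd g, pt d hd 1 g = pt c hc 1 g := by
    intro d hd g
    have := E2 d c hd hc 1
    rw [map_one, map_one] at this
    simp only [pt, this, vec, act_one]
  refine ⟨Ω, hSt.lift, pt c hc 1, fun g g' h => mul_left_cancel (congrArg Prod.snd h), ?_⟩
  intro i j r g hj
  obtain ⟨d, hd, hdj, -⟩ := h5 a j j j
  have hj' : j ∉ (insert a {d} : Set ι) := by simp [hj, hdj.symm]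
  rw [IsSt.lift_xs, ← ept d hd, ← ept d hd]
  simp only [Function.Involutive.coe_toPerm, hF _ hd _ _ _ hdj]
  have e1 := E1 d hd 1 (xc i j r)
  have e2 := vec_fix h2 (Set.mem_insert a {d}) (xc i j r : SC ∅ (insert a {d}) R)
  rw [← vec_incl a (Set.subset_insert a {d})] at e2
  rw [incl_xc _ _ hj'] at e1 e2
  rw [pr_xc _ _ hj', one_mul] at e1
  refine Prod.ext (Subtype.ext ?_) ?_
  · simp only [pt, mul_one, e2]; simp [vec]
  · simp only [pt, mul_one, e1, mul_assoc]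

end Vale.Agent.P192
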