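import Vale.Agent.P192.Parse

/-! Linear algebra of coefficient rings of bounded rank. -/

namespace Vale.Agent.P192

open Matrix

variable {α : Type} {𝓡 : Type} [Ring 𝓡]

/-- coefficients commuting with the letters and spanned over the centre by `D` elements -/
structure Cx (e : α → 𝓡) (B : Subring 𝓡) (D : ℕ) : Prop where
  two : ∀ x : 𝓡, x + x = 0
  comm : ∀ x ∈ B, ∀ a, x * e a = e a * x
  rank : ∃ (J : Type) (_ : Fintype J), Fintype.card J ≤ D ∧ ∃ b : J → 𝓡, (∀ j, b j ∈ B) ∧
    ∀ x ∈ B, ∃ z : J → 𝓡, (∀ j, z j ∈ Subring.center 𝓡) ∧ x = ∑ j, z j * b j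

theorem Cx.comm_ev {e : α → 𝓡} {B D} (h : Cx e B D) {x} (hx : x ∈ B) (w : List α) :
    x * ev e w = ev e w * x := by
  induction w with
  | nil => simp
  | cons a w ih => rw [ev_cons, ← mul_assoc, h.comm x hx, mul_assoc, ih, mul_assoc]

theorem Cx.matrix {e : α → 𝓡} {B D} (h : Cx e B D) (m : Type) [Fintype m] [DecidableEq m] :
    Cx (fun a => scalar m (e a)) (B.matrix) (Fintype.card m * (Fintype.card m * D)) where
  two x := by ext i j; exact h.two _
  comm x hx a := by
    ext i j
    simp only [scalar_apply, mul_diagonal, diagonal_mul]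
    exact h.comm _ (hx i j) a
  rank := by
    obtain ⟨J, _, hJ, b, hb, hz⟩ := h.rank
    refine ⟨m × m × J, inferInstance, by
      simp only [Fintype.card_prod]; gcongr, fun p => single p.1 p.2.1 (b p.2.2), ?_, ?_⟩
    · rintro ⟨i, k, j⟩ a c
      simp only [single_apply]
      split_ifs
      exacts [hb j, B.zero_mem]
    · intro x hx
      choose z hz1 hz2 using fun i k => hz (x i k) (hx i k)
      refine ⟨fun p => scalar m (z p.1 p.2.1 p.2.2), fun p => ?_, ?_⟩
      · rw [Subring.mem_center_iff]
        intro g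
        ext a c
        simp only [scalar_apply, mul_diagonal, diagonal_mul]
        exact Subring.mem_center_iff.1 (hz1 _ _ _) _
      · ext a c
        simp only [Matrix.sum_apply, scalar_apply, diagonal_mul, single_apply,
          Fintype.sum_prod_type, mul_ite, mul_zero, ite_and]
        rw [Finset.sum_eq_single a (by intro i _ hi; simp [hi]) (by simp),
          Finset.sum_eq_single c (by intro i _ hi; simp [hi]) (by simp)]
        simpa using hz2 a c

theorem ev_map {M M' : Type} [Ring M] [Ring M'] (φ : M →+* M') (e : α → M) (w : List α) :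
    ev (fun a => φ (e a)) w = φ (ev e w) := by
  induction w with
  | nil => simp
  | cons a w ih => simp [ih]

theorem Lev.Mod.map {I M M' : Type} [Ring M] [Ring M'] {L : Lev I} {e : Ctl × I → M}
    (hm : L.Mod e) (φ : M →+* M') : L.Mod fun a => φ (e a) := by
  intro κ a b a' b' hr
  obtain ⟨h1, h2⟩ := hm κ a b a' b' hr
  exact ⟨fun hz => by rw [← map_mul, h1 hz, map_zero], fun hz => by
    rw [← map_mul, h2 hz, map_mul]⟩

def GS (p q : 𝓡) : ℕ → 𝓡
  | 0 => 1
  | 1 => p
  | n + 2 => GS p q (n + 1) * p + GS p q n * q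

variable [Fintype α]

def lin (e P : α → 𝓡) : 𝓡 := ∑ a, P a * e a

def quad (e : α → 𝓡) (Q : α → α → 𝓡) : 𝓡 := ∑ a, ∑ b, Q a b * (e a * e b)

theorem linearize {e : α → 𝓡} {B D} (h : Cx e B D) {P : α → 𝓡} {Q : α → α → 𝓡}
    (hP : ∀ a, P a ∈ B) (hQ : ∀ a b, Q a b ∈ B) [DecidableEq α] :
    ∃ A : α → Matrix (Option α) (Option α) 𝓡, (∀ a, A a ∈ B.matrix) ∧
      ∀ n, (lin (fun a => scalar (Option α) (e a)) A ^ n) none none =
        GS (lin e P) (quad e Q) n := by
  let A : α → Matrix (Option α) (Option α) 𝓡 := fun c i j => match i, j with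
    | none, none => P c
    | none, some a => if a = c then 1 else 0
    | some a, none => Q a c
    | some _, some _ => 0
  refine ⟨A, ?_, ?_⟩
  · rintro c (_ | i) (_ | j)
    · exact hP c
    · show (if j = c then (1 : 𝓡) else 0) ∈ B
      split_ifs
      exacts [B.one_mem, B.zero_mem]
    · exact hQ _ _
    · exact B.zero_mem
  set X := lin (fun a => scalar (Option α) (e a)) A
  have hX : ∀ i j, X i j = ∑ c, A c i j * e c := by
    intro i j; simp [X, lin, Matrix.sum_apply]
  have h00 : X none none = lin e P := hX _ _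
  have h01 : ∀ a, X none (some a) = e a := by intro a; simp [hX, A]
  have h10 : ∀ a, X (some a) none = ∑ c, Q a c * e c := fun a => hX _ _
  have h11 : ∀ a b, X (some a) (some b) = 0 := by intro a b; simp [hX, A]
  have : ∀ n, (X ^ n) none none = GS (lin e P) (quad e Q) n ∧
      (X ^ (n + 1)) none none = GS (lin e P) (quad e Q) (n + 1) := by
    intro n
    induction n with
    | zero => exact ⟨by simp [GS], by simp [GS, h00]⟩
    | succ n ih =>
      refine ⟨ih.2, ?_⟩
      have e1 : ∀ a, (X ^ (n + 1)) none (some a) = GS (lin e P) (quad e Q) n * e a := by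
        intro a
        rw [pow_succ, Matrix.mul_apply, Fintype.sum_option, ih.1, h01]
        simp [h11]
      rw [pow_succ, Matrix.mul_apply, Fintype.sum_option, ih.2, h00, GS]
      congr 1
      simp only [e1, h10, quad, Finset.mul_sum]
      refine Finset.sum_congr rfl fun a _ => Finset.sum_congr rfl fun b _ => ?_
      rw [mul_assoc, ← mul_assoc (e a), ← h.comm _ (hQ a b), mul_assoc]
  exact fun n => (this n).1

/-- weighted sum over all words of a given length -/
def ex (P : α → 𝓡) : ℕ → (List α → 𝓡) → 𝓡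
  | 0, Φ => Φ []
  | n + 1, Φ => ∑ a, P a * ex P n fun w => Φ (a :: w)

section
variable {P : α → 𝓡}

theorem ex_congr {n} {Φ Ψ : List α → 𝓡} (h : ∀ w, w.length = n → Φ w = Ψ w) :
    ex P n Φ = ex P n Ψ := by
  induction n generalizing Φ Ψ with
  | zero => exact h [] rfl
  | succ n ih =>
    simp only [ex]
    exact Finset.sum_congr rfl fun a _ => by rw [ih fun w hw => h (a :: w) (by simp [hw])]

theorem ex_add (n) (Φ Ψ : List α → 𝓡) : ex P n (fun w => Φ w + Ψ w) = ex P n Φ + ex P n Ψ := by
  induction n generalizing Φ Ψ with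
  | zero => rfl
  | succ n ih => simp only [ex, ih, mul_add, Finset.sum_add_distrib]

theorem ex_zero (n) : ex P n (fun _ => 0) = 0 := by
  induction n with
  | zero => rfl
  | succ n ih => simp [ex, ih]

theorem ex_sum {β : Type} (s : Finset β) (n) (Φ : β → List α → 𝓡) :
    ex P n (fun w => ∑ b ∈ s, Φ b w) = ∑ b ∈ s, ex P n (Φ b) := by
  classical
  induction s using Finset.induction_on with
  | empty => simp [ex_zero]
  | insert b s hb ih => simp only [Finset.sum_insert hb, ex_add, ih]

theorem ex_mul (n) (Φ : List α → 𝓡) (δ : 𝓡) : ex P n (fun w => Φ w * δ) = ex P n Φ * δ := by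
  induction n generalizing Φ with
  | zero => rfl
  | succ n ih => simp only [ex, ih, Finset.sum_mul, mul_assoc]

theorem mul_ex {γ : 𝓡} (hγ : ∀ a, P a * γ = γ * P a) (n) (Φ : List α → 𝓡) :
    ex P n (fun w => γ * Φ w) = γ * ex P n Φ := by
  induction n generalizing Φ with
  | zero => rfl
  | succ n ih => simp only [ex, ih, Finset.mul_sum, ← mul_assoc, hγ]

theorem ex_split (m n) (Φ : List α → 𝓡) :
    ex P (m + n) Φ = ex P m fun u => ex P n fun w => Φ (u ++ w) := by
  induction m generalizing Φ with
  | zero => simp [ex]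
  | succ m ih => rw [Nat.add_right_comm]; simp only [ex, ih, List.cons_append]

theorem ex_mem {B : Subring 𝓡} (hP : ∀ a, P a ∈ B) (n) {Φ : List α → 𝓡} (h : ∀ w, Φ w ∈ B) :
    ex P n Φ ∈ B := by
  induction n generalizing Φ with
  | zero => exact h _
  | succ n ih => exact B.sum_mem fun a _ => B.mul_mem (hP a) (ih fun w => h _)

theorem ex_ev {e : α → 𝓡} (h : ∀ a b, P a * e b = e b * P a) (n) :
    ex P n (ev e) = lin e P ^ n := by
  induction n with
  | zero => simp [ex]
  | succ n ih =>
    simp only [ex, ev_cons]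
    rw [pow_succ', lin, Finset.sum_mul]
    refine Finset.sum_congr rfl fun a _ => ?_
    rw [mul_ex (fun b => h b a), ih, mul_assoc, lin]

theorem tree_zero {e : α → 𝓡} {B D} (h : Cx e B D) (hP : ∀ a, P a ∈ B) (m0 k : ℕ) :
    ∀ p : List α, (∀ w, w.length = k → ∃ q s, p ++ w = q ++ s ∧ p.length ≤ q.length ∧
      ∀ m, m0 ≤ m → ev e q * lin e P ^ m = 0) → ev e p * lin e P ^ (m0 + k) = 0 := by
  induction k with
  | zero =>
    intro p hp
    obtain ⟨q, s, e1, h1, h2⟩ := hp [] rfl
    have := congrArg List.length e1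
    simp only [List.length_append, List.length_nil] at this
    obtain rfl : s = [] := List.length_eq_zero_iff.1 (by omega)
    simp only [List.append_nil] at e1
    exact e1 ▸ h2 _ le_rfl
  | succ k ih =>
    intro p hp
    by_cases hg : ∀ m, m0 ≤ m → ev e p * lin e P ^ m = 0
    · exact hg _ (by omega)
    rw [← add_assoc, pow_succ', ← mul_assoc]
    conv_lhs => enter [1, 2]; rw [lin]
    rw [Finset.mul_sum, Finset.sum_mul]
    refine Finset.sum_eq_zero fun a _ => ?_
    have := ih (p ++ [a]) fun w hw => by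
      obtain ⟨q, s, e1, h1, h2⟩ := hp (a :: w) (by simp [hw])
      refine ⟨q, s, by simpa using e1, ?_, h2⟩
      by_contra hlt
      have : p = q := List.append_inj_left e1 (by simp at hlt; omega)
      exact hg (this ▸ h2)
    rw [ev_append, ev_cons, ev_nil, mul_one] at this
    rw [← mul_assoc, ← h.comm_ev (hP a), mul_assoc, mul_assoc, ← mul_assoc (ev e p), this, mul_zero]

end

omit [Fintype α] in
theorem ev_dup {y : α → 𝓡} (hc : ∀ a b, y a * y b = y b * y a) (h2 : ∀ a, y a * y a = 0)
    {l : List α} (hl : ¬ l.Nodup) : ev y l = 0 := by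
  classical
  have hp : ∀ {l l' : List α}, l.Perm l' → ev y l = ev y l' := by
    intro l l' h
    induction h with
    | nil => rfl
    | cons c _ ih => rw [ev_cons, ev_cons, ih]
    | swap c c' l => rw [ev_cons, ev_cons, ev_cons, ev_cons, ← mul_assoc, hc, mul_assoc]
    | trans _ _ h1 h2 => rw [h1, h2]
  induction l with
  | nil => simp at hl
  | cons c l ih =>
    by_cases h1 : l.Nodup
    · have : c ∈ l := by
        by_contra h2
        exact hl (List.nodup_cons.2 ⟨h2, h1⟩)
      rw [ev_cons, hp (List.perm_cons_erase this), ev_cons, ← mul_assoc, h2, zero_mul]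
    · rw [ev_cons, ih h1, mul_zero]

theorem gs_zero {U : Type} [Fintype U] (X1 : U → 𝓡) (X2 : U × U → 𝓡) (n : ℕ) :
    ∀ δ : 𝓡, (∀ us : List (U ⊕ U × U),
      (us.flatMap (Sum.elim (fun a => [a]) fun p => [p.1, p.2])).length = n →
        ev (Sum.elim X1 X2) us * δ = 0) → GS (∑ a, X1 a) (∑ p, X2 p) n * δ = 0 := by
  induction n using Nat.twoStepInduction with
  | zero => intro δ h; simpa [GS] using h [] rfl
  | one =>
    intro δ h
    rw [GS, Finset.sum_mul]
    exact Finset.sum_eq_zero fun a _ => by simpa using h [.inl a] rfl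
  | more n ih1 ih2 =>
    intro δ h
    rw [GS, add_mul, mul_assoc, mul_assoc, Finset.sum_mul, Finset.sum_mul, Finset.mul_sum,
      Finset.mul_sum, Finset.sum_eq_zero, Finset.sum_eq_zero, add_zero]
    · intro p _
      exact ih1 _ fun us hu => by
        have := h (us ++ [.inr p]) (by rw [List.flatMap_append, List.length_append, hu]; simp)
        rwa [ev_append, ev_cons, ev_nil, mul_one, mul_assoc] at this
    · intro a _
      exact ih2 _ fun us hu => by
        have := h (us ++ [.inl a]) (by rw [List.flatMap_append, List.length_append, hu]; simp)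
        rwa [ev_append, ev_cons, ev_nil, mul_one, mul_assoc] at this

theorem units_run {U : Type} (τ : U) (k : ℕ) : ∀ (us : List (U ⊕ U × U)) (ρ : ℕ) (s : List U),
    us.flatMap (Sum.elim (fun a => [a]) fun p => [p.1, p.2]) = List.replicate ρ τ ++ s →
    2 * k ≤ ρ → ∃ u1 u2, us = u1 ++ u2 ∧ k ≤ u1.length ∧
      ∀ u ∈ u1, u = .inl τ ∨ u = .inr (τ, τ) := by
  induction k with
  | zero => intro us _ _ _ _; exact ⟨[], us, rfl, le_rfl, by simp⟩
  | succ k ih =>
    intro us ρ s h hρ
    obtain ⟨ρ, rfl⟩ : ∃ r, ρ = r + 2 := ⟨ρ - 2, by omega⟩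
    rcases us with _ | ⟨a | ⟨a, b⟩, us⟩
    · simp [List.replicate_succ] at h
    · simp only [List.flatMap_cons, Sum.elim_inl, List.replicate_succ (n := ρ + 1),
        List.cons_append, List.nil_append, List.cons.injEq] at h
      obtain ⟨u1, u2, rfl, h1, h2⟩ := ih us _ s h.2 (by omega)
      exact ⟨.inl a :: u1, u2, rfl, by simp [h1], by simpa [h.1] using h2⟩
    · simp only [List.flatMap_cons, Sum.elim_inr, List.replicate_succ,
        List.cons_append, List.nil_append, List.cons.injEq] at h
      obtain ⟨u1, u2, rfl, h1, h2⟩ := ih us _ s h.2.2 (by omega)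
      exact ⟨.inr (a, b) :: u1, u2, rfl, by simp [h1], by simpa [h.1, h.2.1] using h2⟩

theorem units_skip {U : Type} (τ : U) (ρ : ℕ) (s : List U) :
    ∀ (us : List (U ⊕ U × U)) (p : List U),
    us.flatMap (Sum.elim (fun a => [a]) fun p => [p.1, p.2]) =
      p ++ (List.replicate (ρ + 1) τ ++ s) →
    ∃ u1 u2 ρ', us = u1 ++ u2 ∧ ρ ≤ ρ' ∧
      u2.flatMap (Sum.elim (fun a => [a]) fun p => [p.1, p.2]) = List.replicate ρ' τ ++ s := by
  intro us
  induction us with
  | nil => intro p h; simp [List.replicate_succ] at h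
  | cons u us ih =>
    intro p h
    rcases p with _ | ⟨t, p⟩
    · exact ⟨[], _, ρ + 1, rfl, by omega, h⟩
    rcases u with a | ⟨a, b⟩
    · simp only [List.flatMap_cons, Sum.elim_inl, List.cons_append, List.nil_append,
        List.cons.injEq] at h
      obtain ⟨u1, u2, ρ', rfl, h1, h2⟩ := ih p h.2
      exact ⟨_ :: u1, u2, ρ', rfl, h1, h2⟩
    · simp only [List.flatMap_cons, Sum.elim_inr, List.cons_append, List.nil_append,
        List.cons.injEq] at h
      rcases p with _ | ⟨t', p⟩
      · simp only [List.nil_append, List.replicate_succ, List.cons_append, List.cons.injEq] at h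
        exact ⟨[_], us, ρ, rfl, le_rfl, h.2.2⟩
      · simp only [List.cons_append, List.cons.injEq] at h
        obtain ⟨u1, u2, ρ', rfl, h1, h2⟩ := ih p h.2.2
        exact ⟨_ :: u1, u2, ρ', rfl, h1, h2⟩

end Vale.Agent.P192
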