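import Vale.Agent.P192.Nil1

/-! Every linear pencil in a model of the rules is nilpotent. -/

namespace Vale.Agent.P192

open Matrix

variable {I : Type} [Fintype I] {𝓡 : Type} [Ring 𝓡]

def ty : Ctl × I → Option Bool
  | (.cell ar _, _) => some ar
  | (.head _ _, _) => none

omit [Fintype I] in
theorem ty_some {a : Ctl × I} {ar} (h : ty a = some ar) : ∃ c, a = cl ar c := by
  obtain ⟨⟨ar', k⟩ | _, x⟩ := a
  · obtain rfl : ar' = ar := Option.some.inj h
    exact ⟨(k, x), rfl⟩
  · simp [ty] at h

omit [Fintype I] in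
theorem map_ty_cl (ar) (l : List (Cell I)) :
    (l.map (cl ar)).map ty = List.replicate l.length (some ar) := by
  induction l with
  | nil => rfl
  | cons c l ih => rw [List.map_cons, List.map_cons, ih]; rfl

namespace Lev

variable (L : Lev I)

def Claim (D : ℕ) : Prop :=
  ∀ (𝓡 : Type) [Ring 𝓡] (e : Ctl × I → 𝓡) (B : Subring 𝓡), L.Mod e → Cx e B D →
    ∀ (P : Ctl × I → 𝓡) (Q : Ctl × I → Ctl × I → 𝓡), (∀ a, P a ∈ B) → (∀ a b, Q a b ∈ B) →
      ∃ n0, ∀ n, n0 ≤ n → GS (lin e P) (quad e Q) n = 0

def Pure (D : ℕ) : Prop :=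
  ∀ (𝓡 : Type) [Ring 𝓡] (e : Ctl × I → 𝓡) (B : Subring 𝓡), L.Mod e → Cx e B D →
    ∀ (P : Ctl × I → 𝓡), (∀ a, P a ∈ B) → ∃ n, lin e P ^ n = 0

variable {L}

theorem claim_of_pure {D}
    (h : L.Pure ((Fintype.card (Ctl × I) + 1) * ((Fintype.card (Ctl × I) + 1) * D))) :
    L.Claim D := by
  classical
  intro 𝓡 _ e B hm hx P Q hP hQ
  obtain ⟨A, hA, hG⟩ := linearize hx hP hQ
  have hx' := hx.matrix (Option (Ctl × I))
  rw [Fintype.card_option] at hx'
  obtain ⟨n0, hn⟩ := h _ _ _ (hm.map (scalar (Option (Ctl × I)))) hx' A hA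
  refine ⟨n0, fun n hn' => ?_⟩
  rw [← hG, pow_eq_zero_of_le hn' hn]
  rfl

theorem window {D} (hD : 8 * D ≤ Fintype.card I) : L.Claim D := by
  classical
  intro 𝓡 _ e B hm hx P Q hP hQ
  let X1 : Option Bool → 𝓡 := fun τ => ∑ a, if ty a = τ then P a * e a else 0
  let X2 : Option Bool × Option Bool → 𝓡 := fun τ =>
    ∑ a, ∑ b, if (ty a, ty b) = τ then Q a b * (e a * e b) else 0
  have h1 : lin e P = ∑ τ, X1 τ := by
    simp only [X1, lin]; rw [Finset.sum_comm]; simp
  have h2 : quad e Q = ∑ τ, X2 τ := by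
    simp only [X2, quad]
    symm
    rw [Finset.sum_comm]
    refine Finset.sum_congr rfl fun a _ => ?_
    rw [Finset.sum_comm]; simp
  let ut : Option Bool ⊕ Option Bool × Option Bool → List (Option Bool) :=
    Sum.elim (fun a => [a]) fun p => [p.1, p.2]
  have expand : ∀ (us : List _) (p : List (Ctl × I)),
      (∀ w : List (Ctl × I), w.map ty = us.flatMap ut → ev e (p ++ w) = 0) →
      ev e p * ev (Sum.elim X1 X2) us = 0 := by
    intro us
    induction us with
    | nil => intro p h; simpa using h [] rfl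
    | cons u us ih =>
      intro p h
      rw [ev_cons, ← mul_assoc]
      rcases u with τ | τ
      · simp only [Sum.elim_inl, X1, Finset.mul_sum, Finset.sum_mul]
        refine Finset.sum_eq_zero fun a _ => ?_
        split_ifs with ha
        · have := ih (p ++ [a]) fun w hw => by
            have := h (a :: w) (by simp [ut, ha, hw])
            rwa [List.append_assoc]
          rw [ev_append, ev_cons, ev_nil, mul_one] at this
          rw [← mul_assoc, ← hx.comm_ev (hP a), mul_assoc (P a), mul_assoc (P a), this, mul_zero]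
        · simp
      · simp only [Sum.elim_inr, X2, Finset.mul_sum, Finset.sum_mul]
        refine Finset.sum_eq_zero fun a _ => Finset.sum_eq_zero fun b _ => ?_
        split_ifs with ha
        · have := ih (p ++ [a, b]) fun w hw => by
            have := h (a :: b :: w) (by simp [ut, ← ha, hw])
            rwa [List.append_assoc]
          rw [ev_append, ev_cons, ev_cons, ev_nil, mul_one] at this
          rw [← mul_assoc, ← hx.comm_ev (hQ a b), mul_assoc (Q a b), mul_assoc (Q a b), this,
            mul_zero]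
        · simp
  have pure : ∀ (ar : Bool) (us : List _), 2 * D + 1 ≤ us.length →
      (∀ u ∈ us, u = .inl (some ar) ∨ u = .inr (some ar, some ar)) →
      ev (Sum.elim X1 X2) us = 0 := by
    intro ar
    obtain ⟨J, _, hJ, b, hb, hz⟩ := hx.rank
    choose z1 hz1 hP1 using fun a => hz _ (hP a)
    choose z2 hz2 hQ2 using fun a c => hz _ (hQ a c)
    let T : Set 𝓡 := {t | ∃ z ∈ Subring.center 𝓡, ∃ l, l ≠ [] ∧ t = z * cs e ar l}
    have hTc : ∀ t ∈ T, ∀ t' ∈ T, t * t' = t' * t := by
      rintro _ ⟨z, hz, l, -, rfl⟩ _ ⟨z', hz', l', -, rfl⟩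
      have c1 := Subring.mem_center_iff.1 hz
      have c2 := Subring.mem_center_iff.1 hz'
      have c3 : cs e ar l * cs e ar l' = cs e ar l' * cs e ar l := by
        rw [← cs_append, ← cs_append, hm.cs_perm ar List.perm_append_comm]
      rw [mul_assoc, ← mul_assoc (cs e ar l), c2, mul_assoc, c3, mul_assoc z',
        ← mul_assoc (cs e ar l'), c1, mul_assoc, ← mul_assoc, ← mul_assoc z', c1]
    have hT2 : ∀ t ∈ T, t * t = 0 := by
      rintro _ ⟨z, hz, l, hl, rfl⟩
      have c3 : cs e ar l * cs e ar l = 0 := by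
        rw [← cs_append]
        refine hm.cs_dup ar ?_
        obtain ⟨c, l, rfl⟩ := List.exists_cons_of_ne_nil hl
        simp [List.nodup_append]
      rw [mul_assoc, ← mul_assoc (cs e ar l), Subring.mem_center_iff.1 hz, mul_assoc, c3]
      simp
    have hTB : ∀ t ∈ T, ∀ x ∈ B, x * t = t * x := by
      rintro _ ⟨z, hz, l, hl, rfl⟩ x hxB
      rw [← mul_assoc, Subring.mem_center_iff.1 hz, mul_assoc, mul_assoc, cs, hx.comm_ev hxB]
    let S := AddSubmonoid.closure T
    have hSc : ∀ s ∈ S, ∀ s' ∈ S, s * s' = s' * s := by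
      intro s hs s' hs'
      induction hs, hs' using AddSubmonoid.closure_induction₂ with
      | mem x y hx hy => exact hTc x hx y hy
      | zero_left => simp
      | zero_right => simp
      | add_left x y z _ _ _ h1 h2 => rw [add_mul, mul_add, h1, h2]
      | add_right y z x _ _ _ h1 h2 => rw [add_mul, mul_add, h1, h2]
    have hS2 : ∀ s ∈ S, s * s = 0 := by
      intro s hs
      induction hs using AddSubmonoid.closure_induction with
      | mem x hx => exact hT2 x hx
      | zero => simp
      | add x y hx' hy h1 h2 =>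
        rw [add_mul, mul_add, mul_add, h1, h2, hSc y hy x hx', zero_add, add_zero, hx.two]
    have hSB : ∀ s ∈ S, ∀ x ∈ B, x * s = s * x := by
      intro s hs x hxB
      induction hs using AddSubmonoid.closure_induction with
      | mem y hy => exact hTB y hy x hxB
      | zero => simp
      | add y z _ _ h1 h2 => rw [add_mul, mul_add, h1, h2]
    let y : J ⊕ J → 𝓡 := Sum.elim (fun j => ∑ a, if ty a = some ar then z1 a j * e a else 0)
      fun j => ∑ a, ∑ c, if (ty a, ty c) = (some ar, some ar) then z2 a c j * (e a * e c) else 0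
    have hy : ∀ j, y j ∈ S := by
      rintro (j | j)
      · refine S.sum_mem fun a _ => ?_
        split_ifs with ha
        · obtain ⟨c, rfl⟩ := ty_some ha
          exact AddSubmonoid.subset_closure ⟨_, hz1 (cl ar c) j, [c], by simp, by simp [cs_cons]⟩
        · exact S.zero_mem
      · refine S.sum_mem fun a _ => S.sum_mem fun c _ => ?_
        split_ifs with ha
        · obtain ⟨c1, rfl⟩ := ty_some (congrArg Prod.fst ha)
          obtain ⟨c2, rfl⟩ := ty_some (congrArg Prod.snd ha)
          exact AddSubmonoid.subset_closure ⟨_, hz2 (cl ar c1) (cl ar c2) j, [c1, c2], by simp,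
            by simp [cs_cons]⟩
        · exact S.zero_mem
    have e1 : X1 (some ar) = ∑ j, b j * y (.inl j) := by
      simp only [X1, y, Sum.elim_inl, Finset.mul_sum]
      rw [Finset.sum_comm]
      refine Finset.sum_congr rfl fun a _ => ?_
      split_ifs
      · rw [hP1 a, Finset.sum_mul]
        exact Finset.sum_congr rfl fun j _ => by
          rw [← mul_assoc, Subring.mem_center_iff.1 (hz1 a j)]
      · simp
    have e2 : X2 (some ar, some ar) = ∑ j, b j * y (.inr j) := by
      simp only [X2, y, Sum.elim_inr, Finset.mul_sum]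
      rw [Finset.sum_comm (s := Finset.univ (α := J))]
      refine Finset.sum_congr rfl fun a _ => ?_
      rw [Finset.sum_comm (s := Finset.univ (α := J))]
      refine Finset.sum_congr rfl fun c _ => ?_
      split_ifs
      · rw [hQ2 a c, Finset.sum_mul]
        exact Finset.sum_congr rfl fun j _ => by
          rw [← mul_assoc (b j), Subring.mem_center_iff.1 (hz2 a c j)]
      · simp
    have hyB : ∀ (l : List (J ⊕ J)) j, ev y l * b j = b j * ev y l := by
      intro l j
      induction l with
      | nil => simp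
      | cons c l ih => rw [ev_cons, mul_assoc, ih, ← mul_assoc, ← hSB _ (hy c) _ (hb j), mul_assoc]
    have main : ∀ (us : List _), (∀ u ∈ us, u = .inl (some ar) ∨ u = .inr (some ar, some ar)) →
        ∀ l : List (J ⊕ J), 2 * D + 1 ≤ l.length + us.length →
        ev y l * ev (Sum.elim X1 X2) us = 0 := by
      intro us
      induction us with
      | nil =>
        intro _ l hl
        rw [ev_dup (fun a c => hSc _ (hy a) _ (hy c)) (fun a => hS2 _ (hy a)), zero_mul]
        intro hn
        have := hn.length_le_card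
        simp at this hl
        omega
      | cons u us ih =>
        intro hu l hl
        have key : ∀ j j', ev y l * (b j * y j') * ev (Sum.elim X1 X2) us = 0 := by
          intro j j'
          have := ih (fun u h => hu u (List.mem_cons_of_mem _ h)) (l ++ [j']) (by
            simp at hl ⊢; omega)
          rw [ev_append, ev_cons, ev_nil, mul_one] at this
          rw [← mul_assoc, hyB, mul_assoc (b j), mul_assoc (b j), this, mul_zero]
        rw [ev_cons, ← mul_assoc]
        rcases hu u List.mem_cons_self with rfl | rfl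
        · rw [Sum.elim_inl, e1, Finset.mul_sum, Finset.sum_mul]
          exact Finset.sum_eq_zero fun j _ => key j _
        · rw [Sum.elim_inr, e2, Finset.mul_sum, Finset.sum_mul]
          exact Finset.sum_eq_zero fun j _ => key j _
    intro us h1 h2
    simpa using main us h2 [] (by simpa using h1)
  refine ⟨11 * (Fintype.card I + 10), fun n hn => ?_⟩
  rw [h1, h2, ← mul_one (GS _ _ _)]
  refine gs_zero X1 X2 n 1 fun us hu => ?_
  rw [mul_one]
  by_cases hw : ∀ w : List (Ctl × I), w.map ty = us.flatMap ut → ev e ([] ++ w) = 0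
  · simpa using expand us [] hw
  push Not at hw
  obtain ⟨w, hw1, hw2⟩ := hw
  have hl : w.length = n := by rw [← hu, ← List.length_map (f := ty), hw1]
  obtain ⟨-, B0, p, s, hB, rfl⟩ := (hm.key0 (w := w) (by omega)).resolve_left hw2
  have run : ∀ (ar : Bool) (m : ℕ) p s, 4 * D + 3 ≤ m →
      us.flatMap ut = p ++ (List.replicate m (some ar) ++ s) → ev (Sum.elim X1 X2) us = 0 := by
    intro ar m p s hm' h
    obtain ⟨m, rfl⟩ : ∃ r, m = r + 1 := ⟨m - 1, by omega⟩
    obtain ⟨u1, u2, ρ, rfl, h1, h2⟩ := units_skip _ _ _ _ _ h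
    obtain ⟨u3, u4, rfl, h3, h4⟩ := units_run _ (2 * D + 1) _ _ _ h2 (by omega)
    rw [ev_append, ev_append, pure ar u3 h3 h4]; simp
  rw [flat_length, List.length_append] at hB
  simp only [Blk.flat, List.map_append, List.map_cons, map_ty_cl] at hw1
  by_cases hA : 4 * D + 3 ≤ B0.A.length
  · exact run true _ _ _ hA (by rw [← hw1]; simp only [List.append_assoc]; rfl)
  · refine run false B0.C.length (p.map ty ++ (List.replicate B0.A.length (some true) ++
      [ty (.head B0.st B0.sr, B0.h)])) (s.map ty) (by omega) ?_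
    rw [← hw1]; simp only [List.append_assoc, List.cons_append, List.nil_append]

theorem pure_of_up {D} (h : L.up.Claim D) : L.Pure D := by
  classical
  intro 𝓡 _ e B hm hx P hP
  set c := Fintype.card I + 10 with hc
  set X := lin e P with hX
  have hEB : ∀ x ∈ B, ∀ a, x * L.EE e a = L.EE e a * x := by
    intro x hxB a
    have := hx.comm_ev hxB ((.head .rdy none, L.x0) ::
      (canon (mkf (L.set L.x0 a.1) a.2)).map (cl false))
    rwa [ev_cons] at this
  have hx' : Cx (L.EE e) B D := ⟨hx.two, hEB, hx.rank⟩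
  let r1 : List (Ctl × I) → Prop := fun ρ => ∃ a, L.R1 e ρ a
  let r2 : List (Ctl × I) → Prop := fun ρ => ¬ r1 (ρ.take c) ∧ ∃ ab : _ × _, L.R2 e ρ ab.1 ab.2
  let P' : Ctl × (Fin 8 → I) → 𝓡 := fun a => ex P c fun ρ =>
    if h : r1 ρ then (if h.choose = a then 1 else 0) else 0
  let Q' : Ctl × (Fin 8 → I) → Ctl × (Fin 8 → I) → 𝓡 := fun a b => ex P (2 * c) fun ρ =>
    if h : r2 ρ then (if h.2.choose = (a, b) then 1 else 0) else 0
  have hP' : ∀ a, P' a ∈ B := fun a => ex_mem hP _ fun w => by
    split_ifs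
    exacts [B.one_mem, B.zero_mem, B.zero_mem]
  have hQ' : ∀ a b, Q' a b ∈ B := fun a b => ex_mem hP _ fun w => by
    split_ifs
    exacts [B.one_mem, B.zero_mem, B.zero_mem]
  obtain ⟨n0, hn0⟩ := h 𝓡 _ B hm.sim hx' P' Q' hP' hQ'
  set p := lin (L.EE e) P' with hp
  set q := quad (L.EE e) Q' with hq
  have ep : p = ex P c fun ρ => if h : r1 ρ then L.EE e h.choose else 0 := by
    simp only [hp, lin, P', ← ex_mul, ← ex_sum]
    refine ex_congr fun ρ _ => ?_
    split_ifs <;> simp
  have eq' : q = ex P (2 * c) fun ρ =>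
      if h : r2 ρ then L.EE e h.2.choose.1 * L.EE e h.2.choose.2 else 0 := by
    simp only [hq, quad, Q', ← ex_mul, ← ex_sum]
    refine ex_congr fun ρ _ => ?_
    split_ifs with h
    · rw [← Finset.sum_product', Finset.sum_eq_single h.2.choose (by
        intro x _ hx; simp [Ne.symm hx]) (by simp)]
      simp
    · simp
  have hXe : ∀ n, ex P n (ev e) = X ^ n := ex_ev fun a b => hx.comm _ (hP a) b
  have hlc : ∀ a, LC e (L.EE e a) := fun a => lc_VV e _ _ _
  have aux : ∀ a (m k : ℕ) (r : List (Ctl × I) → Prop) [∀ ρ, Decidable (r ρ)]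
      (F : ∀ ρ, r ρ → 𝓡),
      (∀ ρ h, L.EE e a * ev e ρ = L.EE e a * F ρ h) →
      L.EE e a * ((ex P m fun ρ => if h : r ρ then F ρ h else 0) * X ^ k) =
        ex P (m + k) fun w => if r (w.take m) then L.EE e a * ev e w else 0 := by
    intro a m k r _ F hF
    rw [ex_split, ← ex_mul, ← mul_ex fun b => hEB _ (hP b) a]
    refine ex_congr fun u hu => ?_
    simp only [List.take_left' hu]
    split_ifs with h
    · rw [← mul_assoc, ← hF u h, ← hXe, mul_assoc, ← mul_ex fun b => hx.comm_ev (hP b) u,
        ← mul_ex fun b => hEB _ (hP b) a]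
      simp only [ev_append]
    · simp [ex_zero]
  let CC : 𝓡 → Prop := fun γ => ∀ s, 2 * c ≤ s →
    γ * X ^ (s + 2 * c) = γ * (p * X ^ (s + c) + q * X ^ s)
  have cE : ∀ γ a, CC (γ * L.EE e a) := by
    intro γ a s hs
    rw [mul_assoc, mul_assoc]
    congr 1
    rw [mul_add (L.EE e a), ep, eq', aux a c (s + c) r1 _ fun ρ h => h.choose_spec _ (hlc a),
      aux a (2 * c) s r2 _ fun ρ h => h.2.choose_spec _ (hlc a), ← hXe,
      ← mul_ex fun b => hEB _ (hP b) a, show c + (s + c) = s + 2 * c by ring, add_comm (2 * c) s,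
      ← ex_add]
    refine ex_congr fun w hw => ?_
    have ht : (w.take (2 * c)).take c = w.take c := by rw [List.take_take]; congr 1; omega
    by_cases h1 : r1 (w.take c)
    · rw [if_pos h1, if_neg fun h => h.1 (ht ▸ h1), add_zero]
    rw [if_neg h1, zero_add]
    rcases hm.key2 1 a (w := w) (by omega) with h | h | ⟨a', b', h⟩
    · rw [one_mul] at h; rw [h]; simp
    · exact (h1 h).elim
    · rw [if_pos ⟨ht ▸ h1, (a', b'), h⟩]
  have cadd : ∀ γ γ', CC γ → CC γ' → CC (γ + γ') := fun γ γ' h h' s hs => by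
    rw [add_mul, add_mul, h s hs, h' s hs]
  have csum : ∀ {β : Type} (t : Finset β) (F : β → 𝓡), (∀ b, CC (F b)) → CC (∑ b ∈ t, F b) := by
    intro β t F hF
    induction t using Finset.induction_on with
    | empty => intro s _; simp
    | insert b t hb ih => rw [Finset.sum_insert hb]; exact cadd _ _ (hF b) ih
  have cp : ∀ γ, CC (γ * p) := fun γ => by
    rw [hp, lin, Finset.mul_sum]
    exact csum _ _ fun a => by rw [← mul_assoc]; exact cE _ _
  have cq : ∀ γ, CC (γ * q) := fun γ => by
    rw [hq, quad, Finset.mul_sum]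
    refine csum _ _ fun a => ?_
    rw [Finset.mul_sum]
    exact csum _ _ fun b => by rw [← mul_assoc, ← mul_assoc]; exact cE _ _
  have cG : ∀ γ n, CC (γ * GS p q (n + 1)) := by
    rintro γ (_ | n)
    · exact cp γ
    · rw [GS, mul_add, ← mul_assoc, ← mul_assoc]; exact cadd _ _ (cp _) (cq _)
  have form : ∀ γ, CC γ → ∀ n s, 2 * c ≤ s → γ * X ^ (n * c + s + 2 * c) =
      γ * GS p q (n + 1) * X ^ (s + c) + γ * GS p q n * q * X ^ s := by
    intro γ hγ n
    induction n with
    | zero => intro s hs; simp only [zero_mul, zero_add, hγ s hs, GS, mul_add, mul_one, mul_assoc]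
    | succ n ih =>
      intro s hs
      rw [show (n + 1) * c + s + 2 * c = n * c + (s + c) + 2 * c by ring, ih (s + c) (by omega),
        show s + c + c = s + 2 * c by ring, cG γ n s hs, GS]
      simp only [mul_add, add_mul, mul_assoc]
      abel
  have fin : ∀ γ, CC γ → ∀ m, n0 * c + 4 * c ≤ m → γ * X ^ m = 0 := by
    intro γ hγ m hm'
    obtain ⟨s, rfl⟩ := Nat.exists_eq_add_of_le hm'
    rw [show n0 * c + 4 * c + s = n0 * c + (s + 2 * c) + 2 * c by ring, form γ hγ _ _ (by omega),
      hn0 _ le_rfl, hn0 _ (Nat.le_succ _)]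
    simp
  refine ⟨n0 * c + 4 * c + 11 * c, ?_⟩
  have := tree_zero hx hP (n0 * c + 4 * c) (11 * c) [] fun w hw => by
    rcases hm.key0 (w := w) hw.ge with h | ⟨⟨p', s, γ, a, rfl, h⟩, -⟩
    · exact ⟨w, [], by simp, by simp, fun m _ => by rw [h, zero_mul]⟩
    · exact ⟨p', s, by simp, by simp, fun m hm' => by rw [h]; exact fin _ (cE γ a) m hm'⟩
  simpa using this

end Lev

theorem card_ctl_le (L : Lev I) : Fintype.card Ctl ≤ Fintype.card I :=
  Fintype.card_le_of_surjective L.dec fun p => ⟨L.set L.x0 p, L.dec_set _ _⟩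

theorem two_le_card (L : Lev I) : 2 ≤ Fintype.card I :=
  le_trans (Fintype.one_lt_card_iff.2 ⟨.cell true none, .cell false none, by simp⟩) (card_ctl_le L)

theorem claim_all (t : ℕ) : ∀ (I : Type) [Fintype I] (L : Lev I) (D : ℕ),
    8 * D ≤ 2 ^ t * Fintype.card I → L.Claim D := by
  induction t with
  | zero => intro I _ L D h; exact Lev.window (by simpa using h)
  | succ t ih =>
    intro I _ L D h
    refine Lev.claim_of_pure (Lev.pure_of_up (ih _ _ _ ?_))
    have h1 := card_ctl_le L
    have h2 := two_le_card L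
    rw [Fintype.card_prod, Fintype.card_fun, Fintype.card_fin]
    set N := Fintype.card I
    have h3 : Fintype.card Ctl * N + 1 ≤ 2 * N ^ 2 := by nlinarith
    have h4 : 8 ≤ N ^ 3 := by
      calc 8 = 2 ^ 3 := rfl
        _ ≤ N ^ 3 := Nat.pow_le_pow_left h2 3
    calc _ ≤ 8 * ((2 * N ^ 2) * ((2 * N ^ 2) * D)) := by gcongr
      _ = 4 * N ^ 4 * (8 * D) := by ring
      _ ≤ 4 * N ^ 4 * (2 ^ (t + 1) * N) := by gcongr
      _ = 2 ^ t * N ^ 5 * 8 := by ring
      _ ≤ 2 ^ t * N ^ 5 * N ^ 3 := by gcongr
      _ = _ := by ring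

theorem pure_all (L : Lev I) (D : ℕ) : L.Pure D := by
  refine Lev.pure_of_up (claim_all (8 * D) _ _ _ ?_)
  have := two_le_card L.up
  have h2 : 8 * D < 2 ^ (8 * D) := Nat.lt_two_pow_self
  nlinarith

end Vale.Agent.P192
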