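import Vale.Agent.P192.Comp

/-! Long words vanish or decompose into standard blocks. -/

namespace Vale.Agent.P192

open Function

variable {I : Type} {M : Type} [MonoidWithZero M]

theorem split_run (ar : Bool) (w : List (Ctl × I)) :
    ∃ l w', w = List.map (cl ar) l ++ w' ∧ ∀ z ∈ w'.head?, ∀ k, z.1 ≠ .cell ar k := by
  induction w with
  | nil => exact ⟨[], [], rfl, by simp⟩
  | cons z w ih =>
    by_cases hz : ∀ k, z.1 ≠ .cell ar k
    · exact ⟨[], z :: w, rfl, by simpa using hz⟩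
    · push Not at hz
      obtain ⟨k, hk⟩ := hz
      obtain ⟨l, w', rfl, h⟩ := ih
      exact ⟨(k, z.2) :: l, w', by simp [cl, ← hk], h⟩

def NL (w : List (Ctl × I)) : Prop := ∃ z w', w = z :: w' ∧ ∀ k, z.1 ≠ .cell false k

theorem NL.rc {e : Ctl × I → M} {w} (h : NL w) : RC e (ev e w) := by
  obtain ⟨z, w', rfl, hz⟩ := h
  exact ⟨z, _, hz, ev_cons ..⟩

theorem lc_flat (e : Ctl × I → M) (B : Blk I) : LC e (ev e B.flat) := by
  have := (lc_hc e B.st B.sr B.h B.C).mul (cs e true B.A)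
  simpa [Blk.flat, cs] using this

theorem flat_length (B : Blk I) : B.flat.length = (B.A ++ B.C).length + 1 := by
  simp [Blk.flat]; omega

namespace Lev

variable (L : Lev I) [Fintype I]

def R1 (e : Ctl × I → M) (ρ : List (Ctl × I)) (a : Ctl × (Fin 8 → I)) : Prop :=
  ∀ γ, LC e γ → γ * ev e ρ = γ * L.EE e a

def R2 (e : Ctl × I → M) (ρ : List (Ctl × I)) (a b : Ctl × (Fin 8 → I)) : Prop :=
  ∀ γ, LC e γ → γ * ev e ρ = γ * (L.EE e a * L.EE e b)

end Lev

namespace Lev.Mod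

variable {L : Lev I} {e : Ctl × I → M} (hm : L.Mod e) [Fintype I]
include hm

theorem parse {w} (hw : NL w) (hl : 2 * (Fintype.card I + 10) ≤ w.length) :
    ev e w = 0 ∨ ∃ (B : Blk I) (w' : List (Ctl × I)), w = B.flat ++ w' ∧ NL w' ∧
      B.flat.length < 2 * (Fintype.card I + 10) := by
  obtain ⟨A, w1, rfl, h1⟩ := split_run true w
  by_cases hA : Fintype.card I + 9 < A.length
  · left; rw [ev_append, ← cs, hm.cs_long true hA, zero_mul]
  rcases w1 with _ | ⟨⟨⟨_ | _, k⟩ | ⟨st, sr⟩, x⟩, w1⟩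
  · simp at hl; omega
  · left
    rcases List.eq_nil_or_concat A with rfl | ⟨A', c, rfl⟩
    · obtain ⟨z, w', e1, hz⟩ := hw
      simp only [List.map_nil, List.nil_append, List.cons.injEq] at e1
      exact (hz k (by rw [← e1.1])).elim
    · have := hm.z0 (a := cl true c) (b := (.cell false k, x)) (.rl _ _)
      simp only [List.concat_eq_append, List.map_append, List.map_cons, List.map_nil, ev_append,
        ev_cons, ev_nil, mul_one, mul_assoc]
      rw [← mul_assoc (e _), this]; simp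
  · exact (h1 _ rfl k rfl).elim
  obtain ⟨C, w2, rfl, h2⟩ := split_run false w1
  by_cases hC : Fintype.card I + 9 < C.length
  · left; rw [ev_append, ev_cons, ev_append, ← cs, ← cs, hm.cs_long false hC]; simp
  right
  refine ⟨⟨A, st, sr, x, C, fun _ => x⟩, w2, by simp [Blk.flat], ?_, by
    simp [Blk.flat]; omega⟩
  rcases w2 with _ | ⟨z, w2⟩
  · simp at hl; omega
  · exact ⟨z, w2, rfl, h2 z rfl⟩

theorem key1 {γ0 st0 h0 C0 w} (hs : st0.isEng = false) (hw : NL w)
    (hl : 4 * (Fintype.card I + 10) ≤ w.length) :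
    γ0 * VV e st0 h0 C0 * ev e w = 0 ∨ ∃ (B : Blk I) (w' : List (Ctl × I)), w = B.flat ++ w' ∧
      B.flat.length = Fintype.card I + 10 ∧ ((∃ a, L.R1 e B.flat a) ∨
        ∃ (B2 : Blk I) (w2 : List (Ctl × I)), w' = B2.flat ++ w2 ∧
          B2.flat.length = Fintype.card I + 10 ∧ ∃ a b, L.R2 e (B.flat ++ B2.flat) a b) := by
  have hγ : LC e (γ0 * VV e st0 h0 C0) := (lc_VV e _ _ _).mul _
  rcases hm.parse hw (by omega) with h | ⟨B, w', rfl, hw', hB⟩
  · left; rw [h, mul_zero]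
  rw [ev_append, ← mul_assoc]
  rcases hm.norm B with h | hn
  · left; rw [h, zero_mul]
  rw [hn _ hγ]
  rcases hst : B.st with _ | _ | ⟨μ, n⟩
  · rw [hst] at hn
    refine (hm.rdy_case hγ hw'.rc _ _).imp id ?_
    rintro ⟨h1, a, h2⟩
    exact ⟨B, w', rfl, by rw [flat_length, h1], Or.inl ⟨a, fun γ hγ => by rw [hn γ hγ, h2]⟩⟩
  · left
    rw [mul_assoc γ0, hm.inc (by simp [hs, HS.isLock])]; simp
  rw [hst] at hn
  rcases hm.parse hw' (by rw [List.length_append] at hl; omega) with h | ⟨B2, w2, rfl, hw2, hB2⟩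
  · left; rw [h, mul_zero]
  rw [ev_append, ← mul_assoc]
  rcases hm.norm B2 with h | hn2
  · left; rw [h, zero_mul]
  rw [hn2 _ ((lc_VV e _ _ _).mul _), mul_assoc (γ0 * _)]
  by_cases hlk : B2.st.isLock = true
  swap
  · left; rw [hm.inc (by simpa [HS.isEng] using hlk)]; simp
  have hst2 : B2.st = .lock := by
    rcases hq : B2.st with _ | _ | _ <;> simp_all [HS.isLock]
  rw [hst2] at hn2 ⊢
  rcases hm.rewind hγ hw2.rc μ B2.h _ n B.h (B.A ++ B.C) (B2.A ++ B2.C) rfl with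
    h | ⟨h', C1, C2, e1, e2, e3⟩
  · exact Or.inl h
  rw [e3, ← mul_assoc]
  rcases hm.rdy_case hγ ((rc_VV e .rdy B2.h C2).mul (ev e w2)) h' C1 with h | ⟨l1, a, ha⟩
  · left; rw [mul_assoc _ _ (ev e w2), h]
  rcases hm.rdy_case ((lc_VV e .rdy h' C1).mul (γ0 * VV e st0 h0 C0)) hw2.rc B2.h C2 with
    h | ⟨l2, b, hb⟩
  · exact Or.inl h
  refine Or.inr ⟨B, _, rfl, by rw [flat_length, ← e1, l1], Or.inr ⟨B2, w2, rfl,
    by rw [flat_length, ← e2, l2], a, b, fun γ hγ => ?_⟩⟩
  rw [ev_append, ← mul_assoc, hn γ hγ, hn2 _ ((lc_VV e _ _ _).mul _), mul_assoc, e3, ha, hb]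

theorem key2 (γ0 a) {w} (hl : 4 * (Fintype.card I + 10) ≤ w.length) :
    γ0 * L.EE e a * ev e w = 0 ∨ (∃ a, L.R1 e (w.take (Fintype.card I + 10)) a) ∨
      ∃ a b, L.R2 e (w.take (2 * (Fintype.card I + 10))) a b := by
  by_cases hw : NL w
  · refine (hm.key1 (st0 := .rdy) rfl hw hl).imp id ?_
    rintro ⟨B, w', rfl, h1, ⟨a, ha⟩ | ⟨B2, w2, rfl, h2, a, b, hab⟩⟩
    · exact Or.inl ⟨a, by rwa [List.take_left' h1]⟩
    · refine Or.inr ⟨a, b, ?_⟩
      rwa [← List.append_assoc, List.take_left' (by rw [List.length_append]; omega)]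
  · left
    rcases w with _ | ⟨⟨p, x⟩, w⟩
    · simp at hl
    have : ∃ k, p = .cell false k := by
      by_contra hk
      exact hw ⟨_, _, rfl, fun k hk' => hk ⟨k, hk'⟩⟩
    obtain ⟨k, rfl⟩ := this
    have := hm.cs_long false (l := canon (mkf (L.set L.x0 a.1) a.2) ++ [(k, x)])
      (by simp [canon_length])
    rw [cs_append, cs_cons, cs_nil, mul_one] at this
    rw [EE, VV, ev_cons, mul_assoc, mul_assoc, ← mul_assoc (cs _ _ _)]
    rw [show e (.cell false k, x) = e (cl false (k, x)) from rfl, this]; simp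

theorem key0 {w} (hl : 11 * (Fintype.card I + 10) ≤ w.length) :
    ev e w = 0 ∨ ((∃ p s γ a, w = p ++ s ∧ ev e p = γ * L.EE e a) ∧
      ∃ (B : Blk I) (p s : List (Ctl × I)), B.flat.length = Fintype.card I + 10 ∧
        w = p ++ B.flat ++ s) := by
  have fin : ∀ u w γ0 st0 h0 C0, st0.isEng = false → ev e u = γ0 * VV e st0 h0 C0 → NL w →
      4 * (Fintype.card I + 10) ≤ w.length →
      ev e (u ++ w) = 0 ∨ ((∃ p s γ a, u ++ w = p ++ s ∧ ev e p = γ * L.EE e a) ∧
      ∃ (B : Blk I) (p s : List (Ctl × I)), B.flat.length = Fintype.card I + 10 ∧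
        u ++ w = p ++ B.flat ++ s) := by
    intro u w γ0 st0 h0 C0 hs hu hw hl
    have hγ : LC e (ev e u) := hu ▸ (lc_VV e _ _ _).mul _
    rw [ev_append, hu]
    refine (hm.key1 hs hw hl).imp id ?_
    rintro ⟨B, w', rfl, h1, h2⟩
    refine ⟨?_, B, u, w', h1, by simp⟩
    rcases h2 with ⟨a, ha⟩ | ⟨B2, w2, rfl, h2, a, b, hab⟩
    · exact ⟨u ++ B.flat, w', _, a, by simp, by rw [ev_append, ha _ hγ]⟩
    · exact ⟨u ++ (B.flat ++ B2.flat), w2, _, b, by simp, by
        rw [ev_append, hab _ hγ, ← mul_assoc]⟩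
  obtain ⟨l, w0, rfl, h0⟩ := split_run false w
  by_cases hA : Fintype.card I + 9 < l.length
  · left; rw [ev_append, ← cs, hm.cs_long false hA, zero_mul]
  simp only [List.length_append, List.length_map] at hl
  have hw0 : NL w0 := by
    rcases w0 with _ | ⟨z, w0⟩
    · simp at hl; omega
    · exact ⟨z, w0, rfl, h0 z rfl⟩
  rcases hm.parse hw0 (by omega) with h | ⟨B0, w1, rfl, hw1, hB0⟩
  · left; rw [ev_append, h, mul_zero]
  rw [List.length_append] at hl
  rcases hm.parse hw1 (by omega) with h | ⟨B1, w2, rfl, hw2, hB1⟩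
  · left; rw [ev_append, ev_append, h]; simp
  rw [List.length_append] at hl
  have hγ : LC e (ev e (l.map (cl false) ++ B0.flat)) := by
    rw [ev_append]; exact (lc_flat e B0).mul _
  rw [← List.append_assoc, ← List.append_assoc]
  generalize l.map (cl false) ++ B0.flat = u at hγ
  rcases hm.norm B1 with h | hn1
  · left; rw [ev_append, ev_append, h, zero_mul]
  by_cases hs : B1.st.isEng = false
  · exact fin _ _ _ _ _ _ hs (by rw [ev_append, hn1 _ hγ]) hw2 (by omega)
  rcases hm.parse hw2 (by omega) with h | ⟨B2, w3, rfl, hw3, hB2⟩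
  · left; rw [ev_append, h, mul_zero]
  rw [List.length_append] at hl
  rw [← List.append_assoc]
  rcases hm.norm B2 with h | hn2
  · left; rw [ev_append, ev_append, h, zero_mul]
  have e1 : ev e (u ++ B1.flat ++ B2.flat) = ev e u * VV e B1.st B1.h (B1.A ++ B1.C) *
      VV e B2.st B2.h (B2.A ++ B2.C) := by
    rw [ev_append, ev_append, hn1 _ hγ, hn2 _ ((lc_VV e _ _ _).mul _)]
  by_cases hs2 : B2.st.isEng = false
  · exact fin _ _ _ _ _ _ hs2 e1 hw3 (by omega)
  · left
    rw [ev_append, e1, mul_assoc (ev e u), hm.inc]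
    · simp
    · revert hs hs2
      rcases B1.st with _ | _ | _ <;> rcases B2.st with _ | _ | _ <;> simp [HS.isEng, HS.isLock]

end Lev.Mod

end Vale.Agent.P192
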