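import Vale.Agent.P192.Sys

/-! Programs simulate the rules of the next level. -/

namespace Vale.Agent.P192

open Function

variable {I : Type}

namespace Lev

variable {L : Lev I}

theorem Rel.toJ {o k} {x y x' y' : Fin 8 → I} (h : L.up.Rel o k x y x' y') :
    ∃ j, L.RelJ o j k x y x' y' := by
  by_cases hn : nej o = true
  · have : x' ≠ y' := by
      cases o <;> simp only [nej, Bool.false_eq_true] at hn
      · obtain ⟨rfl, rfl, h⟩ := h; exact h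
      · obtain ⟨rfl, rfl, h⟩ := h; exact h.symm
    obtain ⟨j, hj⟩ := Function.ne_iff.1 this
    exact ⟨j, h, fun _ => hj⟩
  · exact ⟨0, h, fun h' => absurd h' hn⟩

theorem RelJ.post {o j k} {x y x' y' : Fin 8 → I} (h : L.RelJ o j k x y x' y') :
    L.RelJ (post o) j k x' y' x' y' := by
  obtain ⟨h, hj⟩ := h
  cases o
  case tab =>
    obtain ⟨p, q, hb, -⟩ := h
    exact ⟨⟨rfl, rfl, iff_of_true ⟨p, q, hb⟩ rfl⟩, by simp [P192.post, nej]⟩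
  case nsw =>
    obtain ⟨rfl, rfl, h⟩ := h
    exact ⟨⟨rfl, rfl, h.symm⟩, hj⟩
  case id => exact ⟨⟨rfl, rfl⟩, by simp [P192.post, nej]⟩
  case sw => exact ⟨⟨rfl, rfl⟩, by simp [P192.post, nej]⟩
  case swJ => exact ⟨⟨rfl, rfl⟩, by simp [P192.post, nej]⟩
  all_goals
    obtain ⟨rfl, rfl, h⟩ := h
    exact ⟨⟨rfl, rfl, h⟩, hj⟩

theorem RelJ.post_eq {o j k} {x y x' y' : Fin 8 → I} (h : L.RelJ (P192.post o) j k x y x' y') :
    x' = x ∧ y' = y := by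
  obtain ⟨h, -⟩ := h
  cases o <;> exact ⟨h.1, by first | exact h.2 | exact h.2.1⟩

theorem RelJ.pre {o j k} {x y : Fin 8 → I} (h : L.RelJ (P192.post o) j k x y x y) :
    ∃ x0 y0, L.RelJ o j k x0 y0 x y := by
  obtain ⟨h, hj⟩ := h
  cases o
  case tab =>
    obtain ⟨p, q, hb⟩ := h.2.2.2 rfl
    exact ⟨_, _, ⟨p, q, hb, rfl, rfl⟩, by simp [nej]⟩
  case nsw => exact ⟨y, x, ⟨rfl, rfl, h.2.2.symm⟩, hj⟩
  case sw => exact ⟨y, x, ⟨rfl, rfl⟩, by simp [nej]⟩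
  case swJ =>
    exact ⟨L.up.set y (L.up.dec x), L.up.set x (L.up.dec y), ⟨by simp, by simp⟩, by simp [nej]⟩
  all_goals exact ⟨x, y, h, hj⟩

variable (L) in
def BR (κ : Kind) (j : Fin 8) (k : Kind) (x : Fin 8 → I) (h : I) (y x' : Fin 8 → I) (h' : I)
    (y' : Fin 8 → I) : Prop :=
  if κ = .ref then x' = x ∧ h' = y j ∧ y' = update y j h
  else L.RelJ (opOf κ) j k x y x' y' ∧ h' = h

theorem run_old {κ j c d x y h} {σ' : S3 I} :
    L.Run κ (prog ⟨κ, j, false⟩) (mkf c x, h, mkf d y) σ' ↔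
      ∃ c' d' x' h' y', Back κ (L.dec c') (L.dec d') (L.dec c) (L.dec d) ∧ L.lab c' = κ ∧
        c = L.set c' (L.dec c) ∧ d = L.set d' (L.dec d) ∧
        L.BR κ j (modeK (L.dec d')) x h y x' h' y' ∧ σ' = (mkf c' x', h', mkf d' y') := by
  have hb : ∀ c' d', L.Run κ (body ⟨κ, j, false⟩) (mkf c' x, h, mkf d' y) σ' ↔
      ∃ x' h' y', L.BR κ j (modeK (L.dec d')) x h y x' h' y' ∧
        σ' = (mkf c' x', h', mkf d' y') := by
    intro c' d'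
    by_cases hκ : κ = .ref
    · simp only [body, BR, hκ, Bool.false_eq_true, if_false, if_true, Run, Step, Rel, mkf_some]
      constructor
      · rintro ⟨_, ⟨_, _, ⟨rfl, rfl⟩, rfl⟩, rfl⟩
        exact ⟨_, _, _, ⟨rfl, rfl, rfl⟩, by rw [update_mkf_some]⟩
      · rintro ⟨_, _, _, ⟨rfl, rfl, rfl⟩, rfl⟩
        exact ⟨_, ⟨_, _, ⟨rfl, rfl⟩, rfl⟩, by rw [update_mkf_some]⟩
    · simp only [body, BR, hκ, Bool.false_eq_true, if_false, run_expand]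
      constructor
      · rintro ⟨x', y', h1, rfl⟩; exact ⟨x', h, y', ⟨h1, rfl⟩, rfl⟩
      · rintro ⟨x', _, y', ⟨h1, rfl⟩, rfl⟩; exact ⟨x', y', h1, rfl⟩
  simp only [prog, Bool.false_eq_true, if_false, run_append, run_jt, Run, mkf_none,
    update_mkf_none]
  constructor
  · rintro ⟨_, ⟨c', d', ⟨p, q, h1, rfl, rfl⟩, rfl⟩, _, ⟨a, b, ⟨e1, e2, h2⟩, rfl⟩, h3⟩
    have h2' : L.lab c' = κ := h2.2 rfl
    simp only [e1, e2, mkf_none, update_mkf_none] at h3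
    obtain ⟨x', h', y', h4, rfl⟩ := (hb _ _).1 h3
    exact ⟨c', d', x', h', y', by simpa [h2'] using h1, h2', by simp, by simp, h4, rfl⟩
  · rintro ⟨c', d', x', h', y', h1, h2, h3, h4, h5, rfl⟩
    refine ⟨_, ⟨c', d', ⟨_, _, by rw [h2]; exact h1, h3, h4⟩, rfl⟩, _,
      ⟨_, _, ⟨rfl, rfl, iff_of_true h2 rfl⟩, rfl⟩, ?_⟩
    simp only [mkf_none, update_mkf_none]
    exact (hb _ _).2 ⟨x', h', y', h5, rfl⟩

theorem run_new {κ j c d x y h} {σ' : S3 I} :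
    L.Run κ (prog ⟨κ, j, true⟩) (mkf c x, h, mkf d y) σ' ↔
      (∃ p q, Back κ (L.dec c) (L.dec d) p q) ∧ L.lab c = κ ∧
        L.RelJ (post (opOf κ)) j (modeK (L.dec d)) x y x y ∧ σ' = (mkf c x, h, mkf d y) := by
  simp only [prog, body, if_true, run_append, run_jt, Run, mkf_none, update_mkf_none]
  constructor
  · rintro ⟨_, ⟨_, _, ⟨rfl, rfl, h1⟩, rfl⟩, _, ⟨_, _, ⟨rfl, rfl, h2⟩, rfl⟩, h3⟩
    have h2' : L.lab _ = κ := h2.2 rfl
    simp only [mkf_none, update_mkf_none] at h3 h2'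
    obtain ⟨x', y', h4, rfl⟩ := run_expand.1 h3
    obtain ⟨rfl, rfl⟩ := h4.post_eq
    exact ⟨by rw [← h2']; exact h1.2 rfl, h2', h4, rfl⟩
  · rintro ⟨h1, h2, h3, rfl⟩
    refine ⟨_, ⟨_, _, ⟨rfl, rfl, iff_of_true (by rw [← h2] at h1; exact h1) rfl⟩, rfl⟩, _,
      ⟨_, _, ⟨rfl, rfl, iff_of_true h2 rfl⟩, rfl⟩, ?_⟩
    simp only [mkf_none, update_mkf_none]
    exact run_expand.2 ⟨x, y, h3, rfl⟩

variable (L) in
/-- the letter of the next level held by the tokens of a block -/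
def view (f : Col → I) : Ctl × (Fin 8 → I) := (L.dec (f none), cmp f)

theorem s3_mkf (σ : S3 I) : ∃ c x h d y, σ = (mkf c x, h, mkf d y) :=
  ⟨σ.1 none, cmp σ.1, σ.2.1, σ.2.2 none, cmp σ.2.2, by simp [mkf_cmp]⟩

theorem exp_sound {κ j} {σ σ' : S3 I} (h : L.Run κ (prog ⟨κ, j, false⟩) σ σ') :
    L.up.Rule κ (L.view σ.1) (L.view σ.2.2) (L.view σ'.1) (L.view σ'.2.2) := by
  obtain ⟨c, x, h0, d, y, rfl⟩ := s3_mkf σ
  obtain ⟨c', d', x', h', y', h1, -, -, -, h5, rfl⟩ := run_old.1 h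
  refine ⟨h1, ?_⟩
  simp only [view, mkf_none, cmp_mkf]
  unfold BR at h5
  split_ifs at h5 ⊢
  exacts [h5.1, h5.1.1]

theorem cross_fw {κ j} {σ σ' : S3 I} (h : L.Run κ (prog ⟨κ, j, false⟩) σ σ') :
    L.Run κ (prog ⟨κ, j, true⟩) σ' σ' := by
  obtain ⟨c, x, h0, d, y, rfl⟩ := s3_mkf σ
  obtain ⟨c', d', x', h', y', h1, h2, -, -, h5, rfl⟩ := run_old.1 h
  refine run_new.2 ⟨⟨_, _, h1⟩, h2, ?_, rfl⟩
  unfold BR at h5
  split_ifs at h5 with hκ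
  · subst hκ; exact ⟨⟨rfl, rfl⟩, by simp [opOf, post, nej]⟩
  · exact h5.1.post

theorem new_eq {κ j} {σ σ' : S3 I} (h : L.Run κ (prog ⟨κ, j, true⟩) σ σ') : σ' = σ := by
  obtain ⟨c, x, h0, d, y, rfl⟩ := s3_mkf σ
  exact (run_new.1 h).2.2.2

theorem cross_bw {κ j} {σ σ' : S3 I} (h : L.Run κ (prog ⟨κ, j, true⟩) σ σ') :
    ∃ σ0, L.Run κ (prog ⟨κ, j, false⟩) σ0 σ' := by
  obtain ⟨c, x, h0, d, y, rfl⟩ := s3_mkf σ
  obtain ⟨⟨p, q, h1⟩, h2, h3, rfl⟩ := run_new.1 h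
  by_cases hκ : κ = .ref
  · refine ⟨(mkf (L.set c p) x, y j, mkf (L.set d q) (update y j h0)), run_old.2
      ⟨c, d, x, h0, y, by simpa using h1, h2, by simp, by simp, ?_, rfl⟩⟩
    simp [BR, hκ]
  · obtain ⟨x0, y0, h4⟩ := h3.pre
    refine ⟨(mkf (L.set c p) x0, h0, mkf (L.set d q) y0), run_old.2
      ⟨c, d, x, h0, y, by simpa using h1, h2, by simp, by simp, ?_, rfl⟩⟩
    simp [BR, hκ, h4]

theorem exp_complete {κ a b a' b'} (hκ : κ ≠ .ref) (hr : L.up.Rule κ a b a' b') (c d h : I)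
    (hc : L.lab c = κ) :
    ∃ j, L.Run κ (prog ⟨κ, j, false⟩) (mkf (L.set c a.1) a.2, h, mkf (L.set d b.1) b.2)
      (mkf (L.set c a'.1) a'.2, h, mkf (L.set d b'.1) b'.2) := by
  obtain ⟨h1, h2⟩ := hr
  rw [if_neg hκ] at h2
  obtain ⟨j, hj⟩ := h2.toJ
  refine ⟨j, run_old.2 ⟨_, _, _, _, _, by simpa using h1, by simpa using hc, by simp, by simp,
    ?_, rfl⟩⟩
  simp [BR, hκ, hj]

theorem exp_ref (p : Ctl) (x y : Fin 8 → I) (c d h : I) (hc : L.lab c = .ref) (j : Fin 8) :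
    L.Run .ref (prog ⟨.ref, j, false⟩)
      (mkf (L.set c p) x, h, mkf (L.set d (.head .rdy none)) y)
      (mkf (L.set c p) x, y j, mkf (L.set d (.head .rdy none)) (update y j h)) := by
  refine run_old.2 ⟨_, _, _, _, _, by simpa using Back.ref p, by simpa using hc, by simp, by simp,
    ?_, rfl⟩
  simp [BR]

end Lev

end Vale.Agent.P192
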