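import Vale.Agent.P192.Blk

/-! Soundness of the simulation: closed sets of words descend one level. -/

namespace Vale.Agent.P192

open Function

variable {I : Type}

abbrev Sem (I : Type) := HS × I × (Col → I)

namespace Lev

variable (L : Lev I)

/-- a set of words that is closed under the rules and avoids the zero rules -/
def Closed (U : Set (List (Ctl × I))) : Prop :=
  ∀ κ a b a' b' p s, L.Rule κ a b a' b' →
    (isZ κ = true → p ++ a :: b :: s ∉ U) ∧
      (isZ κ = false → (p ++ a :: b :: s ∈ U ↔ p ++ a' :: b' :: s ∈ U))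

inductive GoodS : List (Sem I) → List (Ctl × (Fin 8 → I)) → Prop
  | nil : GoodS [] []
  | one (h f ss u) : GoodS ss u → GoodS ((.rdy, h, f) :: ss) (L.view f :: u)
  | two (μ : Mode) (n : Fin 64) (h f h2 g σ0 ss u) : n.val ≤ (prog μ).length →
      L.Run μ.k ((prog μ).take n.val) σ0 (f, h, g) → GoodS ss u →
      GoodS ((.eng μ n, h, f) :: (.lock, h2, g) :: ss) (L.view σ0.1 :: L.view σ0.2.2 :: u)

variable {L}

theorem GoodS.append {s1 s2 u1 u2} (h1 : L.GoodS s1 u1) (h2 : L.GoodS s2 u2) :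
    L.GoodS (s1 ++ s2) (u1 ++ u2) := by
  induction h1 with
  | nil => exact h2
  | one h f ss u _ ih => exact .one h f _ _ ih
  | two μ n h f h2 g σ0 ss u a b _ ih => exact .two μ n h f h2 g σ0 _ _ a b ih

theorem GoodS.split {s u} (h : L.GoodS s u) : ∀ {s1 a s2}, s = s1 ++ a :: s2 → a.1 ≠ .lock →
    ∃ u1 u2, L.GoodS s1 u1 ∧ L.GoodS (a :: s2) u2 ∧ u = u1 ++ u2 := by
  induction h with
  | nil => intro s1 a s2 e; simp at e
  | one h f ss u hg ih =>
    intro s1 a s2 e ha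
    rcases s1 with _ | ⟨b, s1⟩
    · rw [List.nil_append] at e
      exact ⟨[], _, .nil, e ▸ GoodS.one h f ss u hg, rfl⟩
    · simp only [List.cons_append, List.cons.injEq] at e
      obtain ⟨rfl, e⟩ := e
      obtain ⟨u1, u2, h1, h2, rfl⟩ := ih e ha
      exact ⟨_, u2, .one h f _ _ h1, h2, rfl⟩
  | two μ n h f h2 g σ0 ss u hn hr hg ih =>
    intro s1 a s2 e ha
    rcases s1 with _ | ⟨b, _ | ⟨b', s1⟩⟩
    · rw [List.nil_append] at e
      exact ⟨[], _, .nil, e ▸ GoodS.two μ n h f h2 g σ0 ss u hn hr hg, rfl⟩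
    · simp only [List.cons_append, List.nil_append, List.cons.injEq] at e
      exact (ha (by rw [← e.2.1])).elim
    · simp only [List.cons_append, List.cons.injEq] at e
      obtain ⟨rfl, rfl, e⟩ := e
      obtain ⟨u1, u2, h1, h3, rfl⟩ := ih e ha
      exact ⟨_, u2, .two μ n h f h2 g σ0 _ _ hn hr h1, h3, rfl⟩

theorem GoodS.adj {s u} (h : L.GoodS s u) : ∀ {s1 a b s2}, s = s1 ++ a :: b :: s2 →
    a.1.isEng = b.1.isLock := by
  induction h with
  | nil => intro s1 a b s2 e; simp at e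
  | one h f ss u hg ih =>
    intro s1 a b s2 e
    rcases s1 with _ | ⟨c, s1⟩
    · simp only [List.nil_append, List.cons.injEq] at e
      obtain ⟨rfl, rfl⟩ := e
      cases hg <;> rfl
    · simp only [List.cons_append, List.cons.injEq] at e
      exact ih e.2
  | two μ n h f h2 g σ0 ss u hn hr hg ih =>
    intro s1 a b s2 e
    rcases s1 with _ | ⟨c, _ | ⟨c', s1⟩⟩
    · simp only [List.nil_append, List.cons.injEq] at e
      obtain ⟨rfl, rfl, -⟩ := e
      rfl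
    · simp only [List.cons_append, List.nil_append, List.cons.injEq] at e
      obtain ⟨-, rfl, rfl⟩ := e
      cases hg <;> rfl
    · simp only [List.cons_append, List.cons.injEq] at e
      exact ih e.2.2

variable (L) in
def GG (U : Set (List (Ctl × (Fin 8 → I)))) (ss : List (Sem I)) : Prop := ∃ u ∈ U, L.GoodS ss u

variable {U : Set (List (Ctl × (Fin 8 → I)))}

theorem GG.rdy {s1 s2 h f} (hg : L.GG U (s1 ++ (.rdy, h, f) :: s2)) :
    ∃ u1 u2, L.GoodS s1 u1 ∧ L.GoodS s2 u2 ∧ u1 ++ L.view f :: u2 ∈ U := by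
  obtain ⟨u, hu, hg⟩ := hg
  obtain ⟨u1, u2, h1, h2, rfl⟩ := hg.split rfl (by simp)
  cases h2 with
  | one _ _ _ u h3 => exact ⟨u1, u, h1, h3, hu⟩

theorem GG.eng {s1 s2 μ n h f} (hg : L.GG U (s1 ++ (.eng μ n, h, f) :: s2)) :
    ∃ u1 u2 h2 g s3 σ0, s2 = (.lock, h2, g) :: s3 ∧ L.GoodS s1 u1 ∧ L.GoodS s3 u2 ∧
      n.val ≤ (prog μ).length ∧ L.Run μ.k ((prog μ).take n.val) σ0 (f, h, g) ∧
      u1 ++ L.view σ0.1 :: L.view σ0.2.2 :: u2 ∈ U := by
  obtain ⟨u, hu, hg⟩ := hg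
  obtain ⟨u1, u2, h1, h2, rfl⟩ := hg.split rfl (by simp)
  cases h2 with
  | two _ _ _ _ h2 g σ0 ss u hn hr h3 => exact ⟨u1, u, h2, g, ss, σ0, rfl, h1, h3, hn, hr, hu⟩

theorem GG.m_rdy {s1 s2 h f h' f'} (hg : L.GG U (s1 ++ (.rdy, h, f) :: s2))
    (e : L.view f' = L.view f) : L.GG U (s1 ++ (.rdy, h', f') :: s2) := by
  obtain ⟨u1, u2, h1, h2, hu⟩ := hg.rdy
  exact ⟨_, hu, h1.append (e ▸ .one h' f' _ _ h2)⟩

theorem GG.m_eng {s1 s2 h f h2 g μ} {n : Fin 64} (hn : n.val = 0) :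
    L.GG U (s1 ++ (.rdy, h, f) :: (.rdy, h2, g) :: s2) ↔
      L.GG U (s1 ++ (.eng μ n, h, f) :: (.lock, h2, g) :: s2) := by
  constructor
  · intro hg
    obtain ⟨u1, u2, h1, h3, hu⟩ := hg.rdy
    cases h3 with
    | one _ _ _ u h3 =>
      exact ⟨_, hu, h1.append (.two μ n h f h2 g (f, h, g) _ _ (by omega) (by simp [hn, Run]) h3)⟩
  · intro hg
    obtain ⟨u1, u2, h2', g', s3, σ0, e, h1, h3, -, hr, hu⟩ := hg.eng
    simp only [List.cons.injEq, Prod.mk.injEq, true_and] at e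
    obtain ⟨⟨rfl, rfl⟩, rfl⟩ := e
    simp only [hn, List.take_zero, Run] at hr
    subst hr
    exact ⟨_, hu, h1.append (.one _ _ _ _ (.one _ _ _ _ h3))⟩

theorem GG.m_mid (hU : L.up.Closed U) {s1 s2 h f h2 g κ j} {n n' : Fin 64} (hz : isZ κ = false)
    (hn : n.val = (prog ⟨κ, j, false⟩).length) (hn' : n'.val = (prog ⟨κ, j, true⟩).length) :
    L.GG U (s1 ++ (.eng ⟨κ, j, false⟩ n, h, f) :: (.lock, h2, g) :: s2) ↔
      L.GG U (s1 ++ (.eng ⟨κ, j, true⟩ n', h, f) :: (.lock, h2, g) :: s2) := by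
  constructor
  · intro hg
    obtain ⟨u1, u2, h2', g', s3, σ0, e, h1, h3, -, hr, hu⟩ := hg.eng
    simp only [List.cons.injEq, Prod.mk.injEq, true_and] at e
    obtain ⟨⟨rfl, rfl⟩, rfl⟩ := e
    rw [hn, List.take_length] at hr
    refine ⟨_, ((hU _ _ _ _ _ u1 u2 (exp_sound hr)).2 hz).1 hu,
      h1.append (.two _ n' h f h2 g (f, h, g) _ _ hn'.le ?_ h3)⟩
    rw [hn', List.take_length]
    exact cross_fw hr
  · intro hg
    obtain ⟨u1, u2, h2', g', s3, σ0, e, h1, h3, -, hr, hu⟩ := hg.eng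
    simp only [List.cons.injEq, Prod.mk.injEq, true_and] at e
    obtain ⟨⟨rfl, rfl⟩, rfl⟩ := e
    rw [hn', List.take_length] at hr
    obtain ⟨σ1, hr1⟩ := cross_bw hr
    obtain rfl := new_eq hr
    refine ⟨_, ((hU _ _ _ _ _ u1 u2 (exp_sound hr1)).2 hz).2 hu,
      h1.append (.two _ n h f h2 g σ1 _ _ hn.le ?_ h3)⟩
    rw [hn, List.take_length]
    exact hr1

theorem GG.m_step {s1 s2 h f h2 g h' f' g' μ i} {n n' : Fin 64} (hn : n'.val = n.val + 1)
    (hi : (prog μ)[n.val]? = some i) (hs : L.Step μ.k i (f, h, g) (f', h', g')) :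
    L.GG U (s1 ++ (.eng μ n, h, f) :: (.lock, h2, g) :: s2) ↔
      L.GG U (s1 ++ (.eng μ n', h', f') :: (.lock, h2, g') :: s2) := by
  have hlt : n.val < (prog μ).length := (List.getElem?_eq_some_iff.1 hi).1
  constructor
  · intro hg
    obtain ⟨u1, u2, h2', g', s3, σ0, e, h1, h3, -, hr, hu⟩ := hg.eng
    simp only [List.cons.injEq, Prod.mk.injEq, true_and] at e
    obtain ⟨⟨rfl, rfl⟩, rfl⟩ := e
    refine ⟨_, hu, h1.append (.two _ n' _ _ _ _ σ0 _ _ (by omega) ?_ h3)⟩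
    rw [hn, run_take_succ hi]
    exact ⟨_, hr, hs⟩
  · intro hg
    obtain ⟨u1, u2, h2', g', s3, σ0, e, h1, h3, -, hr, hu⟩ := hg.eng
    simp only [List.cons.injEq, Prod.mk.injEq, true_and] at e
    obtain ⟨⟨rfl, rfl⟩, rfl⟩ := e
    rw [hn, run_take_succ hi] at hr
    obtain ⟨σ1, hr, hs'⟩ := hr
    obtain rfl := hs'.uniq hs
    exact ⟨_, hu, h1.append (.two _ n _ _ _ _ σ0 _ _ (by omega) hr h3)⟩

theorem GG.lock_of_eng {s1 s2 μ n h f} (hg : L.GG U (s1 ++ (.eng μ n, h, f) :: s2)) :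
    ∃ h2 g s3, s2 = (.lock, h2, g) :: s3 := by
  obtain ⟨_, _, h2, g, s3, _, e, -⟩ := hg.eng
  exact ⟨h2, g, s3, e⟩

theorem GG.last {s1 s2 h f h2 g μ i} {n : ℕ} {n' : Fin 64} (hn : n'.val = n + 1)
    (hi : (prog μ)[n]? = some i)
    (hg : L.GG U (s1 ++ (.eng μ n', h, f) :: (.lock, h2, g) :: s2)) :
    ∃ σ, L.Step μ.k i σ (f, h, g) := by
  obtain ⟨u1, u2, h2', g', s3, σ0, e, h1, h3, -, hr, hu⟩ := hg.eng
  simp only [List.cons.injEq, Prod.mk.injEq, true_and] at e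
  obtain ⟨⟨rfl, rfl⟩, rfl⟩ := e
  rw [hn, run_take_succ hi] at hr
  obtain ⟨σ1, -, hs'⟩ := hr
  exact ⟨σ1, hs'⟩

end Lev

def Blk.Valid (B : Blk I) : Prop :=
  Full B.f (B.A ++ B.C) ∧ ∀ σ, B.sr = some σ → ∀ c ∈ B.A, key c ≠ key (σ, B.h)

def Blk.sem (B : Blk I) : Sem I := (B.st, B.h, B.f)

namespace Lev

variable (L : Lev I)

def LL (U : Set (List (Ctl × (Fin 8 → I)))) : Set (List (Ctl × I)) :=
  {w | ∃ bs, fl bs = w ∧ (∀ B ∈ bs, B.Valid) ∧ L.GG U (bs.map Blk.sem)}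

variable {L} {U : Set (List (Ctl × (Fin 8 → I)))}

theorem mk1 {b1 b2 : List (Blk I)} {B B' : Blk I} (hv : ∀ X ∈ b1 ++ B :: b2, X.Valid)
    (hB : B.Valid → B'.Valid) (hg : L.GG U (b1.map Blk.sem ++ B'.sem :: b2.map Blk.sem)) {w}
    (e : fl b1 ++ B'.flat ++ fl b2 = w) : w ∈ L.LL U := by
  refine ⟨b1 ++ B' :: b2, by simpa using e, fun X hX => ?_, by simpa using hg⟩
  simp only [List.mem_append, List.mem_cons] at hX hv
  rcases hX with h | rfl | h
  exacts [hv _ (Or.inl h), hB (hv _ (Or.inr (Or.inl rfl))), hv _ (Or.inr (Or.inr h))]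

theorem mk2 {b1 b2 : List (Blk I)} {B B' D D' : Blk I} (hv : ∀ X ∈ b1 ++ B :: D :: b2, X.Valid)
    (hB : B.Valid → B'.Valid) (hD : D.Valid → D'.Valid)
    (hg : L.GG U (b1.map Blk.sem ++ B'.sem :: D'.sem :: b2.map Blk.sem)) {w}
    (e : fl b1 ++ B'.flat ++ D'.flat ++ fl b2 = w) : w ∈ L.LL U := by
  refine ⟨b1 ++ B' :: D' :: b2, by simpa using e, fun X hX => ?_, by simpa using hg⟩
  simp only [List.mem_append, List.mem_cons] at hX hv
  rcases hX with h | rfl | rfl | h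
  exacts [hv _ (Or.inl h), hB (hv _ (Or.inr (Or.inl rfl))),
    hD (hv _ (Or.inr (Or.inr (Or.inl rfl)))), hv _ (Or.inr (Or.inr (Or.inr h)))]

theorem s_com {p s ar c c'} (h : p ++ cl ar c :: cl ar c' :: s ∈ L.LL U) :
    p ++ cl ar c' :: cl ar c :: s ∈ L.LL U := by
  obtain ⟨bs, e, hv, hg⟩ := h
  obtain ⟨b1, A, st, sr, h, C, f, b2, l1, l2, rfl, -, ⟨rfl, rfl, rfl, rfl⟩ | ⟨rfl, rfl, rfl, rfl⟩⟩ :=
    loc_cc (Or.inr rfl) e
  · refine mk1 (B' := ⟨l1 ++ c' :: c :: l2, st, sr, h, C, f⟩) hv (fun hB => ⟨hB.1.perm ?_, ?_⟩)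
      (by simpa [Blk.sem] using hg) (by simp [Blk.flat])
    · exact ((List.Perm.swap c' c l2).append_left l1).append_right C
    · intro σ hσ d hd
      exact hB.2 σ hσ d (((List.Perm.swap c' c l2).append_left l1).mem_iff.2 hd)
  · refine mk1 (B' := ⟨A, st, sr, h, l1 ++ c' :: c :: l2, f⟩) hv (fun hB => ⟨hB.1.perm ?_, hB.2⟩)
      (by simpa [Blk.sem] using hg) (by simp [Blk.flat])
    exact ((List.Perm.swap c' c l2).append_left l1).append_left A

theorem s_pass_fw {p s k x st sr h} (hh : p ++ (.cell true k, x) :: (.head st sr, h) :: s ∈ L.LL U) :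
    p ++ (.head st sr, h) :: (.cell false k, x) :: s ∈ L.LL U := by
  obtain ⟨bs, e, hv, hg⟩ := hh
  obtain ⟨b1, A, C, f, b2, rfl, rfl, rfl⟩ := loc_AH e
  refine mk1 (B' := ⟨A, st, sr, h, (k, x) :: C, f⟩) hv (fun hB => ⟨by simpa using hB.1, ?_⟩)
      (by simpa [Blk.sem] using hg) (by simp [Blk.flat, cl])
  intro σ hσ d hd
  exact hB.2 σ hσ d (List.mem_append_left _ hd)

theorem s_pass_bw {p s k x st sr h} (hk : ∀ σ, sr = some σ → key (k, x) ≠ key (σ, h))
    (hh : p ++ (.head st sr, h) :: (.cell false k, x) :: s ∈ L.LL U) :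
    p ++ (.cell true k, x) :: (.head st sr, h) :: s ∈ L.LL U := by
  obtain ⟨bs, e, hv, hg⟩ := hh
  obtain ⟨b1, A, C, f, b2, rfl, rfl, rfl⟩ := loc_HC e
  refine mk1 (B' := ⟨A ++ [(k, x)], st, sr, h, C, f⟩) hv (fun hB => ⟨by simpa using hB.1, ?_⟩)
      (by simpa [Blk.sem] using hg) (by simp [Blk.flat, cl])
  intro σ hσ d hd
  rcases List.mem_append.1 hd with hd | hd
  · exact hB.2 σ hσ d hd
  · rw [List.mem_singleton.1 hd]; exact hk σ hσ

theorem s_srch {p s y st sr sr' h} (hy : ∀ k, y.1 ≠ .cell true k)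
    (hh : p ++ y :: (.head st sr, h) :: s ∈ L.LL U) :
    p ++ y :: (.head st sr', h) :: s ∈ L.LL U := by
  obtain ⟨bs, e, hv, hg⟩ := hh
  obtain ⟨b1, C, f, b2, rfl, h1, rfl⟩ := loc_yH hy e
  exact mk1 (B' := ⟨[], st, sr', h, C, f⟩) hv (fun hB => ⟨hB.1, by simp⟩)
      (by simpa [Blk.sem] using hg) (by simp [Blk.flat, ← h1])

theorem s_ref {p s h h'} (hh : p ++ (.head .rdy none, h) :: s ∈ L.LL U) :
    p ++ (.head .rdy none, h') :: s ∈ L.LL U := by
  obtain ⟨bs, e, hv, hg⟩ := hh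
  obtain ⟨b1, A, C, f, b2, rfl, rfl, rfl⟩ := loc_head e
  refine mk1 (B' := ⟨A, .rdy, none, h', C, f⟩) hv (fun hB => ⟨hB.1, by simp⟩)
      ?_ (by simp [Blk.flat])
  simp only [List.map_append, List.map_cons, Blk.sem] at hg
  exact hg.m_rdy rfl

theorem s_AH {p s γ a a' st st' h h'}
    (hm : ∀ s1 s2 f, f γ = a → L.GG U (s1 ++ (st, h, f) :: s2) →
      L.GG U (s1 ++ (st', h', update f γ a') :: s2))
    (hh : p ++ (.cell true (some γ), a) :: (.head st none, h) :: s ∈ L.LL U) :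
    p ++ (.cell true (some γ), a') :: (.head st' none, h') :: s ∈ L.LL U := by
  obtain ⟨bs, e, hv, hg⟩ := hh
  obtain ⟨b1, A, C, f, b2, rfl, rfl, rfl⟩ := loc_AH e
  have hB := (hv _ (List.mem_append_right _ List.mem_cons_self)).1
  refine mk1 (B' := ⟨A ++ [(some γ, a')], st', none, h', C, update f γ a'⟩) hv
    (fun _ => ⟨?_, by simp⟩) ?_ (by simp [Blk.flat, cl])
  · simp only [List.append_assoc, List.singleton_append] at hB ⊢
    exact ((hB.perm List.perm_middle).update a').perm List.perm_middle.symm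
  · simp only [List.map_append, List.map_cons, Blk.sem] at hg
    exact hm _ _ f (hB.tok (by simp)) hg

theorem s_HA {p s γ b b' st st' h h'}
    (hm : ∀ s1 s2 f st2 h2 g, g γ = b → L.GG U (s1 ++ (st, h, f) :: (st2, h2, g) :: s2) →
      L.GG U (s1 ++ (st', h', f) :: (st2, h2, update g γ b') :: s2))
    (hh : p ++ (.head st none, h) :: (.cell true (some γ), b) :: s ∈ L.LL U) :
    p ++ (.head st' none, h') :: (.cell true (some γ), b') :: s ∈ L.LL U := by
  obtain ⟨bs, e, hv, hg⟩ := hh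
  obtain ⟨b1, A, f, A2, st2, sr2, h2, C2, g, b2, rfl, rfl, rfl⟩ := loc_HA e
  have hB := (hv _ (List.mem_append_right _ (List.mem_cons_of_mem _ List.mem_cons_self))).1
  refine mk2 (B' := ⟨A, st', none, h', [], f⟩)
    (D' := ⟨(some γ, b') :: A2, st2, sr2, h2, C2, update g γ b'⟩) hv
    (fun hX => ⟨hX.1, by simp⟩) (fun hX => ⟨hB.update b', ?_⟩) ?_ (by simp [Blk.flat, cl])
  · intro σ hσ d hd
    rcases List.mem_cons.1 hd with rfl | hd
    · exact hX.2 σ hσ (some γ, b) List.mem_cons_self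
    · exact hX.2 σ hσ d (List.mem_cons_of_mem _ hd)
  · simp only [List.map_append, List.map_cons, Blk.sem] at hg
    exact hm _ _ f _ _ g (hB.tok (by simp)) hg

theorem s_HH {p s st st' h st2 st2' h2}
    (hm : ∀ s1 s2 f g, L.GG U (s1 ++ (st, h, f) :: (st2, h2, g) :: s2) →
      L.GG U (s1 ++ (st', h, f) :: (st2', h2, g) :: s2))
    (hh : p ++ (.head st none, h) :: (.head st2 none, h2) :: s ∈ L.LL U) :
    p ++ (.head st' none, h) :: (.head st2' none, h2) :: s ∈ L.LL U := by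
  obtain ⟨bs, e, hv, hg⟩ := hh
  obtain ⟨b1, A, f, C2, g, b2, rfl, rfl, rfl⟩ := loc_HH e
  refine mk2 (B' := ⟨A, st', none, h, [], f⟩) (D' := ⟨[], st2', none, h2, C2, g⟩) hv
    (fun hX => ⟨hX.1, by simp⟩) (fun hX => ⟨hX.1, by simp⟩) ?_ (by simp [Blk.flat])
  simp only [List.map_append, List.map_cons, Blk.sem] at hg
  exact hm _ _ f g hg

theorem z_dup {p s ar c c'} (hk : key c = key c') : p ++ cl ar c :: cl ar c' :: s ∉ L.LL U := by
  rintro ⟨bs, e, hv, -⟩
  obtain ⟨b1, A, st, sr, h, C, f, b2, l1, l2, rfl, -, ⟨rfl, rfl, rfl, rfl⟩ | ⟨rfl, rfl, rfl, rfl⟩⟩ :=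
    loc_cc (Or.inr rfl) e
  all_goals
    have hB := (hv _ (List.mem_append_right _ List.mem_cons_self)).1
    have := hB.inj (c := c) (c' := c') (by simp) (by simp) hk
    subst this
    have := hB.1
    simp [List.nodup_append] at this

theorem z_hit {p s k x st σ h} (hk : key (k, x) = key (σ, h)) :
    p ++ (.cell true k, x) :: (.head st (some σ), h) :: s ∉ L.LL U := by
  rintro ⟨bs, e, hv, -⟩
  obtain ⟨b1, A, C, f, b2, rfl, rfl, rfl⟩ := loc_AH e
  exact (hv _ (List.mem_append_right _ List.mem_cons_self)).2 σ rfl (k, x) (by simp) hk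

theorem bad0_sound (hU : L.up.Closed U) {p s} {a b : Ctl × I} (hb : Bad0 a.1 b.1) :
    p ++ a :: b :: s ∉ L.LL U := by
  obtain ⟨a, x⟩ := a
  obtain ⟨b, y⟩ := b
  cases hb with
  | rl k k' =>
    rintro ⟨bs, e, -, -⟩
    obtain ⟨_, _, _, _, _, _, _, _, _, _, -, h, -⟩ :=
      loc_cc (ar := true) (ar' := false) (c := (k, x)) (c' := (k', y)) (Or.inl rfl) e
    simp at h
  | dup ar γ => exact z_dup (c := (some γ, x)) (c' := (some γ, y)) rfl
  | miss st σ _ hy =>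
    rintro ⟨bs, e, hv, -⟩
    obtain ⟨b1, A, f, b2, rfl, -, -⟩ := loc_Hy hy e
    have hB := hv _ (List.mem_append_right _ List.mem_cons_self)
    obtain ⟨c, hc, hk⟩ := hB.1.has (σ, x)
    exact hB.2 σ rfl c (by simpa using hc) hk
  | hit st γ => exact z_hit rfl
  | inc s1 s2 r r' hne =>
    rintro ⟨bs, e, hv, u, -, hg⟩
    obtain ⟨b1, A, f, C2, g, b2, rfl, -, -⟩ := loc_HH e
    simp only [List.map_append, List.map_cons, Blk.sem] at hg
    exact hne (hg.adj rfl)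
  | fin μ n _ h1 h2 h3 =>
    rintro ⟨bs, e, hv, hg⟩
    obtain ⟨b1, A, C, f, b2, rfl, -, -⟩ := loc_head e
    simp only [List.map_append, List.map_cons, Blk.sem] at hg
    obtain ⟨u1, u2, h2', g', s3, σ0, -, -, -, -, hr, hu⟩ := hg.eng
    obtain ⟨κ, j, nw⟩ := μ
    obtain rfl : nw = false := h1
    rw [h3, List.take_length] at hr
    exact (hU _ _ _ _ _ u1 u2 (exp_sound hr)).1 h2 hu
  | ovf μ n _ h1 =>
    rintro ⟨bs, e, hv, hg⟩
    obtain ⟨b1, A, C, f, b2, rfl, -, -⟩ := loc_head e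
    simp only [List.map_append, List.map_cons, Blk.sem] at hg
    obtain ⟨u1, u2, h2', g', s3, σ0, -, -, -, hn, -⟩ := hg.eng
    omega

theorem badT_sound {p s o} {a b : Ctl × I} {x' y'} (hb : BadT o a.1 b.1)
    (hr : L.Rel o (modeK b.1) a.2 b.2 x' y') : p ++ a :: b :: s ∉ L.LL U := by
  obtain ⟨a, x⟩ := a
  obtain ⟨b, y⟩ := b
  cases hb with
  | dup ar => exact z_dup (c := (none, x)) (c' := (none, y)) (congrArg Sum.inl hr.2.2)
  | hit st => exact z_hit (congrArg Sum.inl hr.2.2)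
  | own μ n n' γ o o' h1 h2 h3 =>
    rintro ⟨bs, e, hv, hg⟩
    obtain ⟨b1, A, C, f, b2, rfl, -, -⟩ := loc_AH e
    have hB := (hv _ (List.mem_append_right _ List.mem_cons_self)).1
    have hf : f γ = x := hB.tok (by simp)
    simp only [List.map_append, List.map_cons, Blk.sem] at hg
    obtain ⟨h2', g, s3, e2⟩ := hg.lock_of_eng
    rw [e2] at hg
    obtain ⟨⟨f0, h0, g0⟩, a, h', hr', e3⟩ := hg.last h1 h2
    simp only [Prod.mk.injEq] at e3
    obtain ⟨rfl, rfl, rfl⟩ := e3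
    simp only [update_self] at hf
    subst hf
    exact hr'.excl h3 hr
  | frn μ n n' γ o o' h1 h2 h3 =>
    rintro ⟨bs, e, hv, hg⟩
    obtain ⟨b1, A, f, A2, st2, sr2, h2', C2, g, b2, rfl, -, -⟩ := loc_HA e
    have hB := (hv _ (List.mem_append_right _ (List.mem_cons_of_mem _ List.mem_cons_self))).1
    have hf : g γ = y := hB.tok (by simp)
    simp only [List.map_append, List.map_cons, Blk.sem] at hg
    obtain ⟨h3', g', s3, e2⟩ := hg.lock_of_eng
    simp only [List.cons.injEq, Prod.mk.injEq] at e2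
    obtain ⟨⟨rfl, -, -⟩, -⟩ := e2
    obtain ⟨⟨f0, h0, g0⟩, h', b, hr', e3⟩ := hg.last h1 h2
    simp only [Prod.mk.injEq] at e3
    obtain ⟨rfl, rfl, rfl⟩ := e3
    simp only [update_self] at hf
    subst hf
    exact hr'.excl h3 hr

theorem view_lj (f : Col → I) (h : I) : L.view (update f none (L.set h (L.dec (f none)))) =
    L.view f := by
  simp only [view, update_self, dec_set, Prod.mk.injEq, true_and]
  funext j; simp

theorem closed_LL (hU : L.up.Closed U) : L.Closed (L.LL U) := by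
  rintro κ ⟨a, x⟩ ⟨b, y⟩ ⟨a', x'⟩ ⟨b', y'⟩ p s ⟨hb, hr⟩
  cases hb with
  | z0 _ _ h => exact ⟨fun _ => bad0_sound hU h, by simp [isZ]⟩
  | zt o _ _ h => exact ⟨fun _ => badT_sound h (by simpa [opOf] using hr), by simp [isZ]⟩
  | com ar k1 k2 =>
    obtain ⟨rfl, rfl⟩ : x' = y ∧ y' = x := by simpa [opOf, Rel] using hr
    exact ⟨by simp [isZ], fun _ => ⟨s_com (c := (k1, _)) (c' := (k2, _)),
      s_com (c := (k2, _)) (c' := (k1, _))⟩⟩
  | pass k st sr h =>
    obtain ⟨rfl, rfl⟩ : x' = y ∧ y' = x := by simpa [opOf, Rel] using hr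
    exact ⟨by simp [isZ], fun _ => ⟨s_pass_fw, s_pass_bw fun σ hσ e =>
      h (by rw [hσ]; exact congrArg some (key_fst e).symm)⟩⟩
  | pne st =>
    obtain ⟨rfl, rfl, h⟩ : x' = y ∧ y' = x ∧ x ≠ y := by simpa [opOf, Rel] using hr
    refine ⟨by simp [isZ], fun _ => ⟨s_pass_fw, s_pass_bw fun σ hσ e => ?_⟩⟩
    obtain rfl := Option.some.inj hσ
    exact h (Sum.inl.inj e)
  | srch _ st σ h =>
    obtain ⟨rfl, rfl⟩ : x' = x ∧ y' = y := by simpa [opOf, Rel] using hr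
    exact ⟨by simp [isZ], fun _ => ⟨s_srch h, s_srch h⟩⟩
  | eng μ n h =>
    obtain ⟨rfl, rfl⟩ : x' = x ∧ y' = y := by simpa [opOf, Rel] using hr
    exact ⟨by simp [isZ], fun _ => ⟨s_HH fun _ _ _ _ => (GG.m_eng h).1,
      s_HH fun _ _ _ _ => (GG.m_eng h).2⟩⟩
  | mid κ j n n' h1 h2 h3 =>
    obtain ⟨rfl, rfl⟩ : x' = x ∧ y' = y := by simpa [opOf, Rel] using hr
    exact ⟨by simp [isZ], fun _ => ⟨s_HH fun _ _ _ _ => (GG.m_mid hU h1 h2 h3).1,
      s_HH fun _ _ _ _ => (GG.m_mid hU h1 h2 h3).2⟩⟩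
  | ref _ =>
    obtain rfl : x' = x := by simpa using hr
    refine ⟨by simp [isZ], fun _ => ?_⟩
    have := fun y y' => s_ref (L := L) (U := U) (p := p ++ [(a, x')]) (s := s) (h := y) (h' := y')
    simp only [List.append_assoc, List.singleton_append] at this
    exact ⟨this _ _, this _ _⟩
  | lj =>
    obtain ⟨rfl, rfl⟩ : x' = L.set y (L.dec x) ∧ y' = L.set x (L.dec y) := by
      simpa [opOf, Rel] using hr
    refine ⟨by simp [isZ], fun _ => ⟨s_AH ?_, s_AH ?_⟩⟩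
    · rintro s1 s2 f rfl hg
      exact hg.m_rdy (view_lj f y)
    · rintro s1 s2 f e hg
      refine hg.m_rdy ?_
      have := view_lj (L := L) f x
      rwa [e, dec_set, set_dec] at this
  | own μ n n' γ o h1 h2 =>
    have hr : L.Rel o μ.k x y x' y' := by simpa [opOf, modeK] using hr
    refine ⟨by simp [isZ], fun _ => ⟨s_AH ?_, s_AH ?_⟩⟩
    · rintro s1 s2 f rfl hg
      obtain ⟨h2', g, s3, rfl⟩ := hg.lock_of_eng
      exact (GG.m_step h1 h2 ⟨_, _, hr, rfl⟩).1 hg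
    · rintro s1 s2 f rfl hg
      obtain ⟨h2', g, s3, rfl⟩ := hg.lock_of_eng
      exact (GG.m_step h1 h2 ⟨f γ, y', by simpa using hr, by simp⟩).2 hg
  | frn μ n n' γ o h1 h2 =>
    have hr : L.Rel o .com x y x' y' := by simpa [opOf, modeK] using hr
    refine ⟨by simp [isZ], fun _ => ⟨s_HA ?_, s_HA ?_⟩⟩
    · rintro s1 s2 f st2 h2' g rfl hg
      obtain ⟨h3', g', s3, e2⟩ := hg.lock_of_eng
      simp only [List.cons.injEq, Prod.mk.injEq] at e2
      obtain ⟨⟨rfl, -, -⟩, -⟩ := e2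
      exact (GG.m_step h1 h2 ⟨_, _, hr, rfl⟩).1 hg
    · rintro s1 s2 f st2 h2' g rfl hg
      obtain ⟨h3', g', s3, e2⟩ := hg.lock_of_eng
      simp only [List.cons.injEq, Prod.mk.injEq] at e2
      obtain ⟨⟨rfl, -, -⟩, -⟩ := e2
      exact (GG.m_step h1 h2 ⟨x', g γ, by simpa using hr, by simp⟩).2 hg

end Lev

/-- the standard list of cells -/
noncomputable def canon [Fintype I] (f : Col → I) : List (Cell I) :=
  (Finset.univ.toList.map fun x => (none, x)) ++ Finset.univ.toList.map fun γ => (some γ, f γ)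

theorem full_canon [Fintype I] (f : Col → I) : Full f (canon f) := by
  refine ⟨List.nodup_append.2 ⟨?_, ?_, ?_⟩, ?_⟩
  · exact (Finset.nodup_toList _).map fun a b h => by simpa using h
  · exact (Finset.nodup_toList _).map fun a b h => by simpa using congrArg Prod.fst h
  · simp
  · rintro ⟨_ | γ, x⟩
    · simp [canon]
    · simp [canon, eq_comm]

theorem canon_length [Fintype I] (f : Col → I) : (canon f).length = Fintype.card I + 9 := by
  simp [canon]

namespace Lev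

variable {L : Lev I}

theorem descend [Fintype I] {U} (hU : L.up.Closed U) {u} (hu : u ∈ U) :
    ∃ w ∈ L.LL U, 2 * u.length ≤ w.length := by
  obtain ⟨x0, -⟩ := L.lab_surj .com
  let B : Ctl × (Fin 8 → I) → Blk I := fun a =>
    ⟨[], .rdy, none, x0, canon (mkf (L.set x0 a.1) a.2), mkf (L.set x0 a.1) a.2⟩
  refine ⟨fl (u.map B), ⟨u.map B, rfl, ?_, u, hu, ?_⟩, ?_⟩
  · intro X hX
    obtain ⟨a, -, rfl⟩ := List.mem_map.1 hX
    exact ⟨full_canon _, by simp [B]⟩
  · clear hu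
    induction u with
    | nil => exact .nil
    | cons a u ih =>
      have : L.view (mkf (L.set x0 a.1) a.2) = a := by simp [view]
      have h2 := GoodS.one (L := L) x0 (mkf (L.set x0 a.1) a.2) _ _ ih
      rwa [this] at h2
  · clear hu
    induction u with
    | nil => simp
    | cons a u ih =>
      simp only [List.map_cons, fl_cons, List.length_append, List.length_cons, Blk.flat, B,
        List.length_map, canon_length] at ih ⊢
      omega

end Lev

theorem long_words (n : ℕ) : ∀ (I : Type) [Fintype I] (L : Lev I),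
    ∃ U, L.Closed U ∧ ∃ w ∈ U, n + 1 ≤ w.length := by
  induction n with
  | zero =>
    intro I _ L
    obtain ⟨x0, -⟩ := L.lab_surj .com
    refine ⟨{[(.head .rdy none, x0)]}, fun κ a b a' b' p s _ => ?_, _, rfl, by simp⟩
    have : ∀ a b : Ctl × I, p ++ a :: b :: s ≠ [(.head .rdy none, x0)] := fun a b e => by
      have := congrArg List.length e
      simp only [List.length_append, List.length_cons, List.length_nil] at this
      omega
    simp [this]
  | succ n ih =>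
    intro I _ L
    obtain ⟨U, hU, u, hu, hn⟩ := ih _ L.up
    obtain ⟨w, hw, h⟩ := Lev.descend hU hu
    exact ⟨_, Lev.closed_LL hU, w, hw, by omega⟩

end Vale.Agent.P192
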