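import Vale.Agent.P193.St2

/-! Steinberg systems with some rows and columns removed; unipotent subgroups. -/

namespace Vale.Agent.P192

open Matrix Vale.Agent.P193

variable {ι : Type} {R : Type} [Ring R] {H : Type} [Group H]

structure IsSC (T S : Set ι) (x : ι → ι → R → H) : Prop where
  diag : ∀ i r, x i i r = 1
  row : ∀ i j r, i ∈ T → x i j r = 1
  col0 : ∀ i j r, j ∈ S → x i j r = 1
  add : ∀ i j r s, x i j (r + s) = x i j r * x i j s
  comm : ∀ i j k l r s, j ≠ k → i ≠ l → x i j r * x k l s = x k l s * x i j r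
  mul : ∀ i j k r s, i ≠ j → j ≠ k → i ≠ k → j ∉ S →
    x i j r * x j k s = x i k (r * s) * x j k s * x i j r

theorem isSC_of_isSt {x : ι → ι → R → H} (hx : IsSt x) : IsSC ∅ ∅ x :=
  ⟨hx.diag, by simp, by simp, hx.add, hx.comm, fun i j k r s a b c _ => hx.mul i j k r s a b c⟩

open Classical in
noncomputable def cut (S : Set ι) (x : ι → ι → R → H) (i j : ι) (r : R) : H :=
  if j ∈ S then 1 else x i j r

theorem cut_of_mem {S : Set ι} {x : ι → ι → R → H} {i j r} (h : j ∈ S) : cut S x i j r = 1 :=
  if_pos h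

theorem cut_of_not {S : Set ι} {x : ι → ι → R → H} {i j r} (h : j ∉ S) :
    cut S x i j r = x i j r := if_neg h

namespace IsSC

variable {T S : Set ι} {x : ι → ι → R → H} (hx : IsSC T S x)
include hx

theorem cut {T' S' : Set ι} (hT : T' ⊆ T) (hS : S ⊆ S') : IsSC T' S' (cut S' x) where
  diag i r := by unfold P192.cut; split_ifs; exacts [rfl, hx.diag i r]
  row i j r h := by unfold P192.cut; split_ifs; exacts [rfl, hx.row i j r (hT h)]
  col0 i j r h := cut_of_mem h
  add i j r s := by unfold P192.cut; split_ifs; exacts [by simp, hx.add i j r s]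
  comm i j k l r s h1 h2 := by
    unfold P192.cut; split_ifs; exacts [rfl, by simp, by simp, hx.comm i j k l r s h1 h2]
  mul i j k r s h1 h2 h3 h4 := by
    rw [cut_of_not h4]
    unfold P192.cut; split_ifs
    exacts [by simp, hx.mul i j k r s h1 h2 h3 fun h => h4 (hS h)]

theorem zero (i j : ι) : x i j 0 = 1 := by
  have := hx.add i j 0 0
  rw [add_zero] at this
  exact mul_left_cancel (a := x i j 0) (by rw [← this, mul_one])

theorem sq (h2 : ∀ r : R, r + r = 0) (i j : ι) (r : R) : x i j r * x i j r = 1 := by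
  rw [← hx.add, h2, hx.zero]

theorem inv (h2 : ∀ r : R, r + r = 0) (i j : ι) (r : R) : (x i j r)⁻¹ = x i j r :=
  inv_eq_of_mul_eq_one_right (hx.sq h2 i j r)

theorem mul' (h2 : ∀ r : R, r + r = 0) {i j k : ι} (r s : R) (h1 : i ≠ j) (h4 : j ≠ k)
    (h3 : i ≠ k) (hj : j ∉ S) : x j k s * x i j r = x i k (r * s) * (x i j r * x j k s) := by
  rw [hx.mul i j k r s h1 h4 h3 hj, ← mul_assoc, ← mul_assoc, hx.sq h2, one_mul]

theorem gen_ind (h2 : ∀ r : R, r + r = 0)
    (hgen : ∀ K : Subgroup H, (∀ i j r, x i j r ∈ K) → ∀ g, g ∈ K) {P : H → Prop} (h1 : P 1)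
    (hm : ∀ i j r g, P g → P (x i j r * g)) (g : H) : P g := by
  let K : Subgroup H :=
    { carrier := {g | ∀ h, P h → P (g * h) ∧ P (g⁻¹ * h)}
      one_mem' := fun h hh => by simpa using hh
      mul_mem' := fun {a b} ha hb h hh => by
        rw [_root_.mul_inv_rev, mul_assoc, mul_assoc]
        exact ⟨(ha _ (hb h hh).1).1, (hb _ (ha h hh).2).2⟩
      inv_mem' := fun {a} ha h hh => by rw [inv_inv]; exact (ha h hh).symm }
  simpa using (hgen K (fun i j r h hh => by rw [hx.inv h2]; simp [hm i j r h hh]) g 1 h1).1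

def hom (i j : ι) : Multiplicative R →* H where
  toFun r := x i j r.toAdd
  map_one' := hx.zero i j
  map_mul' _ _ := hx.add i j _ _

theorem col_pw (o : ι) : Pairwise fun i j =>
    ∀ (r s : Multiplicative R), Commute (hx.hom i o r) (hx.hom j o s) := by
  intro i i' _ r s
  show x i o _ * x i' o _ = x i' o _ * x i o _
  by_cases h : i = o
  · subst h; simp [hx.diag]
  by_cases h' : i' = o
  · subst h'; simp [hx.diag]
  exact hx.comm _ _ _ _ _ _ (Ne.symm h') h

variable [Fintype ι] [DecidableEq ι]

def col (o : ι) (u : ι → R) : H :=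
  MonoidHom.noncommPiCoprod (fun i => hx.hom i o) (hx.col_pw o)
    (fun i => Multiplicative.ofAdd (u i))

theorem col_zero (o : ι) : hx.col o 0 = 1 := map_one (MonoidHom.noncommPiCoprod _ _)

theorem col_add (o : ι) (u v : ι → R) : hx.col o (u + v) = hx.col o u * hx.col o v :=
  map_mul (MonoidHom.noncommPiCoprod _ _) (fun i => Multiplicative.ofAdd (u i))
    (fun i => Multiplicative.ofAdd (v i))

theorem col_single (o i : ι) (r : R) : hx.col o (Pi.single i r) = x i o r := by
  rw [col, IsSt.ofAdd_single, MonoidHom.noncommPiCoprod_mulSingle]; rfl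

theorem col_mem (o : ι) (K : Subgroup H) (u : ι → R) (h : ∀ i, x i o (u i) ∈ K) :
    hx.col o u ∈ K := by
  rw [col, MonoidHom.noncommPiCoprod_apply]
  exact Subgroup.noncommProd_mem _ _ fun i _ => h i

end IsSC

section
variable [DecidableEq ι]

/-- elementary operation on column vectors -/
def ea (k l : ι) (r : R) (v : ι → R) : ι → R := v + Pi.single k (r * v l)

theorem ea_self (k l : ι) (r : R) (v : ι → R) : ea k l r v k = v k + r * v l := by simp [ea]

theorem ea_ne {k i : ι} (h : i ≠ k) (l : ι) (r : R) (v : ι → R) : ea k l r v i = v i := by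
  simp [ea, h]

theorem el_mulVec [Fintype ι] {k l : ι} (h : k ≠ l) (r : R) (v : ι → R) :
    ((el k l r : (Matrix ι ι R)ˣ) : Matrix ι ι R) *ᵥ v = ea k l r v := by
  rw [el_val h, add_mulVec, one_mulVec, single_mulVec]; rfl

variable [Fintype ι]

/-- action on column vectors -/
def act (π : H →* (Matrix ι ι R)ˣ) (g : H) (v : ι → R) : ι → R :=
  ((π g : (Matrix ι ι R)ˣ) : Matrix ι ι R) *ᵥ v

theorem act_of_one {π : H →* (Matrix ι ι R)ˣ} {g} (h : π g = 1) (v) : act π g v = v := by
  rw [act, h, Units.val_one, one_mulVec]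

@[simp] theorem act_one (π : H →* (Matrix ι ι R)ˣ) (v) : act π 1 v = v :=
  act_of_one (map_one π) v

theorem act_mul (π : H →* (Matrix ι ι R)ˣ) (g h v) : act π (g * h) v = act π g (act π h v) := by
  simp [act, mulVec_mulVec]

theorem act_el {π : H →* (Matrix ι ι R)ˣ} {g} {k l : ι} {r} (h : π g = el k l r) (hkl : k ≠ l)
    (v) : act π g v = ea k l r v := by
  rw [act, h, el_mulVec hkl]

end

namespace IsSC

variable {T S : Set ι} {x : ι → ι → R → H} (hx : IsSC T S x) [Fintype ι] [DecidableEq ι]
include hx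

theorem conj_col {o k l : ι} (hkl : k ≠ l) (hk : k ≠ o) (hl : l ≠ o) (hS : l ∉ S) (a : R)
    (u : ι → R) : x k l a * hx.col o u = hx.col o (ea k l a u) * x k l a := by
  induction u using Pi.single_induction with
  | zero =>
    have : ea k l a (0 : ι → R) = 0 := by simp [ea]
    simp [hx.col_zero, this]
  | add u v hu hv =>
    have : ea k l a (u + v) = ea k l a u + ea k l a v := by
      simp only [ea, Pi.add_apply, mul_add, Pi.single_add]; abel
    rw [this, hx.col_add, hx.col_add, ← mul_assoc, hu, mul_assoc, hv, mul_assoc]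
  | single i r =>
    rw [ea, add_comm, hx.col_add, hx.col_single, hx.col_single]
    by_cases hi : i = l
    · subst hi
      rw [Pi.single_eq_same, hx.mul k i o a r hkl hl hk hS]
    · rw [Pi.single_eq_of_ne' hi, mul_zero, hx.zero, one_mul,
        hx.comm k l i o a r (Ne.symm hi) hk]

end IsSC

def UU (x : ι → ι → R → H) (rk : ι → ℕ) : Subgroup H :=
  Subgroup.closure {g | ∃ p q r, rk p < rk q ∧ g = x p q r}

theorem mem_UU (x : ι → ι → R → H) {rk : ι → ℕ} {p q} (h : rk p < rk q) (r) :
    x p q r ∈ UU x rk := Subgroup.subset_closure ⟨p, q, r, h, rfl⟩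

namespace IsSC

variable {T S : Set ι} {x : ι → ι → R → H} (hx : IsSC T S x) (h2 : ∀ r : R, r + r = 0)
include hx h2

theorem norm_UU (rk : ι → ℕ) {i j : ι} (hij : rk i ≤ rk j) (a : R) {g} (hg : g ∈ UU x rk) :
    x i j a * g * (x i j a)⁻¹ ∈ UU x rk := by
  classical
  induction hg using Subgroup.closure_induction with
  | one => simp
  | mul g g' _ _ h1 h3 =>
    have := (UU x rk).mul_mem h1 h3
    convert this using 1; group
  | inv g _ h1 =>
    have := (UU x rk).inv_mem h1
    convert this using 1; group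
  | mem g hg =>
    obtain ⟨p, q, r, hpq, rfl⟩ := hg
    have hm := mem_UU x hpq r
    by_cases e : i = j
    · subst e; simpa [hx.diag] using hm
    by_cases hj : j ∈ S
    · simpa [hx.col0 i j a hj] using hm
    by_cases hq : q ∈ S
    · simp [hx.col0 p q r hq]
    have hpq' : p ≠ q := fun h => by simp [h] at hpq
    by_cases h1 : j = p
    · subst h1
      have h3 : i ≠ q := fun h => by subst h; omega
      rw [hx.mul i j q a r e hpq' h3 hj, mul_inv_cancel_right]
      exact (UU x rk).mul_mem (mem_UU x (by omega) _) hm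
    by_cases h3 : i = q
    · subst h3
      rw [hx.mul' h2 r a hpq' e (Ne.symm h1) hq, mul_assoc, mul_inv_cancel_right]
      exact (UU x rk).mul_mem (mem_UU x (by omega) _) hm
    rw [hx.comm i j p q a r h1 h3, mul_inv_cancel_right]
    exact hm

theorem norm_UU' (rk : ι → ℕ) {p} (hp : p ∈ Subgroup.closure
    {g | ∃ i j a, rk i ≤ rk j ∧ g = x i j a}) : ∀ g ∈ UU x rk, p * g * p⁻¹ ∈ UU x rk := by
  have : (∀ g ∈ UU x rk, p * g * p⁻¹ ∈ UU x rk) ∧ ∀ g ∈ UU x rk, p⁻¹ * g * p ∈ UU x rk := by
    induction hp using Subgroup.closure_induction with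
    | one => simp
    | mul a b _ _ h1 h3 =>
      refine ⟨fun g hg => ?_, fun g hg => ?_⟩
      · have := h1.1 _ (h3.1 g hg); convert this using 1; group
      · have := h3.2 _ (h1.2 g hg); convert this using 1; group
    | inv a _ h1 => rw [inv_inv]; exact h1.symm
    | mem a ha =>
      obtain ⟨i, j, a, h, rfl⟩ := ha
      refine ⟨fun g hg => hx.norm_UU h2 rk h a hg, fun g hg => ?_⟩
      have := hx.norm_UU h2 rk h a hg
      rwa [hx.inv h2] at this ⊢
  exact this.1

variable [Fintype ι] [DecidableEq ι] (π : H →* (Matrix ι ι R)ˣ)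
  (hπ : ∀ i j r, j ∉ S → π (x i j r) = el i j r)
include hπ

theorem tri_inj (rk : ι → ℕ) {g} (hg : g ∈ UU x rk) (h1 : π g = 1) : g = 1 := by
  classical
  let UF : Finset ι → Subgroup H := fun F =>
    Subgroup.closure {g | ∃ p q r, q ∈ F ∧ rk p < rk q ∧ g = x p q r}
  suffices h : ∀ F : Finset ι, ∀ g ∈ UF F, π g = 1 → g = 1 from
    h Finset.univ g (by simpa [UF, UU] using hg) h1
  intro F
  induction F using Finset.induction_on_max_value rk with
  | empty => intro g hg _; simpa [UF] using hg
  | insert q F hq hmax ih =>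
    by_cases hqS : q ∈ S
    · intro g hg
      refine ih g (Subgroup.closure_le _ |>.2 ?_ hg)
      rintro _ ⟨p, q', r, h1, h3, rfl⟩
      rcases Finset.mem_insert.1 h1 with rfl | h1
      · rw [hx.col0 _ _ _ hqS]; exact Subgroup.one_mem _
      · exact Subgroup.subset_closure ⟨p, q', r, h1, h3, rfl⟩
    have hfix : ∀ u ∈ UF F, act π u (Pi.single q 1) = Pi.single q 1 := by
      intro u hu
      induction hu using Subgroup.closure_induction with
      | one => simp
      | mul a b _ _ h1 h3 => rw [act_mul, h3, h1]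
      | inv a _ h1 =>
        conv_lhs => rw [← h1]
        rw [← act_mul, inv_mul_cancel, act_one]
      | mem a ha =>
        obtain ⟨p, q', r, h1, h3, rfl⟩ := ha
        by_cases h4 : q' ∈ S
        · simp [hx.col0 _ _ _ h4]
        have : q' ≠ q := fun h => hq (h ▸ h1)
        rw [act_el (hπ _ _ _ h4) (fun h => by simp [h] at h3)]
        simp [ea, this]
    have hcol : ∀ w : ι → R, act π (hx.col q w) (Pi.single q 1) = Function.update w q 1 := by
      have : ∀ w v : ι → R, act π (hx.col q w) v =
          v + fun i => Function.update w q 0 i * v q := by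
        intro w
        induction w using Pi.single_induction with
        | zero => intro v; ext i; simp [hx.col_zero]
        | add a b ha hb =>
          intro v
          rw [hx.col_add, act_mul, hb, ha]
          ext i
          by_cases hi : i = q
          · simp [hi]
          · simp [hi, add_mul]; abel
        | single i r =>
          intro v
          rw [hx.col_single]
          by_cases hi : i = q
          · subst hi; ext k; by_cases hk : k = i <;> simp [hx.diag, hk]
          · rw [act_el (hπ _ _ _ hqS) hi]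
            ext k
            by_cases hk : k = q
            · subst hk; simp [ea, Ne.symm hi]
            · by_cases hki : k = i
              · subst hki; simp [ea, hk]
              · simp [ea, hk, hki]
      intro w
      rw [this]
      ext i
      by_cases hi : i = q <;> simp [hi]
    have dec : ∀ g ∈ UF (insert q F), ∃ w, ∃ u ∈ UF F, g = hx.col q w * u := by
      have hn : ∀ u ∈ UF F, (∀ w, ∃ w', u * hx.col q w = hx.col q w' * u) ∧
          ∀ w, ∃ w', u⁻¹ * hx.col q w = hx.col q w' * u⁻¹ := by
        intro u hu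
        induction hu using Subgroup.closure_induction with
        | one => exact ⟨fun w => ⟨w, by simp⟩, fun w => ⟨w, by simp⟩⟩
        | mul a b _ _ h1 h3 =>
          refine ⟨fun w => ?_, fun w => ?_⟩
          · obtain ⟨w1, e1⟩ := h3.1 w
            obtain ⟨w2, e2⟩ := h1.1 w1
            exact ⟨w2, by rw [mul_assoc, e1, ← mul_assoc, e2, mul_assoc]⟩
          · obtain ⟨w1, e1⟩ := h1.2 w
            obtain ⟨w2, e2⟩ := h3.2 w1
            exact ⟨w2, by rw [_root_.mul_inv_rev, mul_assoc, e1, ← mul_assoc, e2, mul_assoc]⟩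
        | inv a _ h1 => rw [inv_inv]; exact h1.symm
        | mem a ha =>
          obtain ⟨p, q', r, h1, h3, rfl⟩ := ha
          rw [hx.inv h2, and_self]
          intro w
          by_cases h4 : q' ∈ S
          · exact ⟨w, by simp [hx.col0 _ _ _ h4]⟩
          have := hmax q' h1
          exact ⟨_, hx.conj_col (fun h => by simp [h] at h3) (fun h => by subst h; omega)
            (fun h => hq (by rw [← h]; exact h1)) h4 r w⟩
      intro g hg
      induction hg using Subgroup.closure_induction with
      | one => exact ⟨0, 1, Subgroup.one_mem _, by simp [hx.col_zero]⟩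
      | mul a b _ _ h1 h3 =>
        obtain ⟨w1, u1, hu1, rfl⟩ := h1
        obtain ⟨w2, u2, hu2, rfl⟩ := h3
        obtain ⟨w3, e⟩ := (hn u1 hu1).1 w2
        exact ⟨w1 + w3, u1 * u2, Subgroup.mul_mem _ hu1 hu2, by
          rw [hx.col_add, mul_assoc, ← mul_assoc u1, e]; group⟩
      | inv a _ h1 =>
        obtain ⟨w1, u1, hu1, rfl⟩ := h1
        obtain ⟨w3, e⟩ := (hn u1 hu1).2 (-w1)
        refine ⟨w3, u1⁻¹, Subgroup.inv_mem _ hu1, ?_⟩
        rw [← e, _root_.mul_inv_rev]
        congr 1
        exact inv_eq_of_mul_eq_one_right (by rw [← hx.col_add, add_neg_cancel, hx.col_zero])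
      | mem a ha =>
        obtain ⟨p, q', r, h1, h3, rfl⟩ := ha
        rcases Finset.mem_insert.1 h1 with rfl | h1
        · exact ⟨Pi.single p r, 1, Subgroup.one_mem _, by simp [hx.col_single]⟩
        · exact ⟨0, _, Subgroup.subset_closure ⟨p, q', r, h1, h3, rfl⟩, by simp [hx.col_zero]⟩
    intro g hg h1
    obtain ⟨w, u, hu, rfl⟩ := dec g hg
    have e : Function.update w q 1 = Pi.single q 1 := by
      rw [← hcol, ← hfix u hu, ← act_mul, act_of_one h1, hfix u hu]
    have e2 : w = Pi.single q (w q) := by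
      ext i
      by_cases hi : i = q
      · simp [hi]
      · simpa [hi] using congrFun e i
    rw [e2, hx.col_single, hx.diag, one_mul] at h1 ⊢
    exact ih u hu h1

theorem tri_eq (rk : ι → ℕ) {g g'} (hg : g ∈ UU x rk) (hg' : g' ∈ UU x rk) (h1 : π g = π g') :
    g = g' := by
  rw [← mul_inv_eq_one]
  exact hx.tri_inj h2 π hπ rk (Subgroup.mul_mem _ hg (Subgroup.inv_mem _ hg')) (by simp [h1])

end IsSC

end Vale.Agent.P192
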