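import Vale.Agent.P192.StC

/-! Stabilisers of unimodular vectors over a local ring with residue field of order two. -/

namespace Vale.Agent.P192

open Matrix Vale.Agent.P193

variable {ι : Type} {R : Type} [Ring R] {H : Type} [Group H]

/-- local ring of characteristic two with residue map `ε` -/
structure Loc (ε : R →+* ZMod 2) : Prop where
  two : ∀ r : R, r + r = 0
  unit : ∀ r, ε r = 1 → IsUnit r

theorem eps_unit (ε : R →+* ZMod 2) (u : Rˣ) : ε u = 1 := by
  have : ε u * ε ↑u⁻¹ = 1 := by rw [← map_mul, Units.mul_inv, map_one]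
  revert this
  generalize ε u = a
  generalize ε ↑u⁻¹ = b
  revert a b; decide

theorem z2_cases (a : ZMod 2) : a = 0 ∨ a = 1 := by revert a; decide

def WW (ε : R →+* ZMod 2) (S : Set ι) (v : ι → R) : Prop := ∃ i, i ∉ S ∧ ε (v i) = 1

theorem WW.mono {ε : R →+* ZMod 2} {S S' : Set ι} {v} (h : WW ε S v) (hS : S' ⊆ S) :
    WW ε S' v := by
  obtain ⟨i, hi, h⟩ := h
  exact ⟨i, fun h => hi (hS h), h⟩

theorem WW.ea [DecidableEq ι] {ε : R →+* ZMod 2} {S : Set ι} {v} (h : WW ε S v) {k l : ι}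
    (hkl : k ≠ l) (hl : l ∉ S) (r : R) : WW ε S (ea k l r v) := by
  obtain ⟨i, hi, h⟩ := h
  by_cases e : i = k
  · subst e
    rcases z2_cases (ε (v l)) with h0 | h1
    · exact ⟨i, hi, by rw [ea_self, map_add, map_mul, h, h0]; simp⟩
    · exact ⟨l, hl, by rw [ea_ne hkl.symm, h1]⟩
  · exact ⟨i, hi, by rw [ea_ne e, h]⟩

def Fx {Y : Type} [MulAction H Y] (x : ι → ι → R → H) (i : ι) (η : Y) : Prop :=
  ∀ k l r, l ≠ i → x k l r • η = η

namespace IsSC

variable {S : Set ι} {x : ι → ι → R → H} (hx : IsSC ∅ S x) (h2 : ∀ r : R, r + r = 0)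
  {Y : Type} [MulAction H Y]
include hx

theorem sm_comm {i j k l : ι} (r s : R) (h1 : j ≠ k) (h3 : i ≠ l) (η : Y) :
    x i j r • x k l s • η = x k l s • x i j r • η := by
  rw [smul_smul, hx.comm i j k l r s h1 h3, mul_smul]

theorem sm_mul {i j k : ι} (r s : R) (h1 : i ≠ j) (h4 : j ≠ k) (h3 : i ≠ k) (hj : j ∉ S)
    (η : Y) : x i j r • x j k s • η = x i k (r * s) • x j k s • x i j r • η := by
  rw [smul_smul, hx.mul i j k r s h1 h4 h3 hj, mul_smul, mul_smul]

include h2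

theorem sm_sq (i j : ι) (r : R) (η : Y) : x i j r • x i j r • η = η := by
  rw [smul_smul, hx.sq h2, one_smul]

theorem sm_mul' {i j k : ι} (r s : R) (h1 : i ≠ j) (h4 : j ≠ k) (h3 : i ≠ k) (hj : j ∉ S)
    (η : Y) : x j k s • x i j r • η = x i k (r * s) • x i j r • x j k s • η := by
  rw [smul_smul, hx.mul' h2 r s h1 h4 h3 hj, mul_smul, mul_smul]

theorem fx_tw (h3 : ∀ i j, ∃ m, m ∉ S ∧ m ≠ i ∧ m ≠ j) {i j : ι} {η : Y} (hη : Fx x i η)
    (hij : i ≠ j) (hi : i ∉ S) (hj : j ∉ S) (u : Rˣ) :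
    Fx x j (x i j ↑u⁻¹ • x j i u • η) := by
  have c1 : ∀ l r, l ≠ j → l ≠ i → x i l r • x i j ↑u⁻¹ • x j i u • η =
      x i j ↑u⁻¹ • x j i u • η := by
    intro l r h4 h5
    rw [hx.sm_comm _ _ h5 hij, hx.sm_mul' h2 _ _ hij.symm h5.symm h4.symm hi, hη i l r h5,
      hx.sm_comm _ _ h4 hij.symm, hη j l _ h5]
  have c2 : ∀ k l r, l ≠ j → l ≠ i → x k l r • x i j ↑u⁻¹ • x j i u • η =
      x i j ↑u⁻¹ • x j i u • η := by
    intro k l r h4 h5
    by_cases e1 : k = i
    · rw [e1]; exact c1 l r h4 h5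
    by_cases e2 : k = j
    · rw [e2, hx.sm_mul' h2 _ _ hij h4.symm h5.symm hj, hx.sm_comm _ _ h4 hij.symm, hη j l r h5]
      exact c1 l _ h4 h5
    rw [hx.sm_comm _ _ h5 e2, hx.sm_comm _ _ h4 e1, hη k l r h5]
  have c3 : ∀ k r, k ≠ j → x k i r • x i j ↑u⁻¹ • x j i u • η = x i j ↑u⁻¹ • x j i u • η := by
    intro k r e2
    by_cases e1 : k = i
    · rw [e1, hx.diag, one_smul]
    rw [hx.sm_mul _ _ e1 hij e2 hi, hx.sm_comm _ _ hij.symm e2, hx.sm_comm r _ hij e1,
      hx.sm_mul _ _ e2 hij.symm e1 hj, mul_assoc, Units.inv_mul, mul_one,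
      hx.sm_comm _ r (Ne.symm e2) e1, hη k j _ hij.symm, hx.sm_comm r _ hij e1, hx.sm_sq h2]
  intro k l r hl
  by_cases e : l = i
  swap
  · exact c2 k l r hl e
  subst e
  by_cases e2 : k = j
  swap
  · exact c3 k r e2
  subst e2
  obtain ⟨m, hm, hm1, hm2⟩ := h3 l k
  have := hx.sm_mul r 1 hm2.symm hm1 hij.symm hm (x l k ↑u⁻¹ • x k l u • η)
  rwa [c3 m 1 hm2, c2 k m r hm2 hm1, c3 m 1 hm2, mul_one, eq_comm] at this

theorem lemA {a i j : ι} {η : Y} (hη : Fx x a η) (hij : i ≠ j) (hia : i ≠ a) (hja : j ≠ a)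
    (ha : a ∉ S) (hi : i ∉ S) (hj : j ∉ S) (u u' : Rˣ) :
    x j i (u' * ↑u⁻¹) • x a i ↑u⁻¹ • x i a u • η =
      x i j (u * ↑u'⁻¹) • x a j ↑u'⁻¹ • x j a u' • η := by
  rw [hx.sm_comm _ _ hia hij.symm, hx.sm_mul _ _ hij.symm hia hja hi, hη j i _ hia,
    hx.sm_comm (i := i) _ _ hja hij, mul_assoc, Units.inv_mul, mul_one,
    hx.sm_comm (i := j) _ _ hia.symm hja]
  have e : x i a u • x j a u' • η = x i j (u * ↑u'⁻¹) • x j a u' • η := by
    rw [hx.sm_mul _ _ hij hja hia hj, hη i j _ hja, mul_assoc, Units.inv_mul, mul_one]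
  rw [e, hx.sm_mul _ _ hia.symm hij hja.symm hi, ← mul_assoc, Units.inv_mul, one_mul,
    hx.sm_mul' h2 _ _ hja hia.symm hij.symm ha, hη a i _ hia,
    hx.sm_comm (i := j) (j := i) _ _ hij hja, hη j i _ hia]

variable [Fintype ι] [DecidableEq ι]

omit h2 in
theorem chart1 {i k : ι} (hk : k ≠ i) (u : Rˣ) (η : Y) (r : R) {v : ι → R} (hv : v i = u) :
    x k i r • hx.col i (fun k => v k * ↑u⁻¹) • η =
      hx.col i (fun k' => ea k i r v k' * ↑u⁻¹) • η := by
  rw [smul_smul, ← hx.col_single, ← hx.col_add]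
  congr 2
  ext k'
  by_cases e : k' = k
  · subst e; simp [ea, hv, add_mul, add_comm]
  · simp [ea, e]

omit h2 in
theorem chart2 {i k l : ι} (hkl : k ≠ l) (hk : k ≠ i) (hl : l ≠ i) (hS : l ∉ S) (u : R) {η : Y}
    (hη : Fx x i η) (r : R) (v : ι → R) :
    x k l r • hx.col i (fun k => v k * u) • η = hx.col i (fun k' => ea k l r v k' * u) • η := by
  rw [smul_smul, hx.conj_col hkl hk hl hS, mul_smul, hη k l r hl]
  congr 2
  ext k'
  by_cases e : k' = k
  · subst e; simp [ea, add_mul, mul_assoc]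
  · simp [ea, e]

omit h2 in
theorem agree {i j : ι} (hij : i ≠ j) (hi : i ∉ S) (u u' : Rˣ) {η η' : Y} (hη' : Fx x j η')
    (hA : x j i (u' * ↑u⁻¹) • η = x i j (u * ↑u'⁻¹) • η') (v : ι → R) (h1 : v i = u)
    (h3 : v j = u') :
    hx.col i (fun k => v k * ↑u⁻¹) • η = hx.col j (fun k => v k * ↑u'⁻¹) • η' := by
  suffices h : ∀ F : Finset ι, ∀ v : ι → R, v i = u → v j = u' →
      (∀ k, k ∉ F → k ≠ i → k ≠ j → v k = 0) →
      hx.col i (fun k => v k * ↑u⁻¹) • η = hx.col j (fun k => v k * ↑u'⁻¹) • η' from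
    h Finset.univ v h1 h3 (by simp)
  intro F
  induction F using Finset.induction_on with
  | empty =>
    intro v h1 h3 h4
    have e : ∀ c : R, (fun k => v k * c) = Pi.single i (u * c) + Pi.single j (u' * c) := by
      intro c
      ext k
      by_cases e1 : k = i
      · subst e1; simp [hij, h1]
      by_cases e2 : k = j
      · subst e2; simp [e1, h3]
      simp [e1, e2, h4 k (by simp) e1 e2]
    rw [e, e, hx.col_add, hx.col_add]
    simp only [hx.col_single, hx.diag, one_mul, mul_one, hA]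
  | insert k F hk ih =>
    intro v h1 h3 h4
    by_cases e : k = i ∨ k = j
    · refine ih v h1 h3 fun k' hk' e1 e2 => h4 k' ?_ e1 e2
      rcases e with rfl | rfl <;> simp [hk', e1, e2]
    push Not at e
    have hv : v = ea k i (v k * ↑u⁻¹) (Function.update v k 0) := by
      ext k'
      by_cases e' : k' = k
      · subst e'; simp [ea, e.1.symm, h1]
      · simp [ea, e']
    have h1' : Function.update v k 0 i = u := by simp [e.1.symm, h1]
    rw [hv, ← hx.chart1 e.1 u η _ h1', ← hx.chart2 e.1 e.2 hij hi _ hη',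
      ih _ h1' (by simp [e.2.symm, h3])]
    intro k' hk' e1 e2
    by_cases e' : k' = k
    · simp [e']
    · simpa [e'] using h4 k' (by simp [e', hk']) e1 e2

omit h2 in
theorem exists_sec {ε : R →+* ZMod 2} (hL : Loc ε) (h3 : ∀ i j, ∃ m, m ∉ S ∧ m ≠ i ∧ m ≠ j)
    {a : ι} (ha : a ∉ S) {y0 : Y} (hy0 : Fx x a y0) :
    ∃ y : (ι → R) → Y, y (Pi.single a 1) = y0 ∧ ∀ v, WW ε S v → ∀ k l r, k ≠ l → l ∉ S →
      x k l r • y v = y (ea k l r v) := by
  classical
  have h2 := hL.two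
  obtain ⟨j0, hj0, hj0a, -⟩ := h3 a a
  let b' : ι → Rˣ → Y := fun i u => x a i ↑u⁻¹ • x i a u • y0
  let b : ι → Rˣ → Y := fun i u => if i = a then x j0 a ↑u⁻¹ • x a j0 u • b' j0 1 else b' i u
  have fb' : ∀ i u, i ∉ S → i ≠ a → Fx x i (b' i u) := fun i u hi hia =>
    hx.fx_tw h2 h3 hy0 hia.symm ha hi u
  have fb : ∀ i u, i ∉ S → Fx x i (b i u) := by
    intro i u hi
    simp only [b]
    split_ifs with h
    · subst h; exact hx.fx_tw h2 h3 (fb' j0 1 hj0 hj0a) hj0a hj0 hi u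
    · exact fb' i u hi h
  let YY : ι → Rˣ → (ι → R) → Y := fun i u v => hx.col i (fun k => v k * ↑u⁻¹) • b i u
  let Ag : ι → ι → Prop := fun i j =>
    ∀ (u u' : Rˣ) (v : ι → R), v i = u → v j = u' → YY i u v = YY j u' v
  have ag1 : ∀ i j, i ∉ S → j ∉ S → i ≠ j → i ≠ a → j ≠ a → Ag i j := by
    intro i j hi hj hij hia hja u u' v h1 h4
    refine hx.agree hij hi u u' (fb j u' hj) ?_ v h1 h4
    simp only [b, if_neg hia, if_neg hja]
    exact hx.lemA h2 hy0 hij hia hja ha hi hj u u'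
  have ag2 : ∀ j, j ∉ S → j ≠ a → j ≠ j0 → Ag a j := by
    intro j hj hja hj0' u u' v h1 h4
    refine hx.agree hja.symm ha u u' (fb j u' hj) ?_ v h1 h4
    simp only [b, if_true, if_neg hja]
    rw [hx.lemA h2 (fb' j0 1 hj0 hj0a) hja.symm hj0a.symm hj0' hj0 ha hj u u']
    congr 1
    have := hx.lemA h2 hy0 hj0'.symm hj0a hja ha hj0 hj 1 u'
    simp only [inv_one, Units.val_one, mul_one, one_mul] at this
    simp only [b', inv_one, Units.val_one]
    rw [this, hx.sm_sq h2]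
  have ag3 : Ag a j0 := by
    intro u u' v h1 h4
    obtain ⟨m, hm, hma, hm0⟩ := h3 a j0
    let t : R := (1 - v m) * ↑u⁻¹
    have e0 : ea m a t v m = ((1 : Rˣ) : R) := by simp [ea, t, h1]
    have e1 : x m a t • YY a u v = YY a u (ea m a t v) := hx.chart1 hma u _ t h1
    have e2 : x m a t • YY j0 u' v = YY j0 u' (ea m a t v) :=
      hx.chart2 hma hm0 hj0a.symm ha _ (fb j0 u' hj0) t v
    rw [ag2 m hm hma hm0 u 1 _ (by rw [ea_ne hma.symm, h1]) e0,
      ag1 m j0 hm hj0 hm0 hma hj0a 1 u' _ e0 (by rw [ea_ne hm0.symm, h4]), ← e2] at e1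
    exact MulAction.injective _ e1
  have ag : ∀ i j, i ∉ S → j ∉ S → Ag i j := by
    have aa : ∀ j, j ∉ S → j ≠ a → Ag a j := fun j hj hja => by
      by_cases h : j = j0
      · rw [h]; exact ag3
      · exact ag2 j hj hja h
    intro i j hi hj
    by_cases hij : i = j
    · subst hij
      intro u u' v h1 h4
      rw [Units.ext (h1.symm.trans h4)]
    by_cases hia : i = a
    · subst hia; exact aa j hj (Ne.symm hij)
    by_cases hja : j = a
    · subst hja; exact fun u u' v h1 h4 => (aa i hi hij u' u v h4 h1).symm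
    exact ag1 i j hi hj hij hia hja
  let y : (ι → R) → Y := fun v =>
    if h : WW ε S v then YY h.choose (hL.unit _ h.choose_spec.2).unit v else y0
  have hy : ∀ (v : ι → R) i (u : Rˣ), i ∉ S → v i = u → y v = YY i u v := by
    intro v i u hi hv
    have h : WW ε S v := ⟨i, hi, by rw [hv, eps_unit]⟩
    simp only [y, dif_pos h]
    exact ag _ _ h.choose_spec.1 hi _ _ _ (IsUnit.unit_spec _).symm hv
  have g1 : ∀ (v : ι → R) k l r i, k ≠ l → l ∉ S → i ∉ S → i ≠ k → ε (v i) = 1 →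
      x k l r • y v = y (ea k l r v) := by
    intro v k l r i hkl hl hi hik hv
    obtain ⟨u, hu⟩ := hL.unit _ hv
    rw [hy v i u hi hu.symm, hy _ i u hi (by rw [ea_ne hik, hu])]
    by_cases e : l = i
    · subst e; exact hx.chart1 hkl u _ r hu.symm
    · exact hx.chart2 hkl hik.symm e hl _ (fb i u hi) r v
  refine ⟨y, ?_, ?_⟩
  · rw [hy _ a 1 ha (by simp)]
    simp only [YY, b, b', if_true, inv_one, Units.val_one, mul_one]
    rw [show (fun k => (Pi.single a 1 : ι → R) k) = Pi.single a 1 from rfl, hx.col_single,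
      hx.diag, one_smul, hx.sm_sq h2, hx.sm_sq h2]
  rintro v ⟨i, hi, hv⟩ k l r hkl hl
  by_cases hc : ∃ i, i ∉ S ∧ i ≠ k ∧ ε (v i) = 1
  · obtain ⟨i, h4, h5, h6⟩ := hc
    exact g1 v k l r i hkl hl h4 h5 h6
  push Not at hc
  obtain rfl : i = k := by by_contra h; exact hc i hi h hv
  obtain ⟨m, hm, hmk, hml⟩ := h3 i l
  have z1 : ε (v l) = 0 := (z2_cases _).resolve_right (hc l hl hkl.symm)
  have z2 : ε (v m) = 0 := (z2_cases _).resolve_right (hc m hm hmk)
  have e := hx.sm_mul 1 r hmk hkl hml hi (y v)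
  rw [g1 v m i 1 i hmk hi hi hmk.symm hv,
    g1 (ea m i 1 v) i l r m hkl hl hm hmk (by simp [ea_self, z2, hv]),
    g1 _ m l _ i hml hl hi hmk.symm (by
      rw [ea_self, ea_ne hmk.symm, ea_ne hml.symm]; simp [z1, hv])] at e
  rw [← hx.sm_sq h2 m i 1 (x i l r • y v), e, g1 _ m i 1 i hmk hi hi hmk.symm (by
      rw [ea_ne hmk.symm, ea_self, ea_ne hmk.symm, ea_ne hml.symm]; simp [z1, hv])]
  congr 1
  ext k'
  by_cases e' : k' = m
  · subst e'
    simp only [ea_self, ea_ne hmk.symm, ea_ne hml.symm, ea_ne hmk, ea_ne hkl.symm, one_mul]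
    rw [add_assoc, add_assoc, ← add_assoc (v i), h2, add_zero]
  · simp only [ea_ne e']
    by_cases e'' : k' = i
    · subst e''; simp only [ea_self, ea_ne hmk.symm, ea_ne hml.symm]
    · simp only [ea_ne e'', ea_ne e']

omit h2 in
theorem act_WW {ε : R →+* ZMod 2} (hL : Loc ε)
    (hgen : ∀ K : Subgroup H, (∀ i j r, x i j r ∈ K) → ∀ g, g ∈ K)
    (π : H →* (Matrix ι ι R)ˣ) (hπ : ∀ i j r, j ∉ S → π (x i j r) = el i j r) (g : H) :
    ∀ v, WW ε S v → WW ε S (act π g v) := by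
  refine hx.gen_ind hL.two hgen (P := fun g => ∀ v, WW ε S v → WW ε S (act π g v))
    (by simp) (fun i j r g hg v hv => ?_) g
  by_cases e : i = j
  · subst e; rw [hx.diag, one_mul]; exact hg v hv
  by_cases hj : j ∈ S
  · rw [hx.col0 _ _ _ hj, one_mul]; exact hg v hv
  rw [act_mul, act_el (hπ _ _ _ hj) e]
  exact (hg v hv).ea e hj r

omit h2 in
theorem stab_mem {ε : R →+* ZMod 2} (hL : Loc ε) (h3 : ∀ i j, ∃ m, m ∉ S ∧ m ≠ i ∧ m ≠ j)
    (hgen : ∀ K : Subgroup H, (∀ i j r, x i j r ∈ K) → ∀ g, g ∈ K)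
    (π : H →* (Matrix ι ι R)ˣ) (hπ : ∀ i j r, j ∉ S → π (x i j r) = el i j r)
    {a : ι} (ha : a ∉ S) {g : H} (hg : act π g (Pi.single a 1) = Pi.single a 1) :
    g ∈ Subgroup.closure {g | ∃ k l r, l ≠ a ∧ g = x k l r} := by
  set K := Subgroup.closure {g | ∃ k l r, l ≠ a ∧ g = x k l r}
  obtain ⟨y, hy0, hy⟩ := hx.exists_sec (Y := H ⧸ K) hL h3 ha (y0 := ((1 : H) : H ⧸ K)) (by
    intro k l r hl
    rw [MulAction.Quotient.smul_mk, eq_comm, QuotientGroup.eq]
    have : x k l r ∈ K := Subgroup.subset_closure ⟨k, l, r, hl, rfl⟩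
    simpa using this)
  have : ∀ g v, WW ε S v → g • y v = y (act π g v) := by
    intro g
    refine hx.gen_ind hL.two hgen (P := fun g => ∀ v, WW ε S v → g • y v = y (act π g v))
      (by simp) (fun i j r g hg v hv => ?_) g
    by_cases e : i = j
    · subst e; rw [hx.diag, one_mul]; exact hg v hv
    by_cases hj : j ∈ S
    · rw [hx.col0 _ _ _ hj, one_mul]; exact hg v hv
    rw [act_mul, act_el (hπ _ _ _ hj) e, mul_smul, hg v hv,
      hy _ (hx.act_WW hL hgen π hπ g v hv) _ _ _ e hj]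
  have h1 := this g (Pi.single a 1) ⟨a, ha, by simp⟩
  rw [hg, hy0, MulAction.Quotient.smul_mk, eq_comm, QuotientGroup.eq] at h1
  simpa using h1

omit hx h2 in
theorem trans_WW {ε : R →+* ZMod 2} (hL : Loc ε) {a j0 : ι} (ha : a ∉ S) (hj0 : j0 ∉ S)
    (hj0a : j0 ≠ a) (π : H →* (Matrix ι ι R)ˣ) (hπ : ∀ i j r, j ∉ S → π (x i j r) = el i j r)
    {v : ι → R} (hv : WW ε S v) : ∃ p, act π p (Pi.single a 1) = v := by
  have cl : ∀ v k l r, k ≠ l → l ∉ S → (∃ p, act π p (Pi.single a 1) = v) →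
      ∃ p, act π p (Pi.single a 1) = ea k l r v := by
    rintro _ k l r hkl hl ⟨p, rfl⟩
    exact ⟨x k l r * p, by rw [act_mul, act_el (hπ _ _ _ hl) hkl]⟩
  have main : ∀ j, j ∉ S → j ≠ a → ∀ v : ι → R, ε (v j) = 1 →
      ∃ p, act π p (Pi.single a 1) = v := by
    intro j hj hja v hv
    obtain ⟨u, hu⟩ := hL.unit _ hv
    suffices h : ∀ F : Finset ι, ∀ v : ι → R, v j = u → (∀ k, k ∉ F → k ≠ j → v k = 0) →
        ∃ p, act π p (Pi.single a 1) = v from h Finset.univ v hu.symm (by simp)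
    intro F
    induction F using Finset.induction_on with
    | empty =>
      intro v h1 h4
      have := cl _ a j ↑u⁻¹ hja.symm hj (cl _ j a u hja ha ⟨1, act_one _ _⟩)
      convert this using 3
      ext k
      by_cases e1 : k = a
      · subst e1; simp [ea, hja, hja.symm, hL.two, h4 k (by simp) hja.symm]
      by_cases e2 : k = j
      · subst e2; simp [ea, e1, h1]
      simp [ea, e1, e2, h4 k (by simp) e2]
    | insert k F hk ih =>
      intro v h1 h4
      by_cases e : k = j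
      · exact ih v h1 fun k' hk' e1 => h4 k' (by simp [hk', e, e1]) e1
      have hv : v = ea k j (v k * ↑u⁻¹) (Function.update v k 0) := by
        ext k'
        by_cases e' : k' = k
        · subst e'; simp [ea, Ne.symm e, h1]
        · simp [ea, e']
      rw [hv]
      refine cl _ _ _ _ e hj (ih _ (by simp [Ne.symm e, h1]) fun k' hk' e1 => ?_)
      by_cases e' : k' = k
      · simp [e']
      · simpa [e'] using h4 k' (by simp [e', hk']) e1
  obtain ⟨i, hi, hv⟩ := hv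
  by_cases hia : i = a
  swap
  · exact main i hi hia v hv
  subst hia
  rcases z2_cases (ε (v j0)) with h0 | h1
  swap
  · exact main j0 hj0 hj0a v h1
  have := cl _ j0 i 1 hj0a hi (main j0 hj0 hj0a (ea j0 i 1 v) (by simp [ea_self, h0, hv]))
  convert this using 3
  ext k
  by_cases e : k = j0
  · subst e; simp [ea_self, ea_ne hj0a.symm, add_assoc, hL.two]
  · simp [ea_ne e]

end IsSC

theorem central_of_ker [Fintype ι] [DecidableEq ι] {ε : R →+* ZMod 2} (hL : Loc ε)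
    (h3 : ∀ i j : ι, ∃ m, m ≠ i ∧ m ≠ j) {z : St ι R} (hz : stπ z = 1) (g : St ι R) :
    z * g = g * z := by
  have hx : IsSC ∅ ∅ (xs : ι → ι → R → St ι R) := isSC_of_isSt isSt_xs
  have hπ : ∀ i j r, j ∉ (∅ : Set ι) → stπ (xs i j r : St ι R) = el i j r :=
    fun i j r _ => stπ_xs i j r
  refine (Subgroup.mem_centralizer_singleton_iff.1
    (St.mem_of_gens (Subgroup.centralizer {z}) (fun a j r => ?_) g)).symm
  rw [Subgroup.mem_centralizer_singleton_iff]
  by_cases e : a = j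
  · subst e; simp [hx.diag]
  have h1 := hx.stab_mem hL (by simpa using h3) St.mem_of_gens stπ hπ (a := a) (by simp)
    (act_of_one hz _)
  let rk : ι → ℕ := fun i => if i = a then 0 else 1
  have hm : (xs a j r : St ι R) ∈ UU xs rk := mem_UU _ (by simp [rk, Ne.symm e]) _
  have h4 := hx.norm_UU' hL.two rk (p := z) (Subgroup.closure_mono (by
    rintro _ ⟨k, l, r, hl, rfl⟩
    refine ⟨k, l, r, ?_, rfl⟩
    simp only [rk, if_neg hl]
    split_ifs <;> simp) h1) _ hm
  have := hx.tri_eq hL.two stπ hπ rk h4 hm (by simp [hz])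
  rw [← this, inv_mul_cancel_right, this]

end Vale.Agent.P192
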