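import Mathlib

/-! A self-simulating hierarchy of two-letter rewriting systems: definitions and runs. -/

namespace Vale.Agent.P192

open Function

inductive Op
  | id | sw | swJ | eq | ne | nsw | tab
  | tst (km pos : Bool)
  | kc (pos : Bool)
  deriving DecidableEq, Fintype

inductive Kind
  | com | pass | pne | srch | eng | mid | ref | lj
  | own (o : Op) | frn (o : Op) | z0 | zt (o : Op)
  deriving DecidableEq, Fintype

abbrev Col := Option (Fin 8)

structure Mode where
  k : Kind
  j : Fin 8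
  nw : Bool
  deriving DecidableEq, Fintype

inductive HS
  | rdy | lock | eng (μ : Mode) (n : Fin 64)
  deriving DecidableEq, Fintype

inductive Ctl
  | cell (ar : Bool) (k : Option Col)
  | head (st : HS) (sr : Option (Option Col))
  deriving DecidableEq

theorem finite_ctl : Finite Ctl :=
  Finite.of_surjective
    (Sum.elim (fun p : Bool × Option Col => Ctl.cell p.1 p.2)
      fun p : HS × Option (Option Col) => Ctl.head p.1 p.2) (by
    rintro (⟨a, k⟩ | ⟨s, r⟩)
    exacts [⟨.inl (a, k), rfl⟩, ⟨.inr (s, r), rfl⟩])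

noncomputable instance : Fintype Ctl := @Fintype.ofFinite _ finite_ctl

def opOf : Kind → Op
  | .com => .sw | .pass => .sw | .pne => .nsw | .srch => .id | .eng => .id | .mid => .id
  | .ref => .id | .lj => .swJ | .own o => o | .frn o => o | .z0 => .id | .zt o => o

def isZ : Kind → Bool
  | .z0 => true | .zt _ => true | _ => false

def post : Op → Op
  | .id => .id | .sw => .id | .swJ => .id | .eq => .eq | .ne => .ne | .nsw => .ne
  | .tab => .tst false true | .tst a b => .tst a b | .kc b => .kc b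

def neg : Op → Option Op
  | .id => none | .sw => none | .swJ => none | .eq => some .ne | .ne => some .eq
  | .nsw => some .eq | .tab => some (.tst false false) | .tst a b => some (.tst a (!b))
  | .kc b => some (.kc (!b))

abbrev Instr := Bool × Col × Op

def jt (ga gb : Col) (o : Op) : List Instr := [(true, ga, .sw), (false, gb, o), (true, ga, .sw)]

def all8 (o : Fin 8 → Op) : List Instr :=
  (List.finRange 8).flatMap fun j => jt (some j) (some j) (o j)

def expand : Op → Fin 8 → List Instr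
  | .id, _ => []
  | .sw, _ => all8 fun _ => .sw
  | .swJ, _ => all8 fun j => if j = 0 then .swJ else .sw
  | .eq, _ => all8 fun _ => .eq
  | .ne, j => jt (some j) (some j) .ne
  | .nsw, j => all8 (fun _ => .sw) ++ jt (some j) (some j) .ne
  | .tab, _ => jt (some 0) (some 0) .tab
  | .tst a b, _ => jt (some 0) (some 0) (.tst a b)
  | .kc b, _ => jt (some 0) none (.tst true b)

def body (μ : Mode) : List Instr :=
  if μ.nw then expand (post (opOf μ.k)) μ.j
  else if μ.k = .ref then [(false, some μ.j, .sw)] else expand (opOf μ.k) μ.j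

def prog (μ : Mode) : List Instr :=
  jt none none (if μ.nw then .tst false true else .tab) ++ (true, none, .kc true) :: body μ

theorem all8_length (o : Fin 8 → Op) : (all8 o).length = 24 := by
  simp [all8, jt, List.length_flatMap]

theorem expand_length (o : Op) (j : Fin 8) : (expand o j).length ≤ 27 := by
  cases o <;> simp [expand, all8_length, jt]

theorem prog_length (μ : Mode) : (prog μ).length ≤ 31 := by
  have h1 := expand_length (post (opOf μ.k)) μ.j
  have h2 := expand_length (opOf μ.k) μ.j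
  unfold prog body
  split_ifs <;> simp [jt] <;> omega

def HS.isEng : HS → Bool
  | .eng _ _ => true | _ => false

def HS.isLock : HS → Bool
  | .lock => true | _ => false

inductive Bad0 : Ctl → Ctl → Prop
  | rl (k k' : Option Col) : Bad0 (.cell true k) (.cell false k')
  | dup (ar : Bool) (γ : Col) : Bad0 (.cell ar (some γ)) (.cell ar (some γ))
  | miss (st : HS) (σ : Option Col) (y : Ctl) : (∀ k, y ≠ .cell false k) →
      Bad0 (.head st (some σ)) y
  | hit (st : HS) (γ : Col) : Bad0 (.cell true (some γ)) (.head st (some (some γ)))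
  | inc (s s' : HS) (r r' : Option (Option Col)) : s.isEng ≠ s'.isLock →
      Bad0 (.head s r) (.head s' r')
  | fin (μ : Mode) (n : Fin 64) (y : Ctl) : μ.nw = false → isZ μ.k = true →
      n.val = (prog μ).length → Bad0 (.head (.eng μ n) none) y
  | ovf (μ : Mode) (n : Fin 64) (y : Ctl) : (prog μ).length < n.val →
      Bad0 (.head (.eng μ n) none) y

inductive BadT : Op → Ctl → Ctl → Prop
  | dup (ar : Bool) : BadT .eq (.cell ar none) (.cell ar none)
  | hit (st : HS) : BadT .eq (.cell true none) (.head st (some none))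
  | own (μ : Mode) (n : ℕ) (n' : Fin 64) (γ : Col) (o o' : Op) : n'.val = n + 1 →
      (prog μ)[n]? = some (true, γ, o) → neg o = some o' →
      BadT o' (.cell true (some γ)) (.head (.eng μ n') none)
  | frn (μ : Mode) (n : ℕ) (n' : Fin 64) (γ : Col) (o o' : Op) : n'.val = n + 1 →
      (prog μ)[n]? = some (false, γ, o) → neg o = some o' →
      BadT o' (.head (.eng μ n') none) (.cell true (some γ))

/-- control part of the rules: kind, new pair, old pair -/
inductive Back : Kind → Ctl → Ctl → Ctl → Ctl → Prop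
  | com (ar : Bool) (k1 k2 : Option Col) :
      Back .com (.cell ar k2) (.cell ar k1) (.cell ar k1) (.cell ar k2)
  | pass (k : Option Col) (st : HS) (sr : Option (Option Col)) : sr ≠ some k →
      Back .pass (.head st sr) (.cell false k) (.cell true k) (.head st sr)
  | pne (st : HS) :
      Back .pne (.head st (some none)) (.cell false none) (.cell true none) (.head st (some none))
  | srch (y : Ctl) (st : HS) (σ : Option Col) : (∀ k, y ≠ .cell true k) →
      Back .srch y (.head st (some σ)) y (.head st none)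
  | eng (μ : Mode) (n : Fin 64) : n.val = 0 →
      Back .eng (.head (.eng μ n) none) (.head .lock none) (.head .rdy none) (.head .rdy none)
  | mid (κ : Kind) (j : Fin 8) (n n' : Fin 64) : isZ κ = false →
      n.val = (prog ⟨κ, j, false⟩).length → n'.val = (prog ⟨κ, j, true⟩).length →
      Back .mid (.head (.eng ⟨κ, j, true⟩ n') none) (.head .lock none)
        (.head (.eng ⟨κ, j, false⟩ n) none) (.head .lock none)
  | ref (y : Ctl) : Back .ref y (.head .rdy none) y (.head .rdy none)
  | lj : Back .lj (.cell true (some none)) (.head .rdy none) (.cell true (some none))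
      (.head .rdy none)
  | own (μ : Mode) (n n' : Fin 64) (γ : Col) (o : Op) : n'.val = n.val + 1 →
      (prog μ)[n.val]? = some (true, γ, o) →
      Back (.own o) (.cell true (some γ)) (.head (.eng μ n') none)
        (.cell true (some γ)) (.head (.eng μ n) none)
  | frn (μ : Mode) (n n' : Fin 64) (γ : Col) (o : Op) : n'.val = n.val + 1 →
      (prog μ)[n.val]? = some (false, γ, o) →
      Back (.frn o) (.head (.eng μ n') none) (.cell true (some γ))
        (.head (.eng μ n) none) (.cell true (some γ))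
  | z0 (p q : Ctl) : Bad0 p q → Back .z0 p q p q
  | zt (o : Op) (p q : Ctl) : BadT o p q → Back (.zt o) p q p q

theorem Back.uniq {κ p' q' p q p2 q2} (h : Back κ p' q' p q) (h2 : Back κ p' q' p2 q2) :
    p = p2 ∧ q = q2 := by
  cases h <;> cases h2 <;> first
    | exact ⟨rfl, rfl⟩
    | (refine ⟨?_, ?_⟩ <;> first | rfl | (congr 2; ext; omega))

def modeK : Ctl → Kind
  | .head (.eng μ _) _ => μ.k
  | _ => .com

/-- register data of one level -/
structure Lev (I : Type) where
  dec : I → Ctl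
  lab : I → Kind
  set : I → Ctl → I
  dec_set : ∀ x p, dec (set x p) = p
  set_dec : ∀ x, set x (dec x) = x
  set_set : ∀ x p q, set (set x p) q = set x q
  lab_set : ∀ x p, lab (set x p) = lab x
  lab_surj : ∀ κ, ∃ x, lab x = κ

attribute [simp] Lev.dec_set Lev.set_dec Lev.set_set Lev.lab_set

variable {I : Type}

namespace Lev

variable (L : Lev I)

/-- the next level -/
def up : Lev (Fin 8 → I) where
  dec v := L.dec (v 0)
  lab v := L.lab (v 0)
  set v p := update v 0 (L.set (v 0) p)
  dec_set := by simp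
  set_dec := by simp
  set_set := by simp
  lab_set := by simp
  lab_surj κ := by
    obtain ⟨x, hx⟩ := L.lab_surj κ
    exact ⟨fun _ => x, hx⟩

def Tst (km : Bool) (x y : I) : Prop :=
  if km then L.lab x = modeK (L.dec y) else ∃ p q, Back (L.lab x) (L.dec x) (L.dec y) p q

/-- data part of the rules: old pair, new pair -/
def Rel : Op → Kind → I → I → I → I → Prop
  | .id, _, x, y, x', y' => x' = x ∧ y' = y
  | .sw, _, x, y, x', y' => x' = y ∧ y' = x
  | .swJ, _, x, y, x', y' => x' = L.set y (L.dec x) ∧ y' = L.set x (L.dec y)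
  | .eq, _, x, y, x', y' => x' = x ∧ y' = y ∧ x = y
  | .ne, _, x, y, x', y' => x' = x ∧ y' = y ∧ x ≠ y
  | .nsw, _, x, y, x', y' => x' = y ∧ y' = x ∧ x ≠ y
  | .tab, _, x, y, x', y' =>
      ∃ p q, Back (L.lab x') (L.dec x') (L.dec y') p q ∧ x = L.set x' p ∧ y = L.set y' q
  | .tst km pos, _, x, y, x', y' => x' = x ∧ y' = y ∧ (L.Tst km x y ↔ pos = true)
  | .kc pos, k, x, y, x', y' => x' = x ∧ y' = y ∧ (L.lab x = k ↔ pos = true)

def Rule (κ : Kind) (a b a' b' : Ctl × I) : Prop :=
  Back κ a'.1 b'.1 a.1 b.1 ∧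
    if κ = .ref then a'.2 = a.2 else L.Rel (opOf κ) (modeK b'.1) a.2 b.2 a'.2 b'.2

variable {L}

theorem Rel.uniq {o k x y x' y' x2 y2} (h : L.Rel o k x y x' y') (h2 : L.Rel o k x2 y2 x' y') :
    x = x2 ∧ y = y2 := by
  cases o
  case swJ =>
    obtain ⟨h1, h3⟩ := h
    obtain ⟨h4, h5⟩ := h2
    have e1 : x = L.set y' (L.dec x') := by simp [h1, h3]
    have e2 : y = L.set x' (L.dec y') := by simp [h1, h3]
    have e3 : x2 = L.set y' (L.dec x') := by simp [h4, h5]
    have e4 : y2 = L.set x' (L.dec y') := by simp [h4, h5]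
    exact ⟨e1.trans e3.symm, e2.trans e4.symm⟩
  case tab =>
    obtain ⟨p, q, hb, rfl, rfl⟩ := h
    obtain ⟨p2, q2, hb2, rfl, rfl⟩ := h2
    obtain ⟨rfl, rfl⟩ := hb.uniq hb2
    exact ⟨rfl, rfl⟩
  all_goals exact ⟨by simp_all [Rel], by simp_all [Rel]⟩

theorem Rel.total (o k) (x' y' : I) :
    (∃ x y, L.Rel o k x y x' y') ∨ ∃ o', neg o = some o' ∧ L.Rel o' k x' y' x' y' := by
  cases o
  case id => exact Or.inl ⟨x', y', rfl, rfl⟩
  case sw => exact Or.inl ⟨y', x', rfl, rfl⟩
  case swJ => exact Or.inl ⟨L.set y' (L.dec x'), L.set x' (L.dec y'), by simp, by simp⟩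
  case eq =>
    by_cases h : x' = y'
    · exact Or.inl ⟨x', y', rfl, rfl, h⟩
    · exact Or.inr ⟨_, rfl, rfl, rfl, h⟩
  case ne =>
    by_cases h : x' = y'
    · exact Or.inr ⟨_, rfl, rfl, rfl, h⟩
    · exact Or.inl ⟨x', y', rfl, rfl, h⟩
  case nsw =>
    by_cases h : x' = y'
    · exact Or.inr ⟨_, rfl, rfl, rfl, h⟩
    · exact Or.inl ⟨y', x', rfl, rfl, Ne.symm h⟩
  case tab =>
    by_cases h : L.Tst false x' y'
    · obtain ⟨p, q, hb⟩ := h
      exact Or.inl ⟨_, _, p, q, hb, rfl, rfl⟩
    · exact Or.inr ⟨_, rfl, rfl, rfl, by simpa using h⟩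
  case tst km pos =>
    by_cases h : L.Tst km x' y' ↔ pos = true
    · exact Or.inl ⟨x', y', rfl, rfl, h⟩
    · exact Or.inr ⟨_, rfl, rfl, rfl, by cases pos <;> simpa using h⟩
  case kc pos =>
    by_cases h : L.lab x' = k ↔ pos = true
    · exact Or.inl ⟨x', y', rfl, rfl, h⟩
    · exact Or.inr ⟨_, rfl, rfl, rfl, by cases pos <;> simpa using h⟩

theorem Rel.excl {o o' k x y x' y' x2 y2} (h : L.Rel o k x y x' y') (hn : neg o = some o')
    (h2 : L.Rel o' k x' y' x2 y2) : False := by
  cases o <;> simp only [neg, Option.some.injEq, reduceCtorEq] at hn <;> subst hn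
  case tab =>
    obtain ⟨p, q, hb, -⟩ := h
    have := h2.2.2
    simp only [Tst, Bool.false_eq_true, if_false, iff_false] at this
    exact this ⟨p, q, hb⟩
  case tst km pos =>
    obtain ⟨rfl, rfl, h⟩ := h
    have := h2.2.2
    cases pos <;> simp_all
  case kc pos =>
    obtain ⟨rfl, rfl, h⟩ := h
    have := h2.2.2
    cases pos <;> simp_all
  all_goals
    obtain ⟨rfl, rfl, h⟩ := h
    have := h2.2.2
    first | exact this h | exact h this | exact h this.symm

end Lev

/-- state of an engaged pair: left tokens, register of the active head, right tokens -/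
abbrev S3 (I : Type) := (Col → I) × I × (Col → I)

namespace Lev

variable (L : Lev I)

def Step (k : Kind) : Instr → S3 I → S3 I → Prop
  | (true, γ, o), (f, h, g), σ' => ∃ a h', L.Rel o k (f γ) h a h' ∧ σ' = (update f γ a, h', g)
  | (false, γ, o), (f, h, g), σ' =>
      ∃ h' b, L.Rel o .com h (g γ) h' b ∧ σ' = (f, h', update g γ b)

def Run (k : Kind) : List Instr → S3 I → S3 I → Prop
  | [], σ, σ' => σ' = σ
  | i :: l, σ, σ' => ∃ σ1, L.Step k i σ σ1 ∧ Run k l σ1 σ'

variable {L}

theorem run_append {k l1 l2} {σ σ' : S3 I} :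
    L.Run k (l1 ++ l2) σ σ' ↔ ∃ σ1, L.Run k l1 σ σ1 ∧ L.Run k l2 σ1 σ' := by
  induction l1 generalizing σ with
  | nil => simp [Run]
  | cons i l ih =>
    simp only [List.cons_append, Run, ih]
    constructor
    · rintro ⟨a, h1, b, h2, h3⟩; exact ⟨b, ⟨a, h1, h2⟩, h3⟩
    · rintro ⟨b, ⟨a, h1, h2⟩, h3⟩; exact ⟨a, h1, b, h2, h3⟩

theorem Step.uniq {k i} {σ σ2 σ' : S3 I} (h : L.Step k i σ σ') (h2 : L.Step k i σ2 σ') :
    σ = σ2 := by
  obtain ⟨s, γ, o⟩ := i
  obtain ⟨f, x, g⟩ := σ
  obtain ⟨f2, x2, g2⟩ := σ2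
  cases s
  · obtain ⟨h', b, hr, rfl⟩ := h
    obtain ⟨h2', b2, hr2, e⟩ := h2
    simp only [Prod.mk.injEq] at e
    obtain ⟨rfl, rfl, e⟩ := e
    have e1 : b = b2 := by simpa using congrFun e γ
    subst e1
    obtain ⟨rfl, e2⟩ := hr.uniq hr2
    have : g = g2 := by
      funext δ
      by_cases hδ : δ = γ
      · rw [hδ, e2]
      · simpa [hδ] using congrFun e δ
    rw [this]
  · obtain ⟨a, h', hr, rfl⟩ := h
    obtain ⟨a2, h2', hr2, e⟩ := h2
    simp only [Prod.mk.injEq] at e
    obtain ⟨e, rfl, rfl⟩ := e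
    have e1 : a = a2 := by simpa using congrFun e γ
    subst e1
    obtain ⟨e2, rfl⟩ := hr.uniq hr2
    have : f = f2 := by
      funext δ
      by_cases hδ : δ = γ
      · rw [hδ, e2]
      · simpa [hδ] using congrFun e δ
    rw [this]

theorem run_take_succ {k} {l : List Instr} {n i} (hi : l[n]? = some i) {σ σ' : S3 I} :
    L.Run k (l.take (n + 1)) σ σ' ↔ ∃ σ1, L.Run k (l.take n) σ σ1 ∧ L.Step k i σ1 σ' := by
  rw [List.take_add_one, hi, run_append]
  simp [Run]

theorem run_jt {k ga gb o f h g} {σ' : S3 I} :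
    L.Run k (jt ga gb o) (f, h, g) σ' ↔
      ∃ a b, L.Rel o .com (f ga) (g gb) a b ∧ σ' = (update f ga a, h, update g gb b) := by
  simp only [jt, Run, Step, Rel]
  constructor
  · rintro ⟨_, ⟨_, _, ⟨rfl, rfl⟩, rfl⟩, _, ⟨a, b, hr, rfl⟩, _, ⟨_, _, ⟨rfl, rfl⟩, rfl⟩, rfl⟩
    exact ⟨_, b, hr, by simp⟩
  · rintro ⟨a, b, hr, rfl⟩
    exact ⟨_, ⟨_, _, ⟨rfl, rfl⟩, rfl⟩, _, ⟨a, b, hr, rfl⟩, _, ⟨_, _, ⟨rfl, rfl⟩, rfl⟩, by simp⟩

theorem run_flat {k} (o : Fin 8 → Op) (l : List (Fin 8)) (hl : l.Nodup) {f h g} {σ' : S3 I} :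
    L.Run k (l.flatMap fun j => jt (some j) (some j) (o j)) (f, h, g) σ' ↔
      ∃ f' g', σ' = (f', h, g') ∧ (∀ γ, (∀ j ∈ l, γ ≠ some j) → f' γ = f γ ∧ g' γ = g γ) ∧
        ∀ j ∈ l, L.Rel (o j) .com (f (some j)) (g (some j)) (f' (some j)) (g' (some j)) := by
  induction l generalizing f g with
  | nil =>
    simp only [List.flatMap_nil, Run, List.not_mem_nil, false_imp_iff, implies_true,
      true_imp_iff, and_true]
    constructor
    · rintro rfl; exact ⟨f, g, rfl, fun _ => ⟨rfl, rfl⟩⟩
    · rintro ⟨f', g', rfl, h1⟩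
      rw [funext fun γ => (h1 γ).1, funext fun γ => (h1 γ).2]
  | cons j l ih =>
    obtain ⟨hj, hl⟩ := List.nodup_cons.1 hl
    rw [List.flatMap_cons, run_append]
    constructor
    · rintro ⟨σ1, h1, h2⟩
      obtain ⟨a, b, hr, rfl⟩ := run_jt.1 h1
      obtain ⟨f', g', rfl, h3, h4⟩ := (ih hl).1 h2
      refine ⟨f', g', rfl, fun γ hγ => ?_, fun i hi => ?_⟩
      · have := h3 γ fun i hi => hγ i (List.mem_cons_of_mem _ hi)
        have hne := hγ j List.mem_cons_self
        simpa [hne] using this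
      · rcases List.mem_cons.1 hi with rfl | hi
        · have := h3 (some i) fun i' hi' e => hj (by rw [Option.some.inj e]; exact hi')
          simp only [update_self] at this
          rw [this.1, this.2]; exact hr
        · have hne : (some i : Col) ≠ some j := fun e => hj (by rw [← Option.some.inj e]; exact hi)
          simpa [hne] using h4 i hi
    · rintro ⟨f', g', rfl, h3, h4⟩
      refine ⟨_, run_jt.2 ⟨_, _, h4 j List.mem_cons_self, rfl⟩, (ih hl).2 ⟨f', g', rfl, ?_, ?_⟩⟩
      · intro γ hγ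
        by_cases e : γ = some j
        · subst e; simp
        · have := h3 γ fun i hi => by
            rcases List.mem_cons.1 hi with rfl | hi
            exacts [e, hγ i hi]
          simpa [e] using this
      · intro i hi
        have hne : (some i : Col) ≠ some j := fun e => hj (by rw [← Option.some.inj e]; exact hi)
        simpa [hne] using h4 i (List.mem_cons_of_mem _ hi)

end Lev

def cmp (f : Col → I) : Fin 8 → I := fun j => f (some j)

def mkf (c : I) (x : Fin 8 → I) : Col → I
  | none => c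
  | some j => x j

@[simp] theorem mkf_none (c : I) (x) : mkf c x none = c := rfl
@[simp] theorem mkf_some (c : I) (x j) : mkf c x (some j) = x j := rfl
@[simp] theorem cmp_mkf (c : I) (x) : cmp (mkf c x) = x := rfl
@[simp] theorem cmp_apply (f : Col → I) (j) : cmp f j = f (some j) := rfl
theorem mkf_cmp (f : Col → I) : mkf (f none) (cmp f) = f := by
  funext γ; cases γ <;> rfl

theorem update_mkf_some (c : I) (x j a) : update (mkf c x) (some j) a = mkf c (update x j a) := by
  funext γ
  rcases γ with _ | i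
  · simp
  · by_cases h : i = j
    · subst h; simp
    · simp [h]

theorem update_mkf_none (c : I) (x a) : update (mkf c x) none a = mkf a x := by
  funext γ
  rcases γ with _ | i <;> simp

namespace Lev

variable {L : Lev I}

theorem run_all8 {k} (o : Fin 8 → Op) {c d x y h} {σ' : S3 I} :
    L.Run k (all8 o) (mkf c x, h, mkf d y) σ' ↔
      ∃ x' y', (∀ j, L.Rel (o j) .com (x j) (y j) (x' j) (y' j)) ∧
        σ' = (mkf c x', h, mkf d y') := by
  rw [all8, run_flat o _ (List.nodup_finRange 8)]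
  constructor
  · rintro ⟨f', g', rfl, h1, h2⟩
    have := h1 none (by simp)
    refine ⟨cmp f', cmp g', fun j => h2 j (List.mem_finRange j), ?_⟩
    simp only [mkf_none] at this
    rw [← this.1, ← this.2, mkf_cmp, mkf_cmp]
  · rintro ⟨x', y', h1, rfl⟩
    refine ⟨_, _, rfl, fun γ hγ => ?_, fun j _ => h1 j⟩
    rcases γ with _ | j
    · simp
    · exact absurd rfl (hγ j (List.mem_finRange j))

end Lev

def nej : Op → Bool
  | .ne => true | .nsw => true | _ => false

namespace Lev

variable (L : Lev I)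

def RelJ (o : Op) (j : Fin 8) (k : Kind) (x y x' y' : Fin 8 → I) : Prop :=
  L.up.Rel o k x y x' y' ∧ (nej o = true → x' j ≠ y' j)

variable {L}

theorem run_expand {k o j c d x y h} {σ' : S3 I} :
    L.Run k (expand o j) (mkf c x, h, mkf d y) σ' ↔
      ∃ x' y', L.RelJ o j (modeK (L.dec d)) x y x' y' ∧ σ' = (mkf c x', h, mkf d y') := by
  cases o
  case id => simp [expand, Run, RelJ, Rel, nej]
  case sw =>
    simp only [expand, run_all8, RelJ, Rel, nej, forall_and, ← funext_iff]
    simp
  case swJ =>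
    simp only [expand, run_all8, RelJ, Rel, nej, up]
    refine exists₂_congr fun x' y' => and_congr_left' ?_
    simp only [Bool.false_eq_true, false_imp_iff, and_true]
    constructor
    · intro h
      have h0 := h 0
      simp only [if_true, Rel] at h0
      constructor <;> funext i <;> by_cases hi : i = 0
      · subst hi; simp [h0.1]
      · have := h i; simp only [hi, if_false, Rel] at this; simp [hi, this.1]
      · subst hi; simp [h0.2]
      · have := h i; simp only [hi, if_false, Rel] at this; simp [hi, this.2]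
    · rintro ⟨rfl, rfl⟩ i
      by_cases hi : i = 0
      · subst hi; simp [Rel]
      · simp [hi, Rel]
  case eq =>
    simp only [expand, run_all8, RelJ, Rel, nej, forall_and, ← funext_iff]
    simp
  case ne =>
    simp only [expand, run_jt, RelJ, Rel, nej, mkf_some]
    constructor
    · rintro ⟨_, _, ⟨rfl, rfl, hne⟩, rfl⟩
      exact ⟨x, y, ⟨⟨rfl, rfl, fun e => hne (congrFun e j)⟩, fun _ => hne⟩, by
        simp [update_mkf_some]⟩
    · rintro ⟨_, _, ⟨⟨rfl, rfl, -⟩, hne⟩, rfl⟩
      exact ⟨_, _, ⟨rfl, rfl, hne trivial⟩, by simp [update_mkf_some]⟩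
  case nsw =>
    simp only [expand, run_append, run_all8, RelJ, Rel, nej, forall_and, ← funext_iff]
    constructor
    · rintro ⟨_, ⟨_, _, ⟨rfl, rfl⟩, rfl⟩, h2⟩
      obtain ⟨_, _, ⟨rfl, rfl, hne⟩, rfl⟩ := run_jt.1 h2
      exact ⟨_, _, ⟨⟨rfl, rfl, fun e => hne (congrFun e j).symm⟩, fun _ => hne⟩, by
        simp [update_mkf_some]⟩
    · rintro ⟨_, _, ⟨⟨rfl, rfl, -⟩, hne⟩, rfl⟩
      exact ⟨_, ⟨_, _, ⟨rfl, rfl⟩, rfl⟩, run_jt.2 ⟨_, _, ⟨rfl, rfl, hne trivial⟩, by
        simp [update_mkf_some]⟩⟩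
  case tab =>
    simp only [expand, run_jt, RelJ, Rel, nej, mkf_some, up, update_mkf_some]
    constructor
    · rintro ⟨a, b, ⟨p, q, hb, h1, h2⟩, rfl⟩
      exact ⟨_, _, ⟨⟨p, q, by simpa using hb, by simp [← h1], by simp [← h2]⟩, by simp⟩, rfl⟩
    · rintro ⟨x', y', ⟨⟨p, q, hb, rfl, rfl⟩, -⟩, rfl⟩
      exact ⟨x' 0, y' 0, ⟨p, q, hb, by simp, by simp⟩, by simp⟩
  case tst a b =>
    simp only [expand, run_jt, RelJ, Rel, nej, mkf_some, update_mkf_some]
    constructor
    · rintro ⟨_, _, ⟨rfl, rfl, ht⟩, rfl⟩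
      exact ⟨x, y, ⟨⟨rfl, rfl, ht⟩, by simp⟩, by simp⟩
    · rintro ⟨_, _, ⟨⟨rfl, rfl, ht⟩, -⟩, rfl⟩
      exact ⟨_, _, ⟨rfl, rfl, ht⟩, by simp⟩
  case kc b =>
    simp only [expand, run_jt, RelJ, Rel, nej, mkf_some, mkf_none, update_mkf_some,
      update_mkf_none]
    constructor
    · rintro ⟨_, _, ⟨rfl, rfl, ht⟩, rfl⟩
      exact ⟨x, y, ⟨⟨rfl, rfl, ht⟩, by simp⟩, by simp⟩
    · rintro ⟨_, _, ⟨⟨rfl, rfl, ht⟩, -⟩, rfl⟩
      exact ⟨_, _, ⟨rfl, rfl, ht⟩, by simp⟩

end Lev

end Vale.Agent.P192
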