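import Vale.Agent.P192.Blocks
import Vale.Agent.P192.Alg

/-! The Steinberg group of a graded strongly nil algebra over the field of order two is periodic. -/

namespace Vale.Agent.P192

open Matrix Vale.Agent.P193

attribute [local irreducible] St

section Tri

variable {m A : Type} [Fintype m] [DecidableEq m] [Ring A] (rk : m → ℕ)

def Up (n : ℕ) (M : Matrix m m A) : Prop := ∀ k l, M k l ≠ 0 → rk k + n ≤ rk l

variable {rk}

omit [DecidableEq m] in
theorem Up.mul {a b} {M N : Matrix m m A} (h : Up rk a M) (h' : Up rk b N) :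
    Up rk (a + b) (M * N) := by
  intro k l hkl
  rw [Matrix.mul_apply] at hkl
  obtain ⟨j, -, hj⟩ := Finset.exists_ne_zero_of_sum_ne_zero hkl
  have := h k j (left_ne_zero_of_mul hj)
  have := h' j l (right_ne_zero_of_mul hj)
  omega

omit [Fintype m] [DecidableEq m] in
theorem Up.add {a} {M N : Matrix m m A} (h : Up rk a M) (h' : Up rk a N) : Up rk a (M + N) := by
  intro k l hkl
  by_cases e : M k l = 0
  · exact h' k l (by simpa [e] using hkl)
  · exact h k l e

omit [Fintype m] in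
theorem up_one : Up rk 0 (1 : Matrix m m A) := by
  intro k l h
  by_cases e : k = l
  · simp [e]
  · simp [e] at h

theorem Up.pow {a} {M : Matrix m m A} (h : Up rk a M) (d : ℕ) : Up rk (d * a) (M ^ d) := by
  induction d with
  | zero => simpa using up_one
  | succ d ih => rw [pow_succ, add_mul, one_mul]; exact ih.mul h

theorem Up.pow_sub {M Δ : Matrix m m A} (h : Up rk 0 Δ) (h' : Up rk 1 (M - Δ)) (d : ℕ) :
    Up rk 1 (M ^ d - Δ ^ d) := by
  have hM : Up rk 0 M := by
    rw [← sub_add_cancel M Δ]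
    exact Up.add (fun k l e => (Nat.le_succ _).trans (h' k l e)) h
  induction d with
  | zero => intro k l e; simp at e
  | succ d ih =>
    have : M ^ (d + 1) - Δ ^ (d + 1) = (M ^ d - Δ ^ d) * M + Δ ^ d * (M - Δ) := by
      simp only [pow_succ, sub_mul, mul_sub]; abel
    rw [this]
    exact (ih.mul hM).add (by simpa using (h.pow d).mul h')

theorem Up.nil {M : Matrix m m A} (h : Up rk 1 M) : IsNilpotent M := by
  obtain ⟨b, hb⟩ := (Set.finite_range rk).bddAbove
  refine ⟨b + 1, ?_⟩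
  ext k l
  by_contra e
  have := h.pow (b + 1) k l e
  have := hb ⟨l, rfl⟩
  omega

end Tri

section Cyc

variable {m : ℕ} [NeZero m]

open Classical in
noncomputable def ME (E : ZMod m → Prop) : Matrix (ZMod m) (ZMod m) (ZMod 2) :=
  of fun k l => if E k ∧ l = k + 1 then 1 else 0

open Classical in
theorem ME_pow (E : ZMod m → Prop) (d : ℕ) (k l : ZMod m) :
    (ME E ^ d) k l = if l = k + d ∧ ∀ t : ℕ, t < d → E (k + t) then 1 else 0 := by
  induction d generalizing l with
  | zero => simp [one_apply, eq_comm]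
  | succ d ih =>
    rw [pow_succ, Matrix.mul_apply, Finset.sum_eq_single (k + d)]
    · rw [ih]
      simp only [ME, of_apply, true_and, Nat.forall_lt_succ_right, Nat.cast_add, Nat.cast_one,
        add_assoc]
      split_ifs <;> simp_all
    · intro j _ hj; rw [ih]; simp [hj]
    · simp

theorem val_pred {x : ZMod m} (h : x ≠ 0) : (x - 1).val + 1 = x.val := by
  have h1 : 0 < x.val := ZMod.val_pos.2 h
  have : x - 1 = ((x.val - 1 : ℕ) : ZMod m) := by
    rw [Nat.cast_sub h1]; simp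
  rw [this, ZMod.val_natCast_of_lt (by have := x.val_lt; omega)]
  omega

theorem ME_up {E : ZMod m → Prop} {e : ZMod m} (h : ¬ E e) :
    Up (fun k : ZMod m => (k - e - 1).val) 1 (ME E) := by
  intro k l hkl
  simp only [ME, of_apply, ne_eq, ite_eq_right_iff, one_ne_zero, imp_false, not_not] at hkl
  obtain ⟨h1, rfl⟩ := hkl
  have : k - e ≠ 0 := fun e' => h (by rwa [← sub_eq_zero.1 e'])
  show (k - e - 1).val + 1 ≤ (k + 1 - e - 1).val
  rw [show k + 1 - e - 1 = k - e by ring, val_pred this]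

theorem choose_odd (κ j : ℕ) (hj : j < 2 ^ κ) : (((2 ^ κ - 1).choose j : ℕ) : ZMod 2) = 1 := by
  induction j with
  | zero => simp
  | succ j ih =>
    have h1 := Nat.choose_succ_succ' (2 ^ κ - 1) j
    rw [Nat.sub_add_cancel Nat.one_le_two_pow] at h1
    have h2 : (((2 ^ κ).choose (j + 1) : ℕ) : ZMod 2) = 0 :=
      (ZMod.natCast_eq_zero_iff _ _).2 (Nat.prime_two.dvd_choose_pow (by omega) hj.ne)
    rw [h1, Nat.cast_add, ih (by omega)] at h2
    revert h2
    generalize (((2 ^ κ - 1).choose (j + 1) : ℕ) : ZMod 2) = a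
    revert a; decide

theorem exists_binom {κ : ℕ} (hm : m = 2 ^ κ) : ∃ P : Matrix (ZMod m) (ZMod m) (ZMod 2),
    P.det ≠ 0 ∧ P * ME (fun _ => True) = (1 + ME fun k => k ≠ -1) * P := by
  classical
  let P : Matrix (ZMod m) (ZMod m) (ZMod 2) := of fun l k => (l.val.choose k.val : ℕ)
  refine ⟨P, ?_, ?_⟩
  · have : Up (fun k : ZMod m => m - k.val) 1 (P - 1) := by
      intro l k h
      have h1 := l.val_lt
      by_contra h2
      rcases Nat.lt_or_ge l.val k.val with h3 | h3
      · have : l ≠ k := fun e => by simp [e] at h3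
        simp [P, this, Nat.choose_eq_zero_of_lt h3] at h
      · have : l = k := ZMod.val_injective _ (by simp only at h2; omega)
        simp [P, this] at h
    have := this.nil.isUnit_add_one
    rw [sub_add_cancel, Matrix.isUnit_iff_isUnit_det] at this
    exact this.ne_zero
  · have hv : (-1 : ZMod m).val = 2 ^ κ - 1 := by
      obtain ⟨n, rfl⟩ := Nat.exists_eq_succ_of_ne_zero (NeZero.ne m)
      rw [ZMod.val_neg_one, ← hm]; rfl
    ext l k
    rw [add_mul, one_mul, Matrix.add_apply, Matrix.mul_apply, Matrix.mul_apply,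
      Finset.sum_eq_single (k - 1) (by
        intro j _ hj
        have : k ≠ j + 1 := fun e => hj (by rw [e]; ring)
        simp [ME, this]) (by simp),
      Finset.sum_eq_single (l + 1) (by intro j _ hj; simp [ME, hj]) (by simp)]
    simp only [P, ME, of_apply, sub_add_cancel, and_self, if_true, mul_one, and_true]
    by_cases hl : l = -1
    · subst hl
      rw [hv, choose_odd _ _ (hm ▸ (k - 1).val_lt), choose_odd _ _ (hm ▸ k.val_lt)]
      simp
    have h1 : (l + 1).val = l.val + 1 := by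
      rw [← val_pred (x := l + 1) (fun e => hl (eq_neg_of_add_eq_zero_left e)), add_sub_cancel_right]
    rw [if_pos hl, one_mul, h1]
    by_cases hk : k = 0
    · subst hk
      have : l.val < 2 ^ κ - 1 := by
        have := (l + 1).val_lt
        omega
      rw [zero_sub, hv, Nat.choose_eq_zero_of_lt this]
      simp only [ZMod.val_zero, Nat.choose_zero_right, Nat.cast_one, Nat.cast_zero]
      rfl
    · rw [← val_pred hk, Nat.choose_succ_succ', Nat.cast_add, add_comm, add_assoc,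
        two_of_algebra, add_zero]

end Cyc

variable {ι : Type} [Fintype ι] [DecidableEq ι] {R : Type} [Ring R]

inductive Wd (Hm : ℕ → R → Prop) (D : ℕ) : ℕ → St ι R → Prop
  | one : Wd Hm D 0 1
  | mul (i j : ι) (d : ℕ) (r : R) (n : ℕ) (g : St ι R) : Hm d r → d ≤ D → Wd Hm D n g →
      Wd Hm D (n + 1) (xs i j r * g)

omit [Fintype ι] [DecidableEq ι] in
theorem Wd.mono {Hm : ℕ → R → Prop} {D D' n} {g : St ι R} (h : Wd Hm D n g) (hD : D ≤ D') :
    Wd Hm D' n g := by
  induction h with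
  | one => exact .one
  | mul i j d r n g h1 h2 _ ih => exact .mul i j d r n g h1 (h2.trans hD) ih

theorem locality {m : Type} [Fintype m] [DecidableEq m] (h2 : ∀ r : R, r + r = 0)
    {Hm : ℕ → R → Prop} {D : ℕ} (θ11 θ10 θ01 θ00 : R →ₙ+* Matrix m m R) (N : ℕ → Set m)
    (N1 : Set m) (hN : Monotone N)
    (ha : ∀ d r, Hm d r → d ≤ D → θ11 r - θ01 r = θ10 r - θ00 r)
    (hb : ∀ d r, Hm d r → d ≤ D → ∀ k l, (θ11 r - θ01 r) k l ≠ 0 → k ∈ N1 ∧ l ∈ N1)
    (hc : ∀ d r, Hm d r → d ≤ D → ∀ k l, (θ01 r - θ00 r) k l ≠ 0 → k ∈ N 1 ∧ l ∈ N 1)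
    (hd : ∀ d r, Hm d r → d ≤ D → ∀ s k l, θ01 r k l ≠ 0 → k ∈ N s ∨ l ∈ N s →
      k ∈ N (s + 1) ∧ l ∈ N (s + 1))
    {n} {g : St ι R} (hg : Wd Hm D n g) (he : Disjoint N1 (N n)) :
    Θ h2 θ11 g * (Θ h2 θ10 g)⁻¹ = Θ h2 θ01 g * (Θ h2 θ00 g)⁻¹ ∧
      Θ h2 θ01 g * (Θ h2 θ00 g)⁻¹ ∈ ΓΓ (N n) := by
  classical
  induction hg with
  | one => simp
  | mul i j d r n g h1 h3 _ ih =>
    have hn : N n ⊆ N (n + 1) := hN (Nat.le_succ n)
    obtain ⟨ih1, ih2⟩ := ih (he.mono_right hn)
    have hx := isSt_blk (ι := ι) (m := m) h2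
    have c1 := Γ_comm (he.mono_right hn) (blk_Γ i j (hb d r h1 h3)) ih2
    simp only [map_mul, Θ_xs, _root_.mul_inv_rev]
    constructor
    · have e1 : blk i j (θ11 r) = blk i j (θ01 r) * blk i j (θ11 r - θ01 r) := by
        rw [← hx.add, add_sub_cancel]
      have e2 : blk i j (θ10 r) = blk i j (θ00 r) * blk i j (θ11 r - θ01 r) := by
        rw [← hx.add, ha d r h1 h3, add_sub_cancel]
      rw [e1, e2]
      calc _ = blk i j (θ01 r) * (blk i j (θ11 r - θ01 r) * (Θ h2 θ11 g * (Θ h2 θ10 g)⁻¹) *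
            (blk i j (θ11 r - θ01 r))⁻¹) * (blk i j (θ00 r))⁻¹ := by group
        _ = _ := by rw [ih1, c1.eq]; group
    · let A : Matrix m m R := of fun k l => if k ∈ N n ∨ l ∈ N n then θ01 r k l else 0
      have a1 : blk i j A ∈ ΓΓ (N (n + 1)) := blk_Γ i j fun k l h => by
        simp only [A, of_apply] at h
        split_ifs at h with h'
        · exact hd d r h1 h3 n k l h h'
        · exact (h rfl).elim
      have a2 : blk i j (θ01 r - A) ∈ ΓΓ (N n)ᶜ := blk_Γ i j fun k l h => by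
        simp only [A, Matrix.sub_apply, of_apply] at h
        split_ifs at h with h'
        · simp at h
        · exact not_or.1 h'
      have a3 : blk i j (θ01 r - θ00 r) ∈ ΓΓ (N (n + 1)) :=
        Γ_mono (hN (by omega)) (blk_Γ i j (hc d r h1 h3))
      have c2 := Γ_comm disjoint_compl_left a2 ih2
      have e1 : blk i j (θ01 r) = blk i j A * blk i j (θ01 r - A) := by
        rw [← hx.add, add_sub_cancel]
      have e2 : blk i j (θ01 r) = blk i j (θ01 r - θ00 r) * blk i j (θ00 r) := by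
        rw [← hx.add, sub_add_cancel]
      have := Subgroup.mul_mem _ (Subgroup.mul_mem _ (Subgroup.mul_mem _ a1 (Γ_mono hn ih2))
        (Subgroup.inv_mem _ a1)) a3
      convert this using 1
      calc _ = blk i j (θ01 r) * (Θ h2 θ01 g * (Θ h2 θ00 g)⁻¹) * (blk i j (θ01 r))⁻¹ *
            (blk i j (θ01 r) * (blk i j (θ00 r))⁻¹) := by group
        _ = blk i j A * (blk i j (θ01 r - A) * (Θ h2 θ01 g * (Θ h2 θ00 g)⁻¹) *
            (blk i j (θ01 r - A))⁻¹) * (blk i j A)⁻¹ * blk i j (θ01 r - θ00 r) := by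
          congr 1
          · rw [e1]; group
          · rw [e2]; group
        _ = _ := by rw [c2.eq]; group

theorem exp_of_center {G : Type} [Group G] [(Subgroup.center G).FiniteIndex]
    (h : ∀ H : Subgroup G, (∀ a b : G, a * b * a⁻¹ * b⁻¹ ∈ H) → ∀ g, g ∈ H) :
    ∃ e, 0 < e ∧ ∀ g : G, g ^ e = 1 := by
  refine ⟨_, Nat.pos_of_ne_zero
    (Subgroup.FiniteIndex.index_ne_zero (H := Subgroup.center G)), fun g => ?_⟩
  rw [← MonoidHom.transferCenterPow_apply]
  have : g ∈ (MonoidHom.transferCenterPow G).ker := by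
    refine h _ (fun a b => ?_) g
    rw [MonoidHom.mem_ker, map_mul, map_mul, map_mul, map_inv, map_inv]
    generalize MonoidHom.transferCenterPow G a = x
    generalize MonoidHom.transferCenterPow G b = y
    have : x * y = y * x := Subtype.ext (Subgroup.mem_center_iff.1 y.2 x)
    rw [this]; group
  rw [MonoidHom.mem_ker.1 this]; rfl

theorem st_f2_exp (h5 : 5 ≤ Fintype.card ι) : ∃ e, 0 < e ∧ ∀ g : St ι (ZMod 2), g ^ e = 1 := by
  have hL : Loc (RingHom.id (ZMod 2)) := ⟨by decide, fun r h => by rw [show r = 1 from h]; simp⟩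
  have h3 : ∀ i j : ι, ∃ k, k ≠ i ∧ k ≠ j := fun i j => by
    obtain ⟨k, h1, h2, -⟩ := five h5 i j j j; exact ⟨k, h1, h2⟩
  haveI : (Subgroup.center (St ι (ZMod 2))).FiniteIndex :=
    Subgroup.finiteIndex_of_le (H := (stπ (ι := ι) (R := ZMod 2)).ker) fun z hz =>
      Subgroup.mem_center_iff.2 fun g => (central_of_ker hL h3 hz g).symm
  refine exp_of_center fun H hH g => St.mem_of_gens _ (fun i j r => ?_) g
  by_cases e : i = j
  · rw [e, isSt_xs.diag]; exact Subgroup.one_mem _
  obtain ⟨k, h1, h2⟩ := h3 i j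
  have := isSt_xs.eq_comm_elt h1.symm h2 e r 1
  rw [mul_one] at this
  rw [this]
  exact hH _ _

variable [Algebra (ZMod 2) R] {ε : R →+* ZMod 2} {Hm : ℕ → R → Prop}

theorem Good.loc (hG : Good R ε Hm) : Loc ε := by
  refine ⟨two_of_algebra, fun r hr => ?_⟩
  obtain ⟨n, hn⟩ := hG.nil Unit (scalar Unit (r - 1)) (by intro i j; simp [hr])
  rw [← map_pow] at hn
  have : IsNilpotent (r - 1) := ⟨n, by simpa using congrFun (congrFun hn ()) ()⟩
  simpa using this.isUnit_add_one

omit [Fintype ι] [DecidableEq ι] in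
theorem Good.wd (hG : Good R ε Hm) (g : St ι R) : ∃ D n, Wd Hm D n g := by
  induction g using st_ind (R := R) two_of_algebra with
  | h1 => exact ⟨0, 0, .one⟩
  | hm i j r g ih =>
    revert g
    induction hG.span r using AddSubmonoid.closure_induction with
    | mem x hx =>
      obtain ⟨d, hd⟩ := hx
      rintro g ⟨D, n, h⟩
      exact ⟨max d D, n + 1, .mul i j d x n g hd (le_max_left _ _) (h.mono (le_max_right _ _))⟩
    | zero => intro g ih; rw [isSt_xs.zero, one_mul]; exact ih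
    | add x y _ _ h1 h2 => intro g ih; rw [isSt_xs.add, mul_assoc]; exact h1 _ (h2 _ ih)

theorem Good.tri (hG : Good R ε Hm) {m : Type} [Fintype m] [DecidableEq m] (rk : m → ℕ)
    {M Δ : Matrix m m (ZMod 2)} (h : Up rk 0 Δ) (h' : Up rk 1 (M - Δ))
    {θ θ0 : R →+* Matrix m m R} (hθ : ∀ d r, Hm d r → ∀ k l, θ r k l = (M ^ d) k l • r)
    (hθ0 : ∀ d r, Hm d r → ∀ k l, θ0 r k l = (Δ ^ d) k l • r) {z : St ι R} (hz : stπ z = 1) :
    Θ two_of_algebra θ.toNonUnitalRingHom z = Θ two_of_algebra θ0.toNonUnitalRingHom z := by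
  refine Θ_tri _ two_of_algebra rk (fun r => ?_) (fun r => ?_) hz
  · show Up rk 1 (θ r - θ0 r)
    induction hG.span r using AddSubmonoid.closure_induction with
    | mem x hx =>
      obtain ⟨d, hd⟩ := hx
      intro k l e
      refine h.pow_sub h' d k l fun e' => e ?_
      rw [Matrix.sub_apply, hθ d x hd, hθ0 d x hd, ← sub_smul, ← Matrix.sub_apply, e', zero_smul]
    | zero => intro k l e; simp at e
    | add x y _ _ h1 h2 => rw [map_add, map_add, add_sub_add_comm]; exact h1.add h2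
  · show Up rk 0 (θ0 r)
    induction hG.span r using AddSubmonoid.closure_induction with
    | mem x hx =>
      obtain ⟨d, hd⟩ := hx
      intro k l e
      refine (by simpa using h.pow d : Up rk 0 (Δ ^ d)) k l fun e' => e ?_
      rw [hθ0 d x hd, e', zero_smul]
    | zero => intro k l e; simp at e
    | add x y _ _ h1 h2 => rw [map_add]; exact h1.add h2

/-- reduction modulo the augmentation ideal -/
def stε (ε : R →+* ZMod 2) : St ι R →* St ι (ZMod 2) := (isSt_xs.comp ε.toNonUnitalRingHom).lift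

theorem Good.cyc (hG : Good R ε Hm) {z : St ι R} (hz : stπ z = 1) (hz0 : stε ε z = 1)
    {D n : ℕ} (hw : Wd Hm D n z) {m h : ℕ} [NeZero m] (hm : m = 2 * h) (hh : (n + 1) * D < h)
    {θ : R →+* Matrix (ZMod m) (ZMod m) R}
    (hθ : ∀ d r, Hm d r → ∀ k l, θ r k l = (ME (fun _ => True) ^ d) k l • r) :
    Θ two_of_algebra θ.toNonUnitalRingHom z = 1 := by
  classical
  obtain ⟨θ0, hθ0⟩ := hG.grad (ZMod m) 0
  have z0 : Θ two_of_algebra θ0.toNonUnitalRingHom z = 1 := by
    have e1 : ∀ r, θ0 r = scalar _ (algebraMap _ R (ε r)) := by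
      intro r
      induction hG.span r using AddSubmonoid.closure_induction with
      | mem x hx =>
        obtain ⟨_ | d, hd⟩ := hx
        · rw [hG.deg0 x hd]; simp
        · rw [hG.deg1 d x hd]
          ext k l; rw [hθ0 _ x hd]; simp
      | zero => simp
      | add x y _ _ h1 h2 => simp only [map_add, h1, h2]
    have : Θ (ι := ι) two_of_algebra θ0.toNonUnitalRingHom = (Θ two_of_algebra
        ((scalar (ZMod m)).comp (algebraMap (ZMod 2) R)).toNonUnitalRingHom).comp (stε ε) :=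
      St.hom_ext fun i j r => by
        simp only [MonoidHom.comp_apply, stε, IsSt.lift_xs, Θ_xs]
        exact congrArg _ (e1 r)
    rw [this, MonoidHom.comp_apply, hz0, map_one]
  have zE : ∀ (E : ZMod m → Prop) e, ¬ E e → ∀ θ' : R →+* Matrix (ZMod m) (ZMod m) R,
      (∀ d r, Hm d r → ∀ k l, θ' r k l = (ME E ^ d) k l • r) →
      Θ two_of_algebra θ'.toNonUnitalRingHom z = 1 := by
    intro E e he θ' h'
    rw [← z0]
    exact hG.tri _ (fun k l e => by simp at e) (by simpa using ME_up he) h' hθ0 hz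
  obtain ⟨θ10, h10⟩ := hG.grad (ZMod m) (ME fun k => k ≠ 0)
  obtain ⟨θ01, h01⟩ := hG.grad (ZMod m) (ME fun k => k ≠ h)
  obtain ⟨θ00, h00⟩ := hG.grad (ZMod m) (ME fun k => k ≠ 0 ∧ k ≠ h)
  have far : ∀ u : ℤ, |u| < h → (h : ZMod m) ≠ u := by
    intro u hu e
    have : ((h - u : ℤ) : ZMod m) = 0 := by push_cast; rw [e, sub_self]
    rw [ZMod.intCast_zmod_eq_zero_iff_dvd] at this
    have h1 := abs_lt.1 hu
    have := Int.le_of_dvd (by omega) this
    omega
  have hD : D < h := lt_of_le_of_lt (by nlinarith) hh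
  have z10 := zE _ 0 (by simp) θ10 h10
  have z01 := zE _ h (by simp) θ01 h01
  have z00 := zE _ 0 (by simp) θ00 h00
  simp only [ME_pow] at hθ h10 h01 h00
  have := (locality two_of_algebra (D := D) θ.toNonUnitalRingHom θ10.toNonUnitalRingHom
    θ01.toNonUnitalRingHom θ00.toNonUnitalRingHom
    (fun s => {k | ∃ t : ℤ, |t| ≤ s * D ∧ k = t}) {k | ∃ t : ℤ, |t| ≤ D ∧ k = h + t}
    ?_ ?_ ?_ ?_ ?_ hw ?_).1
  · rw [z10, z01, z00] at this
    simpa using this
  · rintro s s' hs k ⟨t, h1, rfl⟩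
    exact ⟨t, h1.trans (by gcongr), rfl⟩
  · intro d r hr hd
    ext k l
    show θ r k l - θ01 r k l = θ10 r k l - θ00 r k l
    rw [hθ d r hr, h10 d r hr, h01 d r hr, h00 d r hr]
    by_cases e : l = k + d
    swap
    · simp [e]
    by_cases a1 : ∀ t : ℕ, t < d → k + t ≠ h
    · by_cases a2 : ∀ t : ℕ, t < d → k + t ≠ 0
      · rw [if_pos ⟨e, fun _ _ => trivial⟩, if_pos ⟨e, a1⟩, if_pos ⟨e, a2⟩,
          if_pos ⟨e, fun t ht => ⟨a2 t ht, a1 t ht⟩⟩]
      · rw [if_pos ⟨e, fun _ _ => trivial⟩, if_pos ⟨e, a1⟩, if_neg fun h => a2 h.2,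
          if_neg fun h => a2 fun t ht => (h.2 t ht).1, sub_self, sub_self]
    · have a2 : ∀ t : ℕ, t < d → k + t ≠ 0 := by
        intro t' ht' e'
        push Not at a1
        obtain ⟨t, ht, e''⟩ := a1
        refine far (t - t') (abs_lt.2 ⟨by omega, by omega⟩) ?_
        push_cast
        rw [← e'', ← sub_zero (k + t), ← e']; ring
      rw [if_pos ⟨e, fun _ _ => trivial⟩, if_neg fun h => a1 h.2, if_pos ⟨e, a2⟩,
        if_neg fun h => a1 fun t ht => (h.2 t ht).2]
  · intro d r hr hd k l e0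
    have e0 : θ r k l - θ01 r k l ≠ 0 := e0
    rw [hθ d r hr, h01 d r hr] at e0
    by_cases e : l = k + d
    swap
    · simp [e] at e0
    by_cases a1 : ∀ t : ℕ, t < d → k + t ≠ h
    · rw [if_pos ⟨e, fun _ _ => trivial⟩, if_pos ⟨e, a1⟩, sub_self] at e0
      exact (e0 rfl).elim
    push Not at a1
    obtain ⟨t, ht, e''⟩ := a1
    exact ⟨⟨-t, abs_le.2 ⟨by omega, by omega⟩, by push_cast; rw [← e'']; ring⟩,
      ⟨d - t, abs_le.2 ⟨by omega, by omega⟩, by push_cast; rw [← e'', e]; ring⟩⟩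
  · intro d r hr hd k l e0
    have e0 : θ01 r k l - θ00 r k l ≠ 0 := e0
    rw [h01 d r hr, h00 d r hr] at e0
    by_cases e : l = k + d
    swap
    · simp [e] at e0
    by_cases a1 : ∀ t : ℕ, t < d → k + t ≠ 0
    · refine (e0 ?_).elim
      rw [sub_eq_zero]
      congr 2
      exact propext (and_congr_right fun _ => forall₂_congr fun t ht => by simp [a1 t ht])
    push Not at a1
    obtain ⟨t, ht, e''⟩ := a1
    exact ⟨⟨-t, abs_le.2 ⟨by omega, by omega⟩, by push_cast; rw [← zero_sub, ← e'']; ring⟩,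
      ⟨d - t, abs_le.2 ⟨by omega, by omega⟩, by
        push_cast; rw [e, ← zero_add ((d : ZMod m) - t), ← e'']; ring⟩⟩
  · intro d r hr hd s k l e0 hk
    have e0 : θ01 r k l ≠ 0 := e0
    rw [h01 d r hr] at e0
    have e : l = k + d := by
      by_contra e
      simp [e] at e0
    have hs : ((s + 1 : ℕ) : ℤ) * D = s * D + D := by push_cast; ring
    simp only [Set.mem_setOf_eq, hs]
    rcases hk with ⟨t, h1, h3⟩ | ⟨t, h1, h3⟩ <;> have h4 := abs_le.1 h1
    · exact ⟨⟨t, by omega, h3⟩, ⟨t + d, abs_le.2 ⟨by omega, by omega⟩, by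
        push_cast; rw [e, h3]⟩⟩
    · exact ⟨⟨t - d, abs_le.2 ⟨by omega, by omega⟩, by push_cast; rw [← h3, e]; ring⟩,
        ⟨t, by omega, h3⟩⟩
  · rw [Set.disjoint_left]
    rintro _ ⟨t, h1, rfl⟩ ⟨t', h3, e⟩
    have h4 := abs_le.1 h1
    have h6 := abs_le.1 h3
    have h7 : ((n : ℤ) + 1) * D < h := by exact_mod_cast hh
    refine far (t' - t) (abs_lt.2 ⟨by nlinarith, by nlinarith⟩) ?_
    push_cast
    rw [← e]; ring

theorem Good.ker_tors (hG : Good R ε Hm) (h5 : 5 ≤ Fintype.card ι) {z : St ι R}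
    (hz : stπ z = 1) (hz0 : stε ε z = 1) : IsOfFinOrder z := by
  classical
  obtain ⟨D, n, hw⟩ := hG.wd z
  let κ := (n + 1) * D
  haveI : NeZero (2 ^ (κ + 1)) := ⟨by positivity⟩
  obtain ⟨P, hP, hPC⟩ := exists_binom (m := 2 ^ (κ + 1)) rfl
  obtain ⟨θC, hC⟩ := hG.grad _ (ME (m := 2 ^ (κ + 1)) fun _ => True)
  obtain ⟨θU, hU⟩ := hG.grad _ (1 + ME (m := 2 ^ (κ + 1)) fun k => k ≠ -1)
  obtain ⟨θ1, h1⟩ := hG.grad (ZMod (2 ^ (κ + 1))) 1
  have c5 : 5 ≤ Fintype.card (ι × ZMod (2 ^ (κ + 1))) :=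
    h5.trans (Fintype.card_le_of_injective _ (Prod.mk_left_injective 0))
  have h3 : ∀ i j : ι × ZMod (2 ^ (κ + 1)), ∃ k, k ≠ i ∧ k ≠ j := fun i j => by
    obtain ⟨k, h1, h2, -⟩ := five c5 i j j j; exact ⟨k, h1, h2⟩
  have e1 := hG.cyc hz hz0 hw (h := 2 ^ κ) (pow_succ' 2 κ) Nat.lt_two_pow_self hC
  have e2 := Θ_conj hG.loc h3 (levi_of_det (R := R) P hP) (θ := θC.toNonUnitalRingHom)
    (θ' := θU.toNonUnitalRingHom) (fun r => by
      show P.map _ * θC r = θU r * P.map _
      induction hG.span r using AddSubmonoid.closure_induction with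
      | mem x hx =>
        obtain ⟨d, hd⟩ := hx
        have := (SemiconjBy.pow_right hPC d).eq
        ext k l
        have := congrArg (· • x) (congrFun (congrFun this k) l)
        simp only [Matrix.mul_apply, Finset.sum_smul] at this
        simp only [Matrix.mul_apply, hC d x hd, hU d x hd, map_apply, ← Algebra.commutes,
          ← Algebra.smul_def, smul_smul]
        rw [this]
        exact Finset.sum_congr rfl fun j _ => by rw [mul_comm]
      | zero => simp
      | add x y _ _ h1 h2 => rw [map_add, map_add, mul_add, add_mul, h1, h2]) hz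
  have e3 := hG.tri _ up_one (by simpa using ME_up (E := fun k => k ≠ -1) (e := -1) (by simp))
    hU h1 hz
  have e4 : θ1.toNonUnitalRingHom = dg Finset.univ := by
    ext1 r
    show θ1 r = dg _ r
    induction hG.span r using AddSubmonoid.closure_induction with
    | mem x hx =>
      obtain ⟨d, hd⟩ := hx
      ext k l
      rw [h1 d x hd, dg_apply, one_pow, one_apply]
      simp
    | zero => simp
    | add x y _ _ h1 h2 => rw [map_add, map_add, h1, h2]
  rw [e4, e2, e1, Θ_dg_pow hG.loc h3 0 hz, ← map_pow] at e3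
  refine isOfFinOrder_iff_pow_eq_one.2 ⟨_, ?_, (injective_iff_map_eq_one _).1
    (rel_inj hG.loc h5 _ _ rfl _ _) _ e3.symm⟩
  exact Finset.card_pos.2 Finset.univ_nonempty

theorem Good.tors (hG : Good R ε Hm) (h5 : 5 ≤ Fintype.card ι) (g : St ι R) : IsOfFinOrder g := by
  obtain ⟨e, he, hee⟩ := st_f2_exp h5
  have h1 : stε ε (g ^ e) = 1 := by rw [map_pow, hee]
  have h2 : (stπ : St ι (ZMod 2) →* _).comp (stε ε) =
      (Units.map (nuHom (nuMat ε.toNonUnitalRingHom))).comp stπ :=
    St.hom_ext fun i j r => by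
      simp only [MonoidHom.comp_apply, stε, IsSt.lift_xs, stπ_xs, nu_el]
  have h3 := congrArg Units.val (DFunLike.congr_fun h2 (g ^ e))
  simp only [MonoidHom.comp_apply, h1, map_one, Units.coe_map, Units.val_one] at h3
  obtain ⟨k, hk⟩ := hG.nil ι ((stπ (g ^ e) : Matrix ι ι R) - 1) fun i j => by
    have := congrFun (congrFun h3 i) j
    change _ = ε _ + (_ - ε _) at this
    rw [Matrix.sub_apply, map_sub]
    linear_combination -this
  have h4 : ∀ (a : Matrix ι ι R) (k : ℕ), (1 + a) ^ 2 ^ k = 1 + a ^ 2 ^ k := by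
    intro a k
    induction k with
    | zero => simp
    | succ k ih =>
      rw [pow_succ, pow_mul, pow_mul, ih, sq, add_mul, mul_add, mul_add, one_mul, one_mul, mul_one,
        add_assoc, ← add_assoc (a ^ 2 ^ k), two_of_algebra, zero_add, sq]
  have h6 : stπ ((g ^ e) ^ 2 ^ k) = 1 := by
    ext1
    rw [map_pow, Units.val_pow_eq_pow_val, ← add_sub_cancel 1 (stπ (g ^ e) : Matrix ι ι R), h4,
      pow_eq_zero_of_le Nat.lt_two_pow_self.le hk, add_zero, Units.val_one]
  have := hG.ker_tors h5 h6 (by rw [map_pow, h1, one_pow])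
  exact (this.of_pow (by positivity)).of_pow he.ne'

theorem burnside : ∃ (G : Type) (_ : Group G), Group.IsFinitelyPresented G ∧ Infinite G ∧
    ∀ g : G, IsOfFinOrder g := by
  obtain ⟨ε, Hm, hG⟩ := good_R0
  refine ⟨St (Fin 5) R0, inferInstance, st_fp two_of_algebra (five (by simp)) fp_R0, ?_,
    hG.tors (by simp)⟩
  haveI := infinite_R0
  refine Infinite.of_injective (fun r : R0 => (xs 0 1 r : St (Fin 5) R0)) fun r s h => ?_
  have := congrArg (fun g => (stπ g : Matrix (Fin 5) (Fin 5) R0) 0 1) h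
  simpa [el_val (show (0 : Fin 5) ≠ 1 by decide)] using this

end Vale.Agent.P192
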